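import Mathlib

/-! The greedy algorithm for the shortest common superstring problem. -/

namespace Vale.Agent.P333

universe u

variable {α : Type u} [DecidableEq α]

/-- The strings of `S` that are not substrings of other strings of `S`. -/
def reduceFamily (S : Finset (List α)) : Finset (List α) :=
  S.filter (fun s => ∀ t ∈ S, s <:+: t → s = t)

/-- One step of the greedy algorithm: `o` is a longest overlap (a word which is a final part of
one string and an initial part of another string of the current family `F`), realised by the
distinct strings `s`, `t`; they are replaced by their merge along `o`. -/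
def GreedyStep (F F' : Finset (List α)) : Prop :=
  ∃ s ∈ F, ∃ t ∈ F, s ≠ t ∧ ∃ o : List α, o <:+ s ∧ o <+: t ∧
    (∀ s' ∈ F, ∀ t' ∈ F, s' ≠ t' → ∀ o' : List α, o' <:+ s' → o' <+: t' →
      o'.length ≤ o.length) ∧
    F' = insert (s ++ t.drop o.length) ((F.erase s).erase t)

/-- `G` is an output of the greedy algorithm on `S`, for some way to break ties. -/
def IsGreedyOutput (S : Finset (List α)) (G : List α) : Prop :=
  Relation.ReflTransGen GreedyStep (reduceFamily S) {G}

end Vale.Agent.P333
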