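import Vale.Agent.P333.CExData

/-! The forced greedy run on the sixteen coded words. -/

namespace Vale.Agent.P333.CEx

open Vale.Agent.P333

theorem exists_out : ∃ G : List (Fin 4), IsGreedyOutput (fam st0) G := by
  refine ⟨word m14 ++ word m10, ?_⟩
  unfold IsGreedyOutput
  rw [reduce_fam ffree_0]
  refine .head (step chk_0 nxt_0) ?_
  refine .head (step chk_1 nxt_1) ?_
  refine .head (step chk_2 nxt_2) ?_
  refine .head (step chk_3 nxt_3) ?_
  refine .head (step chk_4 nxt_4) ?_
  refine .head (step chk_5 nxt_5) ?_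
  refine .head (step chk_6 nxt_6) ?_
  refine .head (step chk_7 nxt_7) ?_
  refine .head (step chk_8 nxt_8) ?_
  refine .head (step chk_9 nxt_9) ?_
  refine .head (step chk_10 nxt_10) ?_
  refine .head (step chk_11 nxt_11) ?_
  refine .head (step chk_12 nxt_12) ?_
  refine .head (step chk_13 nxt_13) ?_
  exact .single (exists_last chk_last)

theorem out_length {G : List (Fin 4)} (hG : IsGreedyOutput (fam st0) G) : G.length = 1440 := by
  unfold IsGreedyOutput at hG
  rw [reduce_fam ffree_0] at hG
  have h1 := out_step chk_0 nxt_0 hG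
  have h2 := out_step chk_1 nxt_1 h1
  have h3 := out_step chk_2 nxt_2 h2
  have h4 := out_step chk_3 nxt_3 h3
  have h5 := out_step chk_4 nxt_4 h4
  have h6 := out_step chk_5 nxt_5 h5
  have h7 := out_step chk_6 nxt_6 h6
  have h8 := out_step chk_7 nxt_7 h7
  have h9 := out_step chk_8 nxt_8 h8
  have h10 := out_step chk_9 nxt_9 h9
  have h11 := out_step chk_10 nxt_10 h10
  have h12 := out_step chk_11 nxt_11 h11
  have h13 := out_step chk_12 nxt_12 h12
  have h14 := out_step chk_13 nxt_13 h13
  exact out_last chk_last h14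

theorem word_w0_mem : word w0 ∈ fam st0 := mem_fam.mpr ⟨w0, by simp [st0], rfl⟩

end Vale.Agent.P333.CEx
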