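import Vale.Agent.P333.Defs

/-! Checking greedy runs on words over four letters that are coded by numbers in base four. -/

namespace Vale.Agent.P333.CEx

open Vale.Agent.P333

/-- The word of length `n` with the base-four digits of `v`. -/
def dec : ℕ → ℕ → List (Fin 4)
  | 0, _ => []
  | n + 1, v => dec n (v / 4) ++ [⟨v % 4, Nat.mod_lt _ (by decide)⟩]

@[simp] theorem dec_length (n v : ℕ) : (dec n v).length = n := by
  induction n generalizing v with
  | zero => rfl
  | succ n ih => simp [dec, ih]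

theorem dec_add (n m x : ℕ) : dec (n + m) x = dec n (x / 4 ^ m) ++ dec m x := by
  induction m generalizing x with
  | zero => simp [dec]
  | succ m ih =>
    rw [← Nat.add_assoc, dec, ih, dec, List.append_assoc, Nat.div_div_eq_div_mul, pow_succ']

theorem dec_mod (m x : ℕ) : dec m (x % 4 ^ m) = dec m x := by
  induction m generalizing x with
  | zero => rfl
  | succ m ih =>
    have h1 : (x % 4 ^ (m + 1)) / 4 = (x / 4) % 4 ^ m := by
      rw [pow_succ', Nat.mod_mul_right_div_self]
    have h2 : (x % 4 ^ (m + 1)) % 4 = x % 4 := Nat.mod_mod_of_dvd x (dvd_pow_self 4 (by omega))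
    simp only [dec, h1, h2, ih]

theorem dec_inj {m x y : ℕ} (h : dec m x = dec m y) : x % 4 ^ m = y % 4 ^ m := by
  induction m generalizing x y with
  | zero => simp [Nat.mod_one]
  | succ m ih =>
    simp only [dec] at h
    have h1 := List.append_inj h (by simp)
    have h2 := ih h1.1
    have h3 : x % 4 = y % 4 := by
      have := h1.2
      simp only [List.cons.injEq, Fin.mk.injEq, and_true] at this
      exact this
    rw [pow_succ', Nat.mod_mul, Nat.mod_mul, h2, h3]

theorem dec_congr {m x y : ℕ} (h : x % 4 ^ m = y % 4 ^ m) : dec m x = dec m y := by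
  rw [← dec_mod m x, ← dec_mod m y, h]

theorem dec_split {n m : ℕ} (h : m ≤ n) (x : ℕ) : dec n x = dec m (x / 4 ^ (n - m)) ++
    dec (n - m) x := by
  have := dec_add m (n - m) x
  rwa [Nat.add_sub_cancel' h] at this

theorem suffix_eq {o : List (Fin 4)} {n x : ℕ} (h : o <:+ dec n x) : o = dec o.length x := by
  obtain ⟨l, hl⟩ := h
  have hn : n = l.length + o.length := by
    have := congrArg List.length hl
    simp only [List.length_append, dec_length] at this
    omega
  rw [hn, dec_add] at hl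
  exact (List.append_inj' hl (by simp)).2

theorem prefix_eq {o : List (Fin 4)} {n x : ℕ} (h : o <+: dec n x) :
    o = dec o.length (x / 4 ^ (n - o.length)) := by
  obtain ⟨r, hr⟩ := h
  have hn : n = o.length + r.length := by
    have := congrArg List.length hr
    simp only [List.length_append, dec_length] at this
    omega
  rw [hn, dec_add] at hr
  have := (List.append_inj hr (by simp)).1
  rw [hn, Nat.add_sub_cancel_left]
  exact this

theorem drop_eq {n k y : ℕ} (hk : k ≤ n) : (dec n y).drop k = dec (n - k) y := by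
  rw [dec_split hk, List.drop_left' (by simp)]

theorem infix_dec {n x n' y q : ℕ} (hq : q + n ≤ n') (h : x % 4 ^ n = (y / 4 ^ q) % 4 ^ n) :
    dec n x <:+: dec n' y := by
  rw [dec_congr h]
  have e1 := dec_add (n' - q) q y
  rw [Nat.sub_add_cancel (by omega)] at e1
  have e2 := dec_add (n' - q - n) n (y / 4 ^ q)
  rw [Nat.sub_add_cancel (by omega)] at e2
  exact ⟨dec (n' - q - n) (y / 4 ^ q / 4 ^ n), dec q y, by rw [e1, e2]⟩

theorem of_infix_dec {n x n' y : ℕ} (h : dec n x <:+: dec n' y) :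
    ∃ q, q + n ≤ n' ∧ x % 4 ^ n = (y / 4 ^ q) % 4 ^ n := by
  obtain ⟨l, r, hlr⟩ := h
  have hn : n' = l.length + n + r.length := by
    have := congrArg List.length hlr
    simp only [List.length_append, dec_length] at this
    omega
  refine ⟨r.length, by omega, ?_⟩
  rw [hn, dec_add] at hlr
  have h1 := (List.append_inj' hlr (by simp)).1
  rw [dec_add] at h1
  exact dec_inj (List.append_inj' h1 (by simp)).2

/-- The word of a code. -/
def word (p : ℕ × ℕ) : List (Fin 4) := dec p.1 p.2

/-- The family of a list of codes. -/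
def fam (L : List (ℕ × ℕ)) : Finset (List (Fin 4)) := (L.map word).toFinset

theorem mem_fam {L : List (ℕ × ℕ)} {W : List (Fin 4)} : W ∈ fam L ↔ ∃ p ∈ L, word p = W := by
  simp [fam]

/-- The code of the merge of two words along an overlap of length `k`. -/
def mrg (a b : ℕ × ℕ) (k : ℕ) : ℕ × ℕ :=
  (a.1 + (b.1 - k), a.2 * 4 ^ (b.1 - k) + b.2 % 4 ^ (b.1 - k))

theorem word_mrg {a b : ℕ × ℕ} {k : ℕ} (hk : k ≤ b.1) :
    word (mrg a b k) = word a ++ (word b).drop k := by
  have hpos : 0 < 4 ^ (b.1 - k) := by positivity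
  have h1 : (a.2 * 4 ^ (b.1 - k) + b.2 % 4 ^ (b.1 - k)) / 4 ^ (b.1 - k) = a.2 := by
    rw [Nat.mul_comm, Nat.mul_add_div hpos, Nat.div_eq_of_lt (Nat.mod_lt _ hpos), add_zero]
  have h2 : (a.2 * 4 ^ (b.1 - k) + b.2 % 4 ^ (b.1 - k)) % 4 ^ (b.1 - k) =
      b.2 % 4 ^ (b.1 - k) := by
    rw [Nat.mul_comm, Nat.mul_add_mod, Nat.mod_mod]
  have h3 := dec_add a.1 (b.1 - k) (a.2 * 4 ^ (b.1 - k) + b.2 % 4 ^ (b.1 - k))
  rw [h1, dec_congr h2] at h3
  unfold word
  rw [drop_eq hk]
  exact h3

/-- No overlap of a length in `(k, k + d]`. -/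
def noOv (x y n' k : ℕ) : ℕ → Bool
  | 0 => true
  | d + 1 => (Nat.beq (x % 4 ^ (k + d + 1)) (y / 4 ^ (n' - (k + d + 1)) % 4 ^ (k + d + 1))).not &&
      noOv x y n' k d

theorem noOv_spec {x y n' k d : ℕ} (h : noOv x y n' k d = true) {m : ℕ} (h1 : k < m)
    (h2 : m ≤ k + d) : x % 4 ^ m ≠ y / 4 ^ (n' - m) % 4 ^ m := by
  induction d with
  | zero => omega
  | succ d ih =>
    simp only [noOv, Bool.and_eq_true, Bool.not_eq_true'] at h
    rcases Nat.lt_or_ge m (k + d + 1) with hm | hm
    · exact ih h.2 (by omega)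
    · have e : m = k + d + 1 := by omega
      subst e
      exact Nat.ne_of_beq_eq_false h.1

/-- All overlaps of `p` with `q` have length at most `k`. -/
def ovLe (k : ℕ) (p q : ℕ × ℕ) : Bool := noOv p.2 q.2 q.1 k (min p.1 q.1 - k)

theorem ovLe_spec {k : ℕ} {p q : ℕ × ℕ} (h : ovLe k p q = true) {o : List (Fin 4)}
    (h1 : o <:+ word p) (h2 : o <+: word q) : o.length ≤ k := by
  by_contra hcon
  push Not at hcon
  have l1 := h1.length_le
  have l2 := h2.length_le
  unfold word at l1 l2 h1 h2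
  rw [dec_length] at l1 l2
  have e1 := suffix_eq h1
  have e2 := prefix_eq h2
  rw [e1] at e2
  rw [dec_length] at e2
  exact noOv_spec h hcon (by omega) (dec_inj e2)

/-- `a` and `b` have an overlap of length `k`. -/
def hasOv (a b : ℕ × ℕ) (k : ℕ) : Bool :=
  Nat.ble k a.1 && Nat.ble k b.1 && Nat.beq (a.2 % 4 ^ k) (b.2 / 4 ^ (b.1 - k) % 4 ^ k)

theorem hasOv_spec {a b : ℕ × ℕ} {k : ℕ} (h : hasOv a b k = true) :
    k ≤ b.1 ∧ ∃ o : List (Fin 4), o.length = k ∧ o <:+ word a ∧ o <+: word b := by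
  simp only [hasOv, Bool.and_eq_true] at h
  obtain ⟨⟨h1, h2⟩, h3⟩ := h
  have h1' := Nat.le_of_ble_eq_true h1
  have h2' := Nat.le_of_ble_eq_true h2
  have h3' := Nat.eq_of_beq_eq_true h3
  refine ⟨h2', dec k a.2, by simp, ?_, ?_⟩
  · have := dec_add (a.1 - k) k a.2
    rw [Nat.sub_add_cancel h1'] at this
    unfold word
    rw [this]
    exact List.suffix_append _ _
  · rw [dec_congr h3']
    unfold word
    rw [dec_split h2' b.2]
    exact List.prefix_append _ _

/-- Equality of codes. -/
def eqc (p q : ℕ × ℕ) : Bool := Nat.beq p.1 q.1 && Nat.beq p.2 q.2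

theorem eqc_spec {p q : ℕ × ℕ} : eqc p q = true ↔ p = q := by
  simp only [eqc, Bool.and_eq_true, Prod.ext_iff]
  constructor
  · rintro ⟨h1, h2⟩
    exact ⟨Nat.eq_of_beq_eq_true h1, Nat.eq_of_beq_eq_true h2⟩
  · rintro ⟨h1, h2⟩
    rw [h1, h2]
    exact ⟨Nat.beq_refl _, Nat.beq_refl _⟩

/-- The codes give different words. -/
def neW (p q : ℕ × ℕ) : Bool :=
  (Nat.beq p.1 q.1 && Nat.beq (p.2 % 4 ^ p.1) (q.2 % 4 ^ p.1)).not

theorem neW_spec {p q : ℕ × ℕ} (h : neW p q = true) : word p ≠ word q := by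
  intro hw
  have h1 : p.1 = q.1 := by
    have := congrArg List.length hw
    unfold word at this
    rwa [dec_length, dec_length] at this
  unfold word at hw
  rw [← h1] at hw
  have h2 := dec_inj hw
  simp only [neW, Bool.not_eq_true', Bool.and_eq_false_iff] at h
  rcases h with h | h
  · exact Nat.ne_of_beq_eq_false h h1
  · exact Nat.ne_of_beq_eq_false h h2

/-- The check of one greedy step: the overlap of length `k + 1` of `a` and `b` is longer than
every other overlap of two different words of the family. -/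
def chk (L : List (ℕ × ℕ)) (a b : ℕ × ℕ) (k : ℕ) : Bool :=
  L.any (eqc a) && L.any (eqc b) && (eqc a b).not && hasOv a b (k + 1) &&
    L.all (fun p => L.all (fun q => eqc p q ||
      (neW p q && ovLe (bif eqc p a && eqc q b then k + 1 else k) p q)))

/-- The other codes. -/
def others (L : List (ℕ × ℕ)) (a b : ℕ × ℕ) : List (ℕ × ℕ) :=
  L.filter (fun p => (eqc p a || eqc p b).not)

/-- What the check says. -/
structure Good (L : List (ℕ × ℕ)) (a b : ℕ × ℕ) (k : ℕ) : Prop where
  ha : a ∈ L
  hb : b ∈ L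
  hab : a ≠ b
  hkb : k + 1 ≤ b.1
  ho : ∃ o : List (Fin 4), o.length = k + 1 ∧ o <:+ word a ∧ o <+: word b
  hne : ∀ p ∈ L, ∀ q ∈ L, p ≠ q → word p ≠ word q
  hle : ∀ p ∈ L, ∀ q ∈ L, p ≠ q → ∀ o : List (Fin 4), o <:+ word p → o <+: word q →
    o.length ≤ k + 1
  hlt : ∀ p ∈ L, ∀ q ∈ L, p ≠ q → (p ≠ a ∨ q ≠ b) → ∀ o : List (Fin 4), o <:+ word p →
    o <+: word q → o.length ≤ k

theorem good {L : List (ℕ × ℕ)} {a b : ℕ × ℕ} {k : ℕ} (h : chk L a b k = true) :
    Good L a b k := by
  simp only [chk, Bool.and_eq_true, List.any_eq_true, List.all_eq_true, Bool.or_eq_true,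
    eqc_spec, Bool.not_eq_true'] at h
  obtain ⟨⟨⟨⟨⟨a', ha, rfl⟩, ⟨b', hb, rfl⟩⟩, hab⟩, hov⟩, hmax⟩ := h
  have hab' : a ≠ b := fun h => by
    rw [(eqc_spec (p := a) (q := b)).mpr h] at hab
    exact absurd hab (by decide)
  have hne : ∀ p ∈ L, ∀ q ∈ L, p ≠ q → word p ≠ word q := by
    intro p hp q hq hpq
    rcases hmax p hp q hq with h1 | h1
    · exact absurd h1 hpq
    · exact neW_spec h1.1
  obtain ⟨hkb, ho⟩ := hasOv_spec hov
  have hlt : ∀ p ∈ L, ∀ q ∈ L, p ≠ q → (p ≠ a ∨ q ≠ b) → ∀ o : List (Fin 4), o <:+ word p →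
      o <+: word q → o.length ≤ k := by
    intro p hp q hq hpq hcase o h1 h2
    rcases hmax p hp q hq with h3 | h3
    · exact absurd h3 hpq
    · have e : (eqc p a && eqc q b) = false := by
        rcases hcase with h4 | h4
        · have : eqc p a = false := by
            by_contra hcon
            rw [Bool.not_eq_false, eqc_spec] at hcon
            exact h4 hcon
          rw [this, Bool.false_and]
        · have : eqc q b = false := by
            by_contra hcon
            rw [Bool.not_eq_false, eqc_spec] at hcon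
            exact h4 hcon
          rw [this, Bool.and_false]
      have h4 := h3.2
      rw [e, cond_false] at h4
      exact ovLe_spec h4 h1 h2
  refine ⟨ha, hb, hab', hkb, ho, hne, ?_, hlt⟩
  intro p hp q hq hpq o h1 h2
  by_cases hc : p ≠ a ∨ q ≠ b
  · exact (hlt p hp q hq hpq hc o h1 h2).trans (Nat.le_succ k)
  · push Not at hc
    rcases hmax p hp q hq with h3 | h3
    · exact absurd h3 hpq
    · have h4 := h3.2
      rw [(eqc_spec (p := p) (q := a)).mpr hc.1, (eqc_spec (p := q) (q := b)).mpr hc.2] at h4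
      rw [Bool.and_true, cond_true] at h4
      exact ovLe_spec h4 h1 h2

theorem fam_next {L L' : List (ℕ × ℕ)} {a b : ℕ × ℕ} {k : ℕ} (g : Good L a b k)
    (hL : L' = mrg a b (k + 1) :: others L a b) :
    fam L' = insert (word a ++ (word b).drop (k + 1)) (((fam L).erase (word a)).erase (word b)) := by
  ext W
  rw [← word_mrg g.hkb]
  simp only [mem_fam, Finset.mem_insert, Finset.mem_erase, hL, List.mem_cons, others,
    List.mem_filter, Bool.not_eq_true', Bool.or_eq_false_iff]
  constructor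
  · rintro ⟨p, h1 | ⟨h1, h2, h3⟩, rfl⟩
    · left
      rw [h1]
    · right
      have n1 : p ≠ a := fun h => by
        rw [(eqc_spec (p := p) (q := a)).mpr h] at h2
        exact absurd h2 (by decide)
      have n2 : p ≠ b := fun h => by
        rw [(eqc_spec (p := p) (q := b)).mpr h] at h3
        exact absurd h3 (by decide)
      exact ⟨g.hne p h1 b g.hb n2, g.hne p h1 a g.ha n1, p, h1, rfl⟩
  · rintro (h1 | ⟨h1, h2, p, h3, h4⟩)
    · exact ⟨mrg a b (k + 1), Or.inl rfl, h1.symm⟩
    · refine ⟨p, Or.inr ⟨h3, ?_, ?_⟩, h4⟩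
      · by_contra hcon
        rw [Bool.not_eq_false, eqc_spec] at hcon
        rw [hcon] at h4
        exact h2 h4.symm
      · by_contra hcon
        rw [Bool.not_eq_false, eqc_spec] at hcon
        rw [hcon] at h4
        exact h1 h4.symm

theorem step {L L' : List (ℕ × ℕ)} {a b : ℕ × ℕ} {k : ℕ} (h : chk L a b k = true)
    (hL : L' = mrg a b (k + 1) :: others L a b) : GreedyStep (fam L) (fam L') := by
  have g := good h
  obtain ⟨o, ho1, ho2, ho3⟩ := g.ho
  refine ⟨word a, mem_fam.mpr ⟨a, g.ha, rfl⟩, word b, mem_fam.mpr ⟨b, g.hb, rfl⟩,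
    g.hne a g.ha b g.hb g.hab, o, ho2, ho3, ?_, ?_⟩
  · intro s hs t ht hst o' h1 h2
    obtain ⟨p, hp, rfl⟩ := mem_fam.mp hs
    obtain ⟨q, hq, rfl⟩ := mem_fam.mp ht
    rw [ho1]
    exact g.hle p hp q hq (fun h => hst (by rw [h])) o' h1 h2
  · rw [ho1]
    exact fam_next g hL

/-- The step is forced. -/
theorem step_unique {L L' : List (ℕ × ℕ)} {a b : ℕ × ℕ} {k : ℕ} (h : chk L a b k = true)
    (hL : L' = mrg a b (k + 1) :: others L a b) {F : Finset (List (Fin 4))}
    (hF : GreedyStep (fam L) F) : F = fam L' := by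
  have g := good h
  obtain ⟨s, hs, t, ht, hst, o, h1, h2, hmax, rfl⟩ := hF
  obtain ⟨p, hp, rfl⟩ := mem_fam.mp hs
  obtain ⟨q, hq, rfl⟩ := mem_fam.mp ht
  have hpq : p ≠ q := fun h => hst (by rw [h])
  obtain ⟨o1, ho1, ho2, ho3⟩ := g.ho
  have hge : k + 1 ≤ o.length := by
    rw [← ho1]
    exact hmax _ (mem_fam.mpr ⟨a, g.ha, rfl⟩) _ (mem_fam.mpr ⟨b, g.hb, rfl⟩)
      (g.hne a g.ha b g.hb g.hab) o1 ho2 ho3
  by_cases hc : p ≠ a ∨ q ≠ b
  · exact absurd (g.hlt p hp q hq hpq hc o h1 h2) (by omega)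
  · push Not at hc
    obtain ⟨rfl, rfl⟩ := hc
    have hle := g.hle p hp q hq hpq o h1 h2
    have he : o.length = k + 1 := le_antisymm hle hge
    rw [he, fam_next g hL]

theorem ne_singleton {L : List (ℕ × ℕ)} {a b : ℕ × ℕ} (ha : a ∈ L) (hb : b ∈ L)
    (hab : word a ≠ word b) (G : List (Fin 4)) : fam L ≠ {G} := by
  intro h
  have h1 : word a ∈ fam L := mem_fam.mpr ⟨a, ha, rfl⟩
  have h2 : word b ∈ fam L := mem_fam.mpr ⟨b, hb, rfl⟩
  rw [h, Finset.mem_singleton] at h1 h2
  exact hab (h1.trans h2.symm)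

theorem out_step {L L' : List (ℕ × ℕ)} {a b : ℕ × ℕ} {k : ℕ} (h : chk L a b k = true)
    (hL : L' = mrg a b (k + 1) :: others L a b) {G : List (Fin 4)}
    (hG : Relation.ReflTransGen GreedyStep (fam L) {G}) :
    Relation.ReflTransGen GreedyStep (fam L') {G} := by
  have g := good h
  rcases Relation.ReflTransGen.cases_head hG with h1 | ⟨F, h1, h2⟩
  · exact absurd h1 (ne_singleton g.ha g.hb (g.hne a g.ha b g.hb g.hab) G)
  · rwa [step_unique h hL h1] at h2

theorem no_step {G : List (Fin 4)} {F : Finset (List (Fin 4))} (h : GreedyStep {G} F) : False := by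
  obtain ⟨s, hs, t, ht, hst, -⟩ := h
  rw [Finset.mem_singleton] at hs ht
  exact hst (hs.trans ht.symm)

/-- The check of the last step: two words with no overlap. -/
def chkLast (u v : ℕ × ℕ) : Bool := neW u v && ovLe 0 u v && ovLe 0 v u

theorem last_step {u v : ℕ × ℕ} (h : chkLast u v = true) {F : Finset (List (Fin 4))}
    (hF : GreedyStep (fam [u, v]) F) : ∃ G : List (Fin 4), F = {G} ∧ G.length = u.1 + v.1 := by
  simp only [chkLast, Bool.and_eq_true] at h
  obtain ⟨⟨h1, h2⟩, h3⟩ := h
  have hne := neW_spec h1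
  obtain ⟨s, hs, t, ht, hst, o, h4, h5, -, rfl⟩ := hF
  have hfam : fam [u, v] = {word u, word v} := by
    ext W
    rw [mem_fam]
    simp [eq_comm]
  rw [hfam, Finset.mem_insert, Finset.mem_singleton] at hs ht
  rw [hfam]
  rcases hs with rfl | rfl <;> rcases ht with rfl | rfl
  · exact absurd rfl hst
  · have h6 := ovLe_spec h2 h4 h5
    refine ⟨word u ++ word v, ?_, ?_⟩
    · rw [Nat.le_zero.mp h6, List.drop_zero]
      ext W
      simp only [Finset.mem_insert, Finset.mem_erase, Finset.mem_singleton]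
      constructor
      · rintro (h7 | ⟨h7, h8, h9 | h9⟩)
        · exact h7
        · exact absurd h9 h8
        · exact absurd h9 h7
      · exact fun h7 => Or.inl h7
    · unfold word
      simp
  · have h6 := ovLe_spec h3 h4 h5
    refine ⟨word v ++ word u, ?_, ?_⟩
    · rw [Nat.le_zero.mp h6, List.drop_zero]
      ext W
      simp only [Finset.mem_insert, Finset.mem_erase, Finset.mem_singleton]
      constructor
      · rintro (h7 | ⟨h7, h8, h9 | h9⟩)
        · exact h7
        · exact absurd h9 h7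
        · exact absurd h9 h8
      · exact fun h7 => Or.inl h7
    · unfold word
      simp [Nat.add_comm]
  · exact absurd rfl hst

theorem out_last {u v : ℕ × ℕ} (h : chkLast u v = true) {G : List (Fin 4)}
    (hG : Relation.ReflTransGen GreedyStep (fam [u, v]) {G}) : G.length = u.1 + v.1 := by
  rcases Relation.ReflTransGen.cases_head hG with h1 | ⟨F, h1, h2⟩
  · have hne : word u ≠ word v := by
      simp only [chkLast, Bool.and_eq_true] at h
      exact neW_spec h.1.1
    exact absurd h1 (ne_singleton (L := [u, v]) (a := u) (b := v) (by simp) (by simp) hne G)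
  · obtain ⟨G', rfl, hG'⟩ := last_step h h1
    rcases Relation.ReflTransGen.cases_head h2 with h3 | ⟨F', h3, -⟩
    · rw [Finset.singleton_inj] at h3
      rw [← h3, hG']
    · exact (no_step h3).elim

theorem exists_last {u v : ℕ × ℕ} (h : chkLast u v = true) :
    GreedyStep (fam [u, v]) {word u ++ word v} := by
  simp only [chkLast, Bool.and_eq_true] at h
  obtain ⟨⟨h1, h2⟩, h3⟩ := h
  have hne := neW_spec h1
  have hfam : fam [u, v] = {word u, word v} := by
    ext W
    rw [mem_fam]
    simp [eq_comm]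
  rw [hfam]
  refine ⟨word u, by simp, word v, by simp, hne, [], List.nil_suffix, List.nil_prefix, ?_, ?_⟩
  · intro s hs t ht hst o h4 h5
    rw [Finset.mem_insert, Finset.mem_singleton] at hs ht
    rcases hs with rfl | rfl <;> rcases ht with rfl | rfl
    · exact absurd rfl hst
    · exact ovLe_spec h2 h4 h5
    · exact ovLe_spec h3 h4 h5
    · exact absurd rfl hst
  · ext W
    simp only [Finset.mem_insert, Finset.mem_erase, Finset.mem_singleton, List.length_nil,
      List.drop_zero]
    constructor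
    · exact fun h7 => Or.inl h7
    · rintro (h7 | ⟨h7, h8, h9 | h9⟩)
      · exact h7
      · exact absurd h9 h8
      · exact absurd h9 h7

/-- `p` is not a factor of `q` at the shifts `0, ..., d`. -/
def noFac (p q : ℕ × ℕ) : ℕ → Bool
  | 0 => (Nat.beq (p.2 % 4 ^ p.1) (q.2 % 4 ^ p.1)).not
  | d + 1 => (Nat.beq (p.2 % 4 ^ p.1) (q.2 / 4 ^ (d + 1) % 4 ^ p.1)).not && noFac p q d

theorem noFac_spec {p q : ℕ × ℕ} {d : ℕ} (h : noFac p q d = true) {s : ℕ} (hs : s ≤ d) :
    p.2 % 4 ^ p.1 ≠ q.2 / 4 ^ s % 4 ^ p.1 := by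
  induction d with
  | zero =>
    have e : s = 0 := by omega
    subst e
    simp only [noFac, Bool.not_eq_true'] at h
    simpa using Nat.ne_of_beq_eq_false h
  | succ d ih =>
    simp only [noFac, Bool.and_eq_true, Bool.not_eq_true'] at h
    rcases Nat.lt_or_ge s (d + 1) with hm | hm
    · exact ih h.2 (by omega)
    · have e : s = d + 1 := by omega
      subst e
      exact Nat.ne_of_beq_eq_false h.1

/-- No code of the list is a factor of another one. -/
def ffree (L : List (ℕ × ℕ)) : Bool :=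
  L.all (fun p => L.all (fun q => eqc p q || Nat.blt q.1 p.1 || noFac p q (q.1 - p.1)))

theorem reduce_fam {L : List (ℕ × ℕ)} (h : ffree L = true) : reduceFamily (fam L) = fam L := by
  unfold reduceFamily
  rw [Finset.filter_true_of_mem]
  intro s hs t ht hst
  obtain ⟨p, hp, rfl⟩ := mem_fam.mp hs
  obtain ⟨q, hq, rfl⟩ := mem_fam.mp ht
  simp only [ffree, List.all_eq_true, Bool.or_eq_true, eqc_spec] at h
  rcases h p hp q hq with (h1 | h1) | h1
  · rw [h1]
  · exfalso
    have h2 := hst.length_le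
    unfold word at h2
    rw [dec_length, dec_length] at h2
    have h3 : q.1 < p.1 := by
      have := h1
      simp only [Nat.blt] at this
      exact Nat.lt_of_succ_le (Nat.le_of_ble_eq_true this)
    omega
  · exfalso
    obtain ⟨s, h2, h3⟩ := of_infix_dec hst
    exact noFac_spec h1 (s := s) (by omega) h3

/-- Every code of the list is a factor of the word coded by `t`, at the given shifts. -/
def allIn (t : ℕ × ℕ) : List (ℕ × ℕ) → List ℕ → Bool
  | [], _ => true
  | p :: L, q :: Q => Nat.ble (q + p.1) t.1 &&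
      Nat.beq (p.2 % 4 ^ p.1) (t.2 / 4 ^ q % 4 ^ p.1) && allIn t L Q
  | _ :: _, [] => false

theorem allIn_spec {t : ℕ × ℕ} {L : List (ℕ × ℕ)} {Q : List ℕ} (h : allIn t L Q = true) :
    ∀ s ∈ fam L, s <:+: word t := by
  intro s hs
  obtain ⟨p, hp, rfl⟩ := mem_fam.mp hs
  clear hs
  induction L generalizing Q with
  | nil => simp at hp
  | cons p' L ih =>
    cases Q with
    | nil => simp [allIn] at h
    | cons q Q =>
      simp only [allIn, Bool.and_eq_true] at h
      rcases List.mem_cons.mp hp with h1 | h1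
      · rw [h1]
        exact infix_dec (Nat.le_of_ble_eq_true h.1.1) (Nat.eq_of_beq_eq_true h.1.2)
      · exact ih h.2 h1

theorem fam_singleton (p : ℕ × ℕ) : fam [p] = {word p} := by
  ext W
  rw [mem_fam]
  simp [eq_comm]

end Vale.Agent.P333.CEx
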