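import Vale.Agent.P333.Core

/-! Positions without a leaf lie in high-periodic closings. -/

namespace Vale.Agent.P333

universe u

variable {α : Type u} {S : Finset (List α)} {G : List α} {pos : List α → ℕ}

/-- The strings from `a` to `b` form a path of links with overlap at least `m`, which is closed by
the common border of length `m`. -/
structure Closing (S : Finset (List α)) (G : List α) (pos : List α → ℕ) (a b : List α) (m : ℕ) :
    Prop where
  ha : a ∈ S
  hb : b ∈ S
  hma : m < a.length
  hmb : m < b.length
  hab : pos a ≤ pos b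
  border : sub G (pos a) (pos a + m) = sub G (pos b + b.length - m) (pos b + b.length)
  inA : ∀ t ∈ S, pos t < pos a → pos t + t.length < pos a + m
  outB : ∀ t ∈ S, pos b < pos t → pos b + b.length < pos t + m
  links : ∀ s ∈ S, pos a ≤ pos s → pos s < pos b →
    ∃ t ∈ S, pos s < pos t ∧ pos t + m ≤ pos s + s.length

/-- The position `p` lies in the middle part of a high-periodic closing. -/
def IsolatedAt (S : Finset (List α)) (G : List α) (pos : List α → ℕ) (p : ℕ) : Prop :=
  ∃ a b m, Closing S G pos a b m ∧ pos b + b.length < pos a + 2 * m ∧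
    pos b + b.length ≤ p + m ∧ p < pos a + m

theorem closing_of_sets (h : Placement S G pos) {v a b : List α} (ha : SSet S pos v a)
    (hb : ESet S pos v b) : Closing S G pos a b v.length := by
  obtain ⟨g1, g2⟩ := h.greedy v a b ha hb
  obtain ⟨haS, hapre, halt, hain⟩ := ha
  obtain ⟨hbS, hbsuf, hblt, hbout⟩ := hb
  refine ⟨haS, hbS, halt, hblt, g1, ?_, hain, hbout, g2⟩
  have oa := h.occ a haS
  have ob := h.occ b hbS
  have e1 := oa.sub_eq (i := 0) (j := v.length) halt.le
  have e2 := ob.sub_eq (i := b.length - v.length) (j := b.length) le_rfl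
  have h1 : sub a 0 v.length = v := by
    obtain ⟨r, hr⟩ := hapre
    unfold sub
    rw [← hr]
    simp
  have h2 : sub b (b.length - v.length) b.length = v := by
    obtain ⟨l, hl⟩ := hbsuf
    unfold sub
    have e : b.length - v.length = l.length := by rw [← hl]; simp
    have e' : b.length - l.length = v.length := by rw [← hl]; simp
    rw [e, e']
    have e3 : b.drop l.length = v := by rw [← hl]; simp
    rw [e3]
    simp
  rw [h1, add_zero] at e1
  rw [h2] at e2
  rw [e1]
  have e4 : pos b + b.length - v.length = pos b + (b.length - v.length) := by omega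
  rw [e4, e2]

theorem leaf_or_isolated (h : Placement S G pos) {p : ℕ} (hp : p < G.length) :
    (∃ s ∈ S, Reach (ruleR S pos) G p (pos s) (pos s + s.length)) ∨
    (∃ s ∈ S, Reach (ruleL S pos) G p (pos s) (pos s + s.length)) ∨
    IsolatedAt S G pos p := by
  rcases stuckR h hp with hR | ⟨i, j, b, a, hr, hE, hA, hbj, hbi⟩
  · exact Or.inl hR
  rcases stuckL h hp with hL | ⟨i', j', a', b', hr', hA', hE', hai, haj⟩
  · exact Or.inr (Or.inl hL)
  right
  right
  have hb := hr.bounds
  have hb' := hr'.bounds
  have len := sub_length (U := G) (i := i) (j := j) hb.2.2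
  have len' := sub_length (U := G) (i := i') (j := j') hb'.2.2
  have C := closing_of_sets h hA hE
  have C' := closing_of_sets h hA' hE'
  rw [len] at C
  rw [len'] at C'
  by_cases hcase : pos b < pos a'
  · exfalso
    obtain ⟨hbS, hbsuf, hblt, hbout⟩ := hE
    obtain ⟨ha'S, ha'pre, ha'lt, ha'in⟩ := hA'
    rw [len] at hbout
    rw [len'] at ha'in
    have c1 := hbout a' ha'S hcase
    have c2 := ha'in b hbS hcase
    rcases Nat.le_total (j - i) (j' - i') with hl | hl
    · obtain ⟨i2, j2, h2, h3, h4, h5⟩ := hr'.inter (n := j - i) (by omega) hl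
      have := Reach.cross (fun v hv => ruleR_ruleL v hv) hr h2 (by omega)
      omega
    · obtain ⟨i2, j2, h2, h3, h4, h5⟩ := hr.inter (n := j' - i') (by omega) hl
      have := Reach.cross (fun v hv => ruleR_ruleL v hv) h2 hr' (by omega)
      have b2 := h2.bounds
      omega
  · push Not at hcase
    rcases Nat.le_total (j' - i') (j - i) with hl | hl
    · have hle : pos a' ≤ pos a := by
        by_contra hcon
        push Not at hcon
        obtain ⟨s, hs, hmax⟩ := Finset.exists_max_image (S.filter (fun t => pos t < pos a')) pos
          ⟨a, Finset.mem_filter.mpr ⟨C.ha, hcon⟩⟩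
        rw [Finset.mem_filter] at hs
        have hsa : pos a ≤ pos s := hmax a (Finset.mem_filter.mpr ⟨C.ha, hcon⟩)
        obtain ⟨t, htS, ht1, ht2⟩ := C.links s hs.1 hsa (by omega)
        have ht3 : pos a' ≤ pos t := by
          by_contra hcon2
          have := hmax t (Finset.mem_filter.mpr ⟨htS, by omega⟩)
          omega
        have := C'.inA s hs.1 hs.2
        omega
      exact ⟨a, b, j - i, C, by omega, by omega, by omega⟩
    · have hle : pos b' ≤ pos b := by
        by_contra hcon
        push Not at hcon
        obtain ⟨t, htS, ht1, ht2⟩ := C'.links b C.hb hcase hcon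
        have := C.outB t htS ht1
        omega
      have hbe : pos b' + b'.length ≤ pos b + b.length := by
        by_contra hcon
        have := h.order C'.hb C.hb hle (by omega)
        rw [this] at hcon
        omega
      exact ⟨a', b', j' - i', C', by omega, by omega, by omega⟩

theorem Placement.bound_isolated (h : Placement S G pos) {T₁ T₂ : List α}
    (h1 : ∀ s ∈ S, s <:+: T₁) (h2 : ∀ s ∈ S, s <:+: T₂) (k : ℕ)
    (hk : ∀ I : Finset ℕ, (∀ p ∈ I, p < G.length ∧ IsolatedAt S G pos p) → I.card ≤ k) :
    G.length ≤ T₁.length + T₂.length + k := by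
  classical
  have hA := leaf_card h (ruleR S pos) h1 ((Finset.range G.length).filter
    (fun p => ∃ s ∈ S, Reach (ruleR S pos) G p (pos s) (pos s + s.length)))
    (fun p hp => (Finset.mem_filter.mp hp).2)
  have hB := leaf_card h (ruleL S pos) h2 ((Finset.range G.length).filter
    (fun p => ∃ s ∈ S, Reach (ruleL S pos) G p (pos s) (pos s + s.length)))
    (fun p hp => (Finset.mem_filter.mp hp).2)
  have hC := hk ((Finset.range G.length).filter (fun p => IsolatedAt S G pos p))
    (fun p hp => ⟨Finset.mem_range.mp (Finset.mem_filter.mp hp).1, (Finset.mem_filter.mp hp).2⟩)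
  have hU : Finset.range G.length ⊆
      (((Finset.range G.length).filter
        (fun p => ∃ s ∈ S, Reach (ruleR S pos) G p (pos s) (pos s + s.length))) ∪
      ((Finset.range G.length).filter
        (fun p => ∃ s ∈ S, Reach (ruleL S pos) G p (pos s) (pos s + s.length)))) ∪
      ((Finset.range G.length).filter (fun p => IsolatedAt S G pos p)) := by
    intro p hp
    have hp' := Finset.mem_range.mp hp
    rcases leaf_or_isolated h hp' with hR | hL | hI
    · exact Finset.mem_union_left _ (Finset.mem_union_left _ (Finset.mem_filter.mpr ⟨hp, hR⟩))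
    · exact Finset.mem_union_left _ (Finset.mem_union_right _ (Finset.mem_filter.mpr ⟨hp, hL⟩))
    · exact Finset.mem_union_right _ (Finset.mem_filter.mpr ⟨hp, hI⟩)
  have hc := (Finset.card_le_card hU).trans (Finset.card_union_le _ _)
  have hc2 := Finset.card_union_le
    ((Finset.range G.length).filter
        (fun p => ∃ s ∈ S, Reach (ruleR S pos) G p (pos s) (pos s + s.length)))
    ((Finset.range G.length).filter
        (fun p => ∃ s ∈ S, Reach (ruleL S pos) G p (pos s) (pos s + s.length)))
  rw [Finset.card_range] at hc
  omega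

end Vale.Agent.P333
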