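import Vale.Agent.P333.ST.Defs

/-! P333: the opened words of a cycle cover and approximations of their maximum compression. -/

namespace Vale.Agent.P333.Comb

open Vale.Agent.P333.ST

variable {α : Type*} [DecidableEq α]

/-- The nonempty strings of `S` which are not a factor of another string of `S`. -/
def reduced (S : Finset (List α)) : Finset (List α) :=
  S.filter (fun s => s ≠ [] ∧ ∀ t ∈ S, s <:+: t → s = t)

/-- Total length of a family. -/
def total (W : Finset (List α)) : ℕ := ∑ w ∈ W, w.length

/-- `G` is a common superstring of `W`, and its compression `‖W‖ - |G|` is at least `δ` times the
compression of every common superstring of `W`. -/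
def IsApprox (δ : ℝ) (W : Finset (List α)) (G : List α) : Prop :=
  IsSuper W G ∧ ∀ H : List α, IsSuper W H →
    δ * ((total W : ℝ) - H.length) ≤ (total W : ℝ) - G.length

/-- The merged words of the cycles of `σ`, every cycle opened at the link that enters the
element of `B` that it contains. -/
noncomputable def opened {S : Finset (List α)} (σ : Equiv.Perm S) (B : Finset S) :
    Finset (List α) := B.image (openWord σ)

end Vale.Agent.P333.Comb
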