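import Vale.Agent.P333.ST.Reduce
import Vale.Agent.P333.CombDefs

/-!
# P333: a `(3 - δ)`-approximation of the shortest common superstring

`S` is a finite family of strings, `reduced S` its factor-free part. Take a minimum cycle cover
`σ` of `reduced S`, open every cycle at its smallest overlap, and let `W` be the family of the
merged words. Every common superstring `G` of `W` whose compression is at least `δ` times the
largest compression of `W` is a common superstring of `S` of length at most `(3 - δ) OPT(S)`.
-/

namespace Vale.Agent.P333.Comb

open Vale.Agent.P333.ST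

variable {α : Type*} [DecidableEq α]

theorem reduced_free (S : Finset (List α)) : Free (reduced S) := by
  intro s hs t ht h
  rw [reduced, Finset.mem_filter] at hs ht
  exact hs.2.2 t ht.1 h

theorem nil_notMem (S : Finset (List α)) : [] ∉ reduced S := by
  intro h
  rw [reduced, Finset.mem_filter] at h
  exact h.2.1 rfl

theorem isSuper_iff (S : Finset (List α)) (T : List α) : IsSuper (reduced S) T ↔ IsSuper S T := by
  constructor
  · intro h
    refine isSuper_filter S T fun s hs h0 h1 => h s ?_
    rw [reduced, Finset.mem_filter]
    exact ⟨hs, h0, h1⟩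
  · intro h s hs
    rw [reduced, Finset.mem_filter] at hs
    exact h s hs.1

theorem total_opened (S : Finset (List α)) (σ : Equiv.Perm (reduced S)) (B : Finset (reduced S)) :
    total (opened σ B) = ∑ b ∈ B, (openWord σ b).length := by
  rw [total, opened, Finset.sum_image]
  intro b _ b' _ h
  exact openWord_inj (reduced_free S) (nil_notMem S) σ h

/-- **Theorem.** Let `S` be a finite family of strings.

(1) `reduced S` has a minimum cycle cover, and every cycle cover has an opening (a choice `B` of
one string in every cycle such that the link entering it has the smallest overlap of the cycle).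

(2) Let `σ` be a minimum cycle cover of `reduced S`, `B` an opening of `σ`, and
`W = opened σ B` the family of the merged words of the cycles. For every common superstring `T`
of `S`: the cost of `σ` is at most `|T|`, the total length of `W` is at most `2 cost σ + |T|`, and
`W` has a common superstring of length at most `|T| + cost σ`.

(3) Let `0 ≤ δ ≤ 1` and let `G` be a `δ`-approximation for the maximum compression of `W`. Then
`G` is a common superstring of `S`, and `|G| ≤ (3 - δ) |T|` for every common superstring `T`
of `S`. -/
theorem threeDelta (S : Finset (List α)) :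
    ((∃ σ : Equiv.Perm (reduced S), IsMin σ) ∧
      ∀ σ : Equiv.Perm (reduced S), ∃ B : Finset (reduced S), IsOpening σ B) ∧
    ∀ σ : Equiv.Perm (reduced S), IsMin σ → ∀ B : Finset (reduced S), IsOpening σ B →
      (∀ T : List α, IsSuper S T →
        cost σ ≤ T.length ∧ total (opened σ B) ≤ 2 * cost σ + T.length ∧
        ∃ H : List α, IsSuper (opened σ B) H ∧ H.length ≤ T.length + cost σ) ∧
      ∀ (δ : ℝ), 0 ≤ δ → δ ≤ 1 → ∀ G : List α, IsApprox δ (opened σ B) G →
        IsSuper S G ∧ ∀ T : List α, IsSuper S T → (G.length : ℝ) ≤ (3 - δ) * T.length := by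
  refine ⟨⟨exists_min _, fun σ => exists_opening σ⟩, ?_⟩
  intro σ hσ B hB
  have hf := reduced_free S
  have h0 := nil_notMem S
  have himg : ∀ H : List α, IsSuper (opened σ B) H ↔ ∀ b ∈ B, openWord σ b <:+: H := by
    intro H
    constructor
    · intro h b hb
      exact h _ (Finset.mem_image_of_mem _ hb)
    · intro h w hw
      obtain ⟨b, hb, rfl⟩ := Finset.mem_image.1 hw
      exact h b hb
  refine ⟨?_, ?_⟩
  · intro T hT
    have hT' := (isSuper_iff S T).2 hT
    refine ⟨cost_le hf h0 σ hσ T hT', ?_, ?_⟩
    · rw [total_opened]
      exact openWord_sum_le hf h0 σ hσ B hB T hT'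
    · obtain ⟨H, h1, h2⟩ := opt_le hf h0 σ B hB T hT'
      exact ⟨H, (himg H).2 h1, h2⟩
  · intro δ hδ0 hδ1 G hG
    have hcast : ((total (opened σ B) : ℕ) : ℝ) = ∑ b ∈ B, ((openWord σ b).length : ℝ) := by
      rw [total_opened]
      push_cast
      rfl
    have h1 := main hf h0 σ hσ B hB δ hδ0 hδ1 G ((himg G).1 hG.1) (fun H hH => by
      have := hG.2 H ((himg H).2 hH)
      rwa [hcast] at this)
    exact ⟨(isSuper_iff S G).1 h1.1, fun T hT => h1.2 T ((isSuper_iff S T).2 hT)⟩

end Vale.Agent.P333.Comb
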