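import Vale.Agent.P333.Defs

/-! Greedy runs carried to any alphabet with two letters, by a uniform code. -/

namespace Vale.Agent.P333.Enc

open Vale.Agent.P333

universe u

variable {α : Type u} {x y : α} {r : ℕ}

/-- The letter of a bit. -/
def bit (x y : α) (b : ℕ) : α := if b = 0 then x else y

/-- The code word of a letter. -/
def blk (x y : α) (r : ℕ) (c : Fin 4) : List α :=
  List.replicate r x ++ [y, bit x y (c.val / 2), y, bit x y (c.val % 2), y]

/-- The code word of a word. -/
def enc (x y : α) (r : ℕ) (w : List (Fin 4)) : List α := w.flatMap (blk x y r)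

theorem blk_length (c : Fin 4) : (blk x y r c).length = r + 5 := by simp [blk]

@[simp] theorem enc_nil : enc x y r [] = [] := rfl

theorem enc_cons (c : Fin 4) (w : List (Fin 4)) : enc x y r (c :: w) = blk x y r c ++ enc x y r w :=
  rfl

theorem enc_append (u v : List (Fin 4)) : enc x y r (u ++ v) = enc x y r u ++ enc x y r v := by
  unfold enc
  rw [List.flatMap_append]

theorem enc_length (w : List (Fin 4)) : (enc x y r w).length = w.length * (r + 5) := by
  induction w with
  | nil => simp
  | cons c w ih => rw [enc_cons, List.length_append, blk_length, ih, List.length_cons]; ring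

theorem bit_inj (hxy : x ≠ y) {a b : ℕ} (ha : a < 2) (hb : b < 2) (h : bit x y a = bit x y b) :
    a = b := by
  unfold bit at h
  split_ifs at h with h1 h2 h2
  · omega
  · exact absurd h hxy
  · exact absurd h.symm hxy
  · omega

theorem blk_inj (hxy : x ≠ y) {c d : Fin 4} (h : blk x y r c = blk x y r d) : c = d := by
  unfold blk at h
  rw [List.append_cancel_left_eq] at h
  simp only [List.cons.injEq, and_true, true_and] at h
  have h1 := bit_inj hxy (by omega) (by omega) h.1
  have h2 := bit_inj hxy (by omega) (by omega) h.2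
  apply Fin.ext
  omega

theorem prefix_enc (hxy : x ≠ y) {u t : List (Fin 4)} (h : enc x y r u <+: enc x y r t) :
    u <+: t := by
  induction u generalizing t with
  | nil => exact List.nil_prefix
  | cons c u ih =>
    obtain ⟨q, hq⟩ := h
    cases t with
    | nil =>
      have := congrArg List.length hq
      simp [enc_cons, blk_length] at this
    | cons d t =>
      rw [enc_cons, enc_cons, List.append_assoc] at hq
      have h1 := List.append_inj hq (by rw [blk_length, blk_length])
      rw [blk_inj hxy h1.1]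
      have h2 := ih ⟨q, h1.2⟩
      exact List.cons_prefix_cons.mpr ⟨rfl, h2⟩

theorem enc_inj (hxy : x ≠ y) : Function.Injective (enc x y r) := by
  intro u v h
  have h1 : u <+: v := prefix_enc hxy (r := r) (by rw [h])
  have h2 : v <+: u := prefix_enc hxy (r := r) (by rw [h])
  exact h1.eq_of_length (le_antisymm h1.length_le h2.length_le)

theorem head_enc {s : List (Fin 4)} (hs : s ≠ []) : List.replicate r x <+: enc x y r s := by
  cases s with
  | nil => exact absurd rfl hs
  | cons c s =>
    rw [enc_cons]
    unfold blk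
    rw [List.append_assoc]
    exact List.prefix_append _ _

theorem last_enc {s : List (Fin 4)} (hs : s ≠ []) : [y] <:+ enc x y r s := by
  obtain ⟨l, c, rfl⟩ := (List.eq_nil_or_concat' s).resolve_left hs
  rw [enc_append, enc_cons]
  refine ⟨enc x y r l ++ List.replicate r x ++ [y, bit x y (c.val / 2), y, bit x y (c.val % 2)], ?_⟩
  simp [blk]

/-- Inside a code word the mark does not start. -/
theorem mark (hr : 2 ≤ r) (c : Fin 4) {i : ℕ} (h1 : 1 ≤ i) (h2 : i < r + 5) :
    ∃ j, j < r ∧ (blk x y r c)[i + j]? = some y := by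
  by_cases h : i ≤ r
  · refine ⟨r - i, by omega, ?_⟩
    unfold blk
    rw [show i + (r - i) = r by omega, List.getElem?_append_right (by simp)]
    simp
  · have h3 : i = r + 1 ∨ i = r + 2 ∨ i = r + 3 ∨ i = r + 4 := by omega
    rcases h3 with rfl | rfl | rfl | rfl
    · refine ⟨1, by omega, ?_⟩
      unfold blk
      rw [List.getElem?_append_right (by simp; omega)]
      simp [show r + 1 + 1 - r = 2 by omega]
    · refine ⟨0, by omega, ?_⟩
      unfold blk
      rw [List.getElem?_append_right (by simp)]
      simp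
    · refine ⟨1, by omega, ?_⟩
      unfold blk
      rw [List.getElem?_append_right (by simp; omega)]
      simp [show r + 3 + 1 - r = 4 by omega]
    · refine ⟨0, by omega, ?_⟩
      unfold blk
      rw [List.getElem?_append_right (by simp)]
      simp

theorem sync (hxy : x ≠ y) (hr : 2 ≤ r) {s : List (Fin 4)} {p q : List α}
    (h : enc x y r s = p ++ q) (hq : List.replicate r x <+: q) :
    ∃ s1 s2, s = s1 ++ s2 ∧ p = enc x y r s1 ∧ q = enc x y r s2 := by
  induction s generalizing p with
  | nil =>
    rw [enc_nil] at h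
    obtain ⟨rfl, rfl⟩ := List.append_eq_nil_iff.mp h.symm
    exact ⟨[], [], rfl, rfl, rfl⟩
  | cons c s ih =>
    rcases Nat.eq_zero_or_pos p.length with h0 | h0
    · have : p = [] := List.eq_nil_of_length_eq_zero h0
      subst this
      exact ⟨[], c :: s, rfl, rfl, by rw [h, List.nil_append]⟩
    · rcases Nat.lt_or_ge p.length (r + 5) with h1 | h1
      · exfalso
        obtain ⟨j, hj, hy⟩ := mark (x := x) (y := y) hr c h0 h1
        have hlen : p.length + j < (blk x y r c).length := by
          by_contra hcon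
          rw [List.getElem?_eq_none (by omega)] at hy
          exact absurd hy (by simp)
        have e1 : (enc x y r (c :: s))[p.length + j]? = some y := by
          rw [enc_cons, List.getElem?_append_left hlen, hy]
        rw [h, List.getElem?_append_right (by omega), Nat.add_sub_cancel_left] at e1
        obtain ⟨q', rfl⟩ := hq
        rw [List.getElem?_append_left (by simpa using hj), List.getElem?_replicate] at e1
        rw [if_pos hj] at e1
        exact hxy (Option.some.inj e1)
      · rw [enc_cons] at h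
        have h2 : blk x y r c <+: p := by
          refine List.prefix_of_prefix_length_le (l₃ := p ++ q) ?_ (List.prefix_append _ _) ?_
          · rw [← h]
            exact List.prefix_append _ _
          · rw [blk_length]
            exact h1
        obtain ⟨p', rfl⟩ := h2
        rw [List.append_assoc, List.append_cancel_left_eq] at h
        obtain ⟨s1, s2, rfl, rfl, h3⟩ := ih h
        exact ⟨c :: s1, s2, rfl, by rw [enc_cons], h3⟩

theorem ov_enc (hxy : x ≠ y) (hr : 2 ≤ r) {s t : List (Fin 4)} {o : List α}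
    (h1 : o <:+ enc x y r s) (h2 : o <+: enc x y r t) :
    ∃ o', o = enc x y r o' ∧ o' <:+ s ∧ o' <+: t := by
  by_cases ho : o = []
  · exact ⟨[], ho, List.nil_suffix, List.nil_prefix⟩
  have hs : s ≠ [] := by
    rintro rfl
    rw [enc_nil, List.suffix_nil] at h1
    exact ho h1
  have ht : t ≠ [] := by
    rintro rfl
    rw [enc_nil, List.prefix_nil] at h2
    exact ho h2
  have hpos : 0 < o.length := List.length_pos_of_ne_nil ho
  rcases Nat.lt_or_ge o.length r with h3 | h3
  · exfalso
    have h4 : o <+: List.replicate r x :=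
      List.prefix_of_prefix_length_le h2 (head_enc ht) (by simp; omega)
    have h5 : [y] <:+ o := List.suffix_of_suffix_length_le (last_enc hs) h1 (by simp; omega)
    have h6 : y ∈ List.replicate r x := h4.subset (h5.subset (by simp))
    exact hxy (List.eq_of_mem_replicate h6).symm
  · have h4 : List.replicate r x <+: o :=
      List.prefix_of_prefix_length_le (head_enc ht) h2 (by simpa using h3)
    obtain ⟨p, hp⟩ := h1
    obtain ⟨s1, s2, rfl, -, rfl⟩ := sync hxy hr hp.symm h4
    exact ⟨s2, rfl, List.suffix_append _ _, prefix_enc hxy h2⟩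

theorem infix_enc (hxy : x ≠ y) (hr : 2 ≤ r) {s t : List (Fin 4)}
    (h : enc x y r s <:+: enc x y r t) : s <:+: t := by
  by_cases hs : s = []
  · rw [hs]
    exact List.nil_infix
  obtain ⟨p, q, hpq⟩ := h
  rw [List.append_assoc] at hpq
  obtain ⟨t1, t2, rfl, -, h2⟩ := sync hxy hr hpq.symm ((head_enc hs).trans (List.prefix_append _ _))
  have h3 : s <+: t2 := prefix_enc hxy (r := r) (by rw [← h2]; exact List.prefix_append _ _)
  exact h3.isInfix.trans (List.suffix_append _ _).isInfix

theorem enc_infix {s t : List (Fin 4)} (h : s <:+: t) : enc x y r s <:+: enc x y r t := by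
  obtain ⟨p, q, rfl⟩ := h
  exact ⟨enc x y r p, enc x y r q, by rw [enc_append, enc_append]⟩

theorem enc_prefix {s t : List (Fin 4)} (h : s <+: t) : enc x y r s <+: enc x y r t := by
  obtain ⟨q, rfl⟩ := h
  exact ⟨enc x y r q, by rw [enc_append]⟩

theorem enc_suffix {s t : List (Fin 4)} (h : s <:+ t) : enc x y r s <:+ enc x y r t := by
  obtain ⟨q, rfl⟩ := h
  exact ⟨enc x y r q, by rw [enc_append]⟩

theorem merge_enc {s t o : List (Fin 4)} (h : o <+: t) :
    enc x y r s ++ (enc x y r t).drop (enc x y r o).length = enc x y r (s ++ t.drop o.length) := by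
  obtain ⟨q, rfl⟩ := h
  rw [enc_append, enc_append, List.drop_left, List.drop_left]

variable [DecidableEq α]

theorem image_merge (hxy : x ≠ y) (F : Finset (List (Fin 4))) {s t o : List (Fin 4)}
    (h : o <+: t) : (insert (s ++ t.drop o.length) ((F.erase s).erase t)).image (enc x y r) =
      insert (enc x y r s ++ (enc x y r t).drop (enc x y r o).length)
        (((F.image (enc x y r)).erase (enc x y r s)).erase (enc x y r t)) := by
  rw [Finset.image_insert, merge_enc h, Finset.image_erase (enc_inj hxy),
    Finset.image_erase (enc_inj hxy)]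

theorem step_enc (hxy : x ≠ y) (hr : 2 ≤ r) {F F' : Finset (List (Fin 4))}
    (h : GreedyStep F F') :
    GreedyStep (F.image (enc x y r)) (F'.image (enc x y r)) := by
  obtain ⟨s, hs, t, ht, hst, o, h1, h2, hmax, rfl⟩ := h
  refine ⟨_, Finset.mem_image_of_mem _ hs, _, Finset.mem_image_of_mem _ ht,
    fun h => hst (enc_inj hxy h), enc x y r o, enc_suffix h1, enc_prefix h2, ?_,
    image_merge hxy F h2⟩
  intro s' hs' t' ht' hne o' h3 h4
  obtain ⟨s1, hs1, rfl⟩ := Finset.mem_image.mp hs'
  obtain ⟨t1, ht1, rfl⟩ := Finset.mem_image.mp ht'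
  obtain ⟨o1, rfl, h5, h6⟩ := ov_enc hxy hr h3 h4
  rw [enc_length, enc_length]
  exact Nat.mul_le_mul_right _ (hmax s1 hs1 t1 ht1 (fun h => hne (by rw [h])) o1 h5 h6)

theorem of_step_enc (hxy : x ≠ y) (hr : 2 ≤ r) {F : Finset (List (Fin 4))}
    {F'' : Finset (List α)} (h : GreedyStep (F.image (enc x y r)) F'') :
    ∃ F', GreedyStep F F' ∧ F'' = F'.image (enc x y r) := by
  obtain ⟨s, hs, t, ht, hst, o, h1, h2, hmax, rfl⟩ := h
  obtain ⟨s1, hs1, rfl⟩ := Finset.mem_image.mp hs
  obtain ⟨t1, ht1, rfl⟩ := Finset.mem_image.mp ht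
  obtain ⟨o1, rfl, h3, h4⟩ := ov_enc hxy hr h1 h2
  refine ⟨_, ⟨s1, hs1, t1, ht1, fun h => hst (by rw [h]), o1, h3, h4, ?_, rfl⟩,
    (image_merge hxy F h4).symm⟩
  intro s' hs' t' ht' hne o' h5 h6
  have h7 := hmax _ (Finset.mem_image_of_mem _ hs') _ (Finset.mem_image_of_mem _ ht')
    (fun h => hne (enc_inj hxy h)) _ (enc_suffix h5) (enc_prefix h6)
  rw [enc_length, enc_length] at h7
  exact Nat.le_of_mul_le_mul_right h7 (by omega)

theorem reduce_enc (hxy : x ≠ y) (hr : 2 ≤ r) (S : Finset (List (Fin 4))) :
    reduceFamily (S.image (enc x y r)) = (reduceFamily S).image (enc x y r) := by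
  ext w
  simp only [reduceFamily, Finset.mem_filter, Finset.mem_image]
  constructor
  · rintro ⟨⟨s, hs, rfl⟩, h⟩
    exact ⟨s, ⟨hs, fun t ht hst => enc_inj hxy (h _ ⟨t, ht, rfl⟩ (enc_infix hst))⟩, rfl⟩
  · rintro ⟨s, ⟨hs, h⟩, rfl⟩
    refine ⟨⟨s, hs, rfl⟩, ?_⟩
    rintro _ ⟨t, ht, rfl⟩ hst
    rw [h t ht (infix_enc hxy hr hst)]

theorem run_enc (hxy : x ≠ y) (hr : 2 ≤ r) {F F' : Finset (List (Fin 4))}
    (h : Relation.ReflTransGen GreedyStep F F') :
    Relation.ReflTransGen GreedyStep (F.image (enc x y r)) (F'.image (enc x y r)) := by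
  induction h with
  | refl => exact .refl
  | tail _ h2 ih => exact ih.tail (step_enc hxy hr h2)

theorem of_run_enc (hxy : x ≠ y) (hr : 2 ≤ r) {F : Finset (List (Fin 4))}
    {F'' : Finset (List α)} (h : Relation.ReflTransGen GreedyStep (F.image (enc x y r)) F'') :
    ∃ F', Relation.ReflTransGen GreedyStep F F' ∧ F'' = F'.image (enc x y r) := by
  induction h with
  | refl => exact ⟨F, .refl, rfl⟩
  | tail _ h2 ih =>
    obtain ⟨F1, h3, rfl⟩ := ih
    obtain ⟨F2, h4, rfl⟩ := of_step_enc hxy hr h2
    exact ⟨F2, h3.tail h4, rfl⟩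

theorem output_enc (hxy : x ≠ y) (hr : 2 ≤ r) {S : Finset (List (Fin 4))} {G : List (Fin 4)}
    (h : IsGreedyOutput S G) : IsGreedyOutput (S.image (enc x y r)) (enc x y r G) := by
  unfold IsGreedyOutput at h ⊢
  rw [reduce_enc hxy hr]
  have := run_enc (x := x) (y := y) hxy hr h
  rwa [Finset.image_singleton] at this

theorem of_output_enc (hxy : x ≠ y) (hr : 2 ≤ r) {S : Finset (List (Fin 4))} {G' : List α}
    (h : IsGreedyOutput (S.image (enc x y r)) G') :
    ∃ G, IsGreedyOutput S G ∧ G' = enc x y r G := by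
  unfold IsGreedyOutput at h
  rw [reduce_enc hxy hr] at h
  obtain ⟨F', h1, h2⟩ := of_run_enc hxy hr h
  have h3 : F'.card = 1 := by
    rw [← Finset.card_image_of_injective F' (enc_inj (r := r) hxy), ← h2, Finset.card_singleton]
  obtain ⟨G, rfl⟩ := Finset.card_eq_one.mp h3
  rw [Finset.image_singleton, Finset.singleton_inj] at h2
  exact ⟨G, h1, h2⟩

end Vale.Agent.P333.Enc
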