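import Vale.Agent.P333.CEOut
import Vale.Agent.P333.Enc

/-! The greedy superstring conjecture is false, over every alphabet with two letters and for
arbitrarily large instances, whatever the way to break ties. -/

namespace Vale.Agent.P333.Comb

open Vale.Agent.P333 Vale.Agent.P333.CEx Vale.Agent.P333.Enc

universe u

theorem greedyFalse {α : Type u} [DecidableEq α] [Nontrivial α] (N : ℕ) :
    ∃ (S : Finset (List α)) (T : List α),
      (∀ s ∈ S, s <:+: T) ∧
      (∀ U : List α, (∀ s ∈ S, s <:+: U) → N ≤ U.length) ∧
      (∃ G : List α, IsGreedyOutput S G) ∧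
      ∀ G : List α, IsGreedyOutput S G →
        711 * G.length = 1440 * T.length ∧ 2 * T.length + N < G.length := by
  obtain ⟨x, y, hxy⟩ := exists_pair_ne α
  have hr : 2 ≤ N + 2 := by omega
  refine ⟨(fam st0).image (enc x y (N + 2)), enc x y (N + 2) (word tcode), ?_, ?_, ?_, ?_⟩
  · intro s hs
    obtain ⟨s1, hs1, rfl⟩ := Finset.mem_image.mp hs
    exact enc_infix (allIn_spec allIn_0 s1 hs1)
  · intro U hU
    have h1 := (hU _ (Finset.mem_image_of_mem _ word_w0_mem)).length_le
    have h2 : (word w0).length = 211 := dec_length _ _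
    rw [enc_length, h2] at h1
    omega
  · obtain ⟨G, hG⟩ := exists_out
    exact ⟨_, output_enc hxy hr hG⟩
  · intro G' hG'
    obtain ⟨G, hG, rfl⟩ := of_output_enc hxy hr hG'
    have h1 : (word tcode).length = 711 := dec_length _ _
    rw [enc_length, enc_length, h1, out_length hG]
    constructor
    · ring
    · omega

end Vale.Agent.P333.Comb
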