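import Vale.Agent.P333.Defs

/-! Greedy runs carried along uniform codes: a counterexample over the letters 0, ..., 7 gives
arbitrarily large counterexamples over every alphabet with two letters. -/

namespace Vale.Agent.P333.Lift

open Vale.Agent.P333

universe u v

/-- A map of words under which the greedy algorithm does not change. -/
structure Good {β : Type v} {α : Type u} (E : List β → List α) (L : ℕ) : Prop where
  pos : 0 < L
  inj : Function.Injective E
  app : ∀ s t, E (s ++ t) = E s ++ E t
  len : ∀ s, (E s).length = s.length * L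
  ov : ∀ s t o, o <:+ E s → o <+: E t → ∃ o', o = E o' ∧ o' <:+ s ∧ o' <+: t
  inf : ∀ s t, E s <:+: E t → s <:+: t

section general

variable {β : Type v} {α : Type u} {E : List β → List α} {L : ℕ}

theorem Good.toInf (g : Good E L) {s t : List β} (h : s <:+: t) : E s <:+: E t := by
  obtain ⟨p, q, rfl⟩ := h
  exact ⟨E p, E q, by rw [g.app, g.app]⟩

theorem Good.toPre (g : Good E L) {s t : List β} (h : s <+: t) : E s <+: E t := by
  obtain ⟨q, rfl⟩ := h
  exact ⟨E q, by rw [g.app]⟩

theorem Good.toSuf (g : Good E L) {s t : List β} (h : s <:+ t) : E s <:+ E t := by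
  obtain ⟨q, rfl⟩ := h
  exact ⟨E q, by rw [g.app]⟩

theorem Good.merge (g : Good E L) {s t o : List β} (h : o <+: t) :
    E s ++ (E t).drop (E o).length = E (s ++ t.drop o.length) := by
  obtain ⟨q, rfl⟩ := h
  rw [g.app, g.app, List.drop_left, List.drop_left]

variable [DecidableEq α] [DecidableEq β]

theorem Good.image_merge (g : Good E L) (F : Finset (List β)) {s t o : List β}
    (h : o <+: t) : (insert (s ++ t.drop o.length) ((F.erase s).erase t)).image E =
      insert (E s ++ (E t).drop (E o).length) (((F.image E).erase (E s)).erase (E t)) := by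
  rw [Finset.image_insert, g.merge h, Finset.image_erase g.inj, Finset.image_erase g.inj]

theorem Good.step (g : Good E L) {F F' : Finset (List β)} (h : GreedyStep F F') :
    GreedyStep (F.image E) (F'.image E) := by
  obtain ⟨s, hs, t, ht, hst, o, h1, h2, hmax, rfl⟩ := h
  refine ⟨_, Finset.mem_image_of_mem _ hs, _, Finset.mem_image_of_mem _ ht,
    fun h => hst (g.inj h), E o, g.toSuf h1, g.toPre h2, ?_, g.image_merge F h2⟩
  intro s' hs' t' ht' hne o' h3 h4
  obtain ⟨s1, hs1, rfl⟩ := Finset.mem_image.mp hs'
  obtain ⟨t1, ht1, rfl⟩ := Finset.mem_image.mp ht'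
  obtain ⟨o1, rfl, h5, h6⟩ := g.ov _ _ _ h3 h4
  rw [g.len, g.len]
  exact Nat.mul_le_mul_right _ (hmax s1 hs1 t1 ht1 (fun h => hne (by rw [h])) o1 h5 h6)

theorem Good.of_step (g : Good E L) {F : Finset (List β)}
    {F'' : Finset (List α)} (h : GreedyStep (F.image E) F'') :
    ∃ F', GreedyStep F F' ∧ F'' = F'.image E := by
  obtain ⟨s, hs, t, ht, hst, o, h1, h2, hmax, rfl⟩ := h
  obtain ⟨s1, hs1, rfl⟩ := Finset.mem_image.mp hs
  obtain ⟨t1, ht1, rfl⟩ := Finset.mem_image.mp ht
  obtain ⟨o1, rfl, h3, h4⟩ := g.ov _ _ _ h1 h2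
  refine ⟨_, ⟨s1, hs1, t1, ht1, fun h => hst (by rw [h]), o1, h3, h4, ?_, rfl⟩,
    (g.image_merge F h4).symm⟩
  intro s' hs' t' ht' hne o' h5 h6
  have h7 := hmax _ (Finset.mem_image_of_mem _ hs') _ (Finset.mem_image_of_mem _ ht')
    (fun h => hne (g.inj h)) _ (g.toSuf h5) (g.toPre h6)
  rw [g.len, g.len] at h7
  exact Nat.le_of_mul_le_mul_right h7 g.pos

theorem Good.reduce (g : Good E L) (S : Finset (List β)) :
    reduceFamily (S.image E) = (reduceFamily S).image E := by
  ext w
  simp only [reduceFamily, Finset.mem_filter, Finset.mem_image]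
  constructor
  · rintro ⟨⟨s, hs, rfl⟩, h⟩
    exact ⟨s, ⟨hs, fun t ht hst => g.inj (h _ ⟨t, ht, rfl⟩ (g.toInf hst))⟩, rfl⟩
  · rintro ⟨s, ⟨hs, h⟩, rfl⟩
    refine ⟨⟨s, hs, rfl⟩, ?_⟩
    rintro _ ⟨t, ht, rfl⟩ hst
    rw [h t ht (g.inf _ _ hst)]

theorem Good.run (g : Good E L) {F F' : Finset (List β)}
    (h : Relation.ReflTransGen GreedyStep F F') :
    Relation.ReflTransGen GreedyStep (F.image E) (F'.image E) := by
  induction h with
  | refl => exact .refl
  | tail _ h2 ih => exact ih.tail (g.step h2)

theorem Good.of_run (g : Good E L) {F : Finset (List β)}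
    {F'' : Finset (List α)} (h : Relation.ReflTransGen GreedyStep (F.image E) F'') :
    ∃ F', Relation.ReflTransGen GreedyStep F F' ∧ F'' = F'.image E := by
  induction h with
  | refl => exact ⟨F, .refl, rfl⟩
  | tail _ h2 ih =>
    obtain ⟨F1, h3, rfl⟩ := ih
    obtain ⟨F2, h4, rfl⟩ := g.of_step h2
    exact ⟨F2, h3.tail h4, rfl⟩

theorem Good.output (g : Good E L) {S : Finset (List β)} {G : List β}
    (h : IsGreedyOutput S G) : IsGreedyOutput (S.image E) (E G) := by
  unfold IsGreedyOutput at h ⊢
  rw [g.reduce]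
  have := g.run h
  rwa [Finset.image_singleton] at this

theorem Good.of_output (g : Good E L) {S : Finset (List β)} {G' : List α}
    (h : IsGreedyOutput (S.image E) G') :
    ∃ G, IsGreedyOutput S G ∧ G' = E G := by
  unfold IsGreedyOutput at h
  rw [g.reduce] at h
  obtain ⟨F', h1, h2⟩ := g.of_run h
  have h3 : F'.card = 1 := by
    rw [← Finset.card_image_of_injective F' g.inj, ← h2, Finset.card_singleton]
  obtain ⟨G, rfl⟩ := Finset.card_eq_one.mp h3
  rw [Finset.image_singleton, Finset.singleton_inj] at h2
  exact ⟨G, h1, h2⟩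

end general

/-- Renaming letters injectively. -/
theorem good_map {β : Type v} {α : Type u} {f : β → α} (hf : Function.Injective f) :
    Good (List.map f) 1 where
  pos := Nat.one_pos
  inj := hf.list_map
  app := fun s t => List.map_append
  len := fun s => by simp
  ov := by
    intro s t o h1 h2
    obtain ⟨p, hp⟩ := h1
    obtain ⟨q, hq⟩ := h2
    obtain ⟨s1, s2, rfl, -, rfl⟩ := List.map_eq_append_iff.mp hp.symm
    obtain ⟨t1, t2, rfl, ht, -⟩ := List.map_eq_append_iff.mp hq.symm
    have := hf.list_map ht
    subst this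
    exact ⟨t1, rfl, List.suffix_append _ _, List.prefix_append _ _⟩
  inf := by
    intro s t h
    obtain ⟨p, q, hpq⟩ := h
    obtain ⟨t1, t2, rfl, h1, -⟩ := List.map_eq_append_iff.mp hpq.symm
    obtain ⟨t3, t4, rfl, -, h2⟩ := List.map_eq_append_iff.mp h1
    have := hf.list_map h2
    subst this
    exact ⟨t3, t2, rfl⟩

section code

variable {α : Type u} {x y : α} {r : ℕ}

/-- The letter of a bit. -/
def bit (x y : α) (b : ℕ) : α := if b = 0 then x else y

/-- The code word of a letter. -/
def blk (x y : α) (r : ℕ) (c : Fin 8) : List α :=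
  List.replicate r x ++ [y, bit x y (c.val / 4), y, bit x y (c.val / 2 % 2), y,
    bit x y (c.val % 2), y]

/-- The code word of a word. -/
def enc (x y : α) (r : ℕ) (w : List (Fin 8)) : List α := w.flatMap (blk x y r)

theorem blk_length (c : Fin 8) : (blk x y r c).length = r + 7 := by simp [blk]

@[simp] theorem enc_nil : enc x y r [] = [] := rfl

theorem enc_cons (c : Fin 8) (w : List (Fin 8)) : enc x y r (c :: w) = blk x y r c ++ enc x y r w :=
  rfl

theorem enc_append (u v : List (Fin 8)) : enc x y r (u ++ v) = enc x y r u ++ enc x y r v := by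
  unfold enc
  rw [List.flatMap_append]

theorem enc_length (w : List (Fin 8)) : (enc x y r w).length = w.length * (r + 7) := by
  induction w with
  | nil => simp
  | cons c w ih => rw [enc_cons, List.length_append, blk_length, ih, List.length_cons]; ring

theorem bit_inj (hxy : x ≠ y) {a b : ℕ} (ha : a < 2) (hb : b < 2) (h : bit x y a = bit x y b) :
    a = b := by
  unfold bit at h
  split_ifs at h with h1 h2 h2
  · omega
  · exact absurd h hxy
  · exact absurd h.symm hxy
  · omega

theorem blk_inj (hxy : x ≠ y) {c d : Fin 8} (h : blk x y r c = blk x y r d) : c = d := by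
  unfold blk at h
  rw [List.append_cancel_left_eq] at h
  simp only [List.cons.injEq, and_true, true_and] at h
  have h1 := bit_inj hxy (by omega) (by omega) h.1
  have h2 := bit_inj hxy (by omega) (by omega) h.2.1
  have h3 := bit_inj hxy (by omega) (by omega) h.2.2
  apply Fin.ext
  omega

theorem prefix_enc (hxy : x ≠ y) {u t : List (Fin 8)} (h : enc x y r u <+: enc x y r t) :
    u <+: t := by
  induction u generalizing t with
  | nil => exact List.nil_prefix
  | cons c u ih =>
    obtain ⟨q, hq⟩ := h
    cases t with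
    | nil =>
      have := congrArg List.length hq
      simp [enc_cons, blk_length] at this
    | cons d t =>
      rw [enc_cons, enc_cons, List.append_assoc] at hq
      have h1 := List.append_inj hq (by rw [blk_length, blk_length])
      rw [blk_inj hxy h1.1]
      have h2 := ih ⟨q, h1.2⟩
      exact List.cons_prefix_cons.mpr ⟨rfl, h2⟩

theorem enc_inj (hxy : x ≠ y) : Function.Injective (enc x y r) := by
  intro u v h
  have h1 : u <+: v := prefix_enc hxy (r := r) (by rw [h])
  have h2 : v <+: u := prefix_enc hxy (r := r) (by rw [h])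
  exact h1.eq_of_length (le_antisymm h1.length_le h2.length_le)

theorem head_enc {s : List (Fin 8)} (hs : s ≠ []) : List.replicate r x <+: enc x y r s := by
  cases s with
  | nil => exact absurd rfl hs
  | cons c s =>
    rw [enc_cons]
    unfold blk
    rw [List.append_assoc]
    exact List.prefix_append _ _

theorem last_enc {s : List (Fin 8)} (hs : s ≠ []) : [y] <:+ enc x y r s := by
  obtain ⟨l, c, rfl⟩ := (List.eq_nil_or_concat' s).resolve_left hs
  rw [enc_append, enc_cons]
  refine ⟨enc x y r l ++ List.replicate r x ++ [y, bit x y (c.val / 4), y,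
    bit x y (c.val / 2 % 2), y, bit x y (c.val % 2)], ?_⟩
  simp [blk]

/-- Inside a code word the mark does not start. -/
theorem mark (hr : 2 ≤ r) (c : Fin 8) {i : ℕ} (h1 : 1 ≤ i) (h2 : i < r + 7) :
    ∃ j, j < r ∧ (blk x y r c)[i + j]? = some y := by
  by_cases h : i ≤ r
  · refine ⟨r - i, by omega, ?_⟩
    unfold blk
    rw [show i + (r - i) = r by omega, List.getElem?_append_right (by simp)]
    simp
  · have h3 : i = r + 1 ∨ i = r + 2 ∨ i = r + 3 ∨ i = r + 4 ∨ i = r + 5 ∨ i = r + 6 := by omega
    rcases h3 with rfl | rfl | rfl | rfl | rfl | rfl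
    · refine ⟨1, by omega, ?_⟩
      unfold blk
      rw [List.getElem?_append_right (by simp; omega)]
      simp [show r + 1 + 1 - r = 2 by omega]
    · refine ⟨0, by omega, ?_⟩
      unfold blk
      rw [List.getElem?_append_right (by simp)]
      simp
    · refine ⟨1, by omega, ?_⟩
      unfold blk
      rw [List.getElem?_append_right (by simp; omega)]
      simp [show r + 3 + 1 - r = 4 by omega]
    · refine ⟨0, by omega, ?_⟩
      unfold blk
      rw [List.getElem?_append_right (by simp)]
      simp
    · refine ⟨1, by omega, ?_⟩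
      unfold blk
      rw [List.getElem?_append_right (by simp; omega)]
      simp [show r + 5 + 1 - r = 6 by omega]
    · refine ⟨0, by omega, ?_⟩
      unfold blk
      rw [List.getElem?_append_right (by simp)]
      simp

theorem sync (hxy : x ≠ y) (hr : 2 ≤ r) {s : List (Fin 8)} {p q : List α}
    (h : enc x y r s = p ++ q) (hq : List.replicate r x <+: q) :
    ∃ s1 s2, s = s1 ++ s2 ∧ p = enc x y r s1 ∧ q = enc x y r s2 := by
  induction s generalizing p with
  | nil =>
    rw [enc_nil] at h
    obtain ⟨rfl, rfl⟩ := List.append_eq_nil_iff.mp h.symm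
    exact ⟨[], [], rfl, rfl, rfl⟩
  | cons c s ih =>
    rcases Nat.eq_zero_or_pos p.length with h0 | h0
    · have : p = [] := List.eq_nil_of_length_eq_zero h0
      subst this
      exact ⟨[], c :: s, rfl, rfl, by rw [h, List.nil_append]⟩
    · rcases Nat.lt_or_ge p.length (r + 7) with h1 | h1
      · exfalso
        obtain ⟨j, hj, hy⟩ := mark (x := x) (y := y) hr c h0 h1
        have hlen : p.length + j < (blk x y r c).length := by
          by_contra hcon
          rw [List.getElem?_eq_none (by omega)] at hy
          exact absurd hy (by simp)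
        have e1 : (enc x y r (c :: s))[p.length + j]? = some y := by
          rw [enc_cons, List.getElem?_append_left hlen, hy]
        rw [h, List.getElem?_append_right (by omega), Nat.add_sub_cancel_left] at e1
        obtain ⟨q', rfl⟩ := hq
        rw [List.getElem?_append_left (by simpa using hj), List.getElem?_replicate] at e1
        rw [if_pos hj] at e1
        exact hxy (Option.some.inj e1)
      · rw [enc_cons] at h
        have h2 : blk x y r c <+: p := by
          refine List.prefix_of_prefix_length_le (l₃ := p ++ q) ?_ (List.prefix_append _ _) ?_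
          · rw [← h]
            exact List.prefix_append _ _
          · rw [blk_length]
            exact h1
        obtain ⟨p', rfl⟩ := h2
        rw [List.append_assoc, List.append_cancel_left_eq] at h
        obtain ⟨s1, s2, rfl, rfl, h3⟩ := ih h
        exact ⟨c :: s1, s2, rfl, by rw [enc_cons], h3⟩

theorem ov_enc (hxy : x ≠ y) (hr : 2 ≤ r) {s t : List (Fin 8)} {o : List α}
    (h1 : o <:+ enc x y r s) (h2 : o <+: enc x y r t) :
    ∃ o', o = enc x y r o' ∧ o' <:+ s ∧ o' <+: t := by
  by_cases ho : o = []
  · exact ⟨[], ho, List.nil_suffix, List.nil_prefix⟩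
  have hs : s ≠ [] := by
    rintro rfl
    rw [enc_nil, List.suffix_nil] at h1
    exact ho h1
  have ht : t ≠ [] := by
    rintro rfl
    rw [enc_nil, List.prefix_nil] at h2
    exact ho h2
  have hpos : 0 < o.length := List.length_pos_of_ne_nil ho
  rcases Nat.lt_or_ge o.length r with h3 | h3
  · exfalso
    have h4 : o <+: List.replicate r x :=
      List.prefix_of_prefix_length_le h2 (head_enc ht) (by simp; omega)
    have h5 : [y] <:+ o := List.suffix_of_suffix_length_le (last_enc hs) h1 (by simp; omega)
    have h6 : y ∈ List.replicate r x := h4.subset (h5.subset (by simp))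
    exact hxy (List.eq_of_mem_replicate h6).symm
  · have h4 : List.replicate r x <+: o :=
      List.prefix_of_prefix_length_le (head_enc ht) h2 (by simpa using h3)
    obtain ⟨p, hp⟩ := h1
    obtain ⟨s1, s2, rfl, -, rfl⟩ := sync hxy hr hp.symm h4
    exact ⟨s2, rfl, List.suffix_append _ _, prefix_enc hxy h2⟩

theorem infix_enc (hxy : x ≠ y) (hr : 2 ≤ r) {s t : List (Fin 8)}
    (h : enc x y r s <:+: enc x y r t) : s <:+: t := by
  by_cases hs : s = []
  · rw [hs]
    exact List.nil_infix
  obtain ⟨p, q, hpq⟩ := h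
  rw [List.append_assoc] at hpq
  obtain ⟨t1, t2, rfl, -, h2⟩ := sync hxy hr hpq.symm ((head_enc hs).trans (List.prefix_append _ _))
  have h3 : s <+: t2 := prefix_enc hxy (r := r) (by rw [← h2]; exact List.prefix_append _ _)
  exact h3.isInfix.trans (List.suffix_append _ _).isInfix

theorem enc_infix {s t : List (Fin 8)} (h : s <:+: t) : enc x y r s <:+: enc x y r t := by
  obtain ⟨p, q, rfl⟩ := h
  exact ⟨enc x y r p, enc x y r q, by rw [enc_append, enc_append]⟩

theorem enc_prefix {s t : List (Fin 8)} (h : s <+: t) : enc x y r s <+: enc x y r t := by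
  obtain ⟨q, rfl⟩ := h
  exact ⟨enc x y r q, by rw [enc_append]⟩

theorem enc_suffix {s t : List (Fin 8)} (h : s <:+ t) : enc x y r s <:+ enc x y r t := by
  obtain ⟨q, rfl⟩ := h
  exact ⟨enc x y r q, by rw [enc_append]⟩


theorem good_enc (hxy : x ≠ y) (hr : 2 ≤ r) : Good (enc x y r) (r + 7) where
  pos := by omega
  inj := enc_inj hxy
  app := enc_append
  len := enc_length
  ov := fun _ _ _ h1 h2 => ov_enc hxy hr h1 h2
  inf := fun _ _ h => infix_enc hxy hr h

end code

/-- A counterexample with factor `c / d > 2` over the letters `0, ..., 7` gives arbitrarily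
large ones over every alphabet with two letters. -/
theorem lift {S : Finset (List ℕ)} {T : List ℕ} {c d : ℕ} (h8 : ∀ s ∈ S, ∀ a ∈ s, a < 8)
    (hT : ∀ s ∈ S, s <:+: T) (hS : ∃ s ∈ S, s ≠ [])
    (hex : ∃ G, IsGreedyOutput S G)
    (hG : ∀ G, IsGreedyOutput S G → c * T.length ≤ d * G.length) (hcd : 2 * d < c)
    {α : Type u} [DecidableEq α] [Nontrivial α] (N : ℕ) :
    ∃ (S' : Finset (List α)) (T' : List α),
      (∀ s ∈ S', s <:+: T') ∧
      (∀ U : List α, (∀ s ∈ S', s <:+: U) → N ≤ U.length) ∧
      (∃ G : List α, IsGreedyOutput S' G) ∧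
      ∀ G : List α, IsGreedyOutput S' G →
        c * T'.length ≤ d * G.length ∧ 2 * T'.length + N < G.length := by
  obtain ⟨x, y, hxy⟩ := exists_pair_ne α
  have gv : Good (List.map (fun a : Fin 8 => a.val)) 1 := good_map Fin.val_injective
  set D : List ℕ → List (Fin 8) := List.map (fun a => ⟨a % 8, Nat.mod_lt _ (by decide)⟩) with hD
  have hDw : ∀ w : List ℕ, (∀ a ∈ w, a < 8) → (D w).map (fun a : Fin 8 => a.val) = w := by
    intro w hw
    rw [hD, List.map_map]
    conv_rhs => rw [← List.map_id w]
    apply List.map_congr_left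
    intro a ha
    exact Nat.mod_eq_of_lt (hw a ha)
  have hSS : (S.image D).image (List.map (fun a : Fin 8 => a.val)) = S := by
    rw [Finset.image_image]
    conv_rhs => rw [← Finset.image_id (s := S)]
    apply Finset.image_congr
    intro w hw
    exact hDw w (h8 w hw)
  have hr : 2 ≤ (N + 1) * (d + 1) + 2 := by omega
  have ge := good_enc (x := x) (y := y) (r := (N + 1) * (d + 1) + 2) hxy hr
  obtain ⟨s0, hs0, hs0n⟩ := hS
  have hs0l : 0 < s0.length := List.length_pos_of_ne_nil hs0n
  refine ⟨(S.image D).image (enc x y ((N + 1) * (d + 1) + 2)), enc x y ((N + 1) * (d + 1) + 2) (D T),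
    ?_, ?_, ?_, ?_⟩
  · intro s hs
    obtain ⟨s1, hs1, rfl⟩ := Finset.mem_image.mp hs
    obtain ⟨s2, hs2, rfl⟩ := Finset.mem_image.mp hs1
    exact ge.toInf ((hT s2 hs2).map _)
  · intro U hU
    have h1 := (hU _ (Finset.mem_image_of_mem _ (Finset.mem_image_of_mem D hs0))).length_le
    rw [ge.len, hD, List.length_map] at h1
    have h2 : 1 * ((N + 1) * (d + 1) + 2 + 7) ≤ s0.length * ((N + 1) * (d + 1) + 2 + 7) :=
      Nat.mul_le_mul_right _ hs0l
    have h3 : (N + 1) * 1 ≤ (N + 1) * (d + 1) := Nat.mul_le_mul_left _ (by omega)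
    omega
  · obtain ⟨G, hG1⟩ := hex
    rw [← hSS] at hG1
    obtain ⟨G1, hG2, -⟩ := gv.of_output hG1
    exact ⟨_, ge.output hG2⟩
  · intro G' hG'
    obtain ⟨G1, hG1, rfl⟩ := ge.of_output hG'
    have hG2 := gv.output hG1
    rw [hSS] at hG2
    have h1 := hG _ hG2
    rw [List.length_map] at h1
    have hTl : 0 < T.length := lt_of_lt_of_le hs0l (hT s0 hs0).length_le
    have e1 : (D T).length = T.length := by rw [hD, List.length_map]
    rw [ge.len, ge.len, e1]
    set K := (N + 1) * (d + 1) + 2 + 7 with hK
    have h2 : c * (T.length * K) ≤ d * (G1.length * K) := by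
      calc c * (T.length * K) = (c * T.length) * K := by ring
        _ ≤ (d * G1.length) * K := Nat.mul_le_mul_right _ h1
        _ = d * (G1.length * K) := by ring
    refine ⟨h2, ?_⟩
    by_contra hcon
    push Not at hcon
    have h3 : d * (G1.length * K) ≤ d * (2 * (T.length * K) + N) := Nat.mul_le_mul_left _ hcon
    have h4 : (2 * d + 1) * (T.length * K) ≤ c * (T.length * K) := Nat.mul_le_mul_right _ hcd
    have h5 : 1 * K ≤ T.length * K := Nat.mul_le_mul_right _ hTl
    have h6 : (2 * d + 1) * (T.length * K) = d * (2 * (T.length * K)) + T.length * K := by ring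
    have h7 : d * (2 * (T.length * K) + N) = d * (2 * (T.length * K)) + d * N := by ring
    have h8 : d * N ≤ (N + 1) * (d + 1) := by
      calc d * N = N * d := Nat.mul_comm _ _
        _ ≤ (N + 1) * (d + 1) := Nat.mul_le_mul (by omega) (by omega)
    omega

end Vale.Agent.P333.Lift
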