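import Vale.Agent.P333.Run

/-! Greedy outputs: placement, superstring property, the bound and the existence of outputs. -/

namespace Vale.Agent.P333

universe u

variable {α : Type u} [DecidableEq α]

theorem mem_reduceFamily {S : Finset (List α)} {s : List α} :
    s ∈ reduceFamily S ↔ s ∈ S ∧ ∀ t ∈ S, s <:+: t → s = t := by
  simp only [reduceFamily, Finset.mem_filter]

theorem reduceFamily_free (S : Finset (List α)) :
    ∀ s ∈ reduceFamily S, ∀ t ∈ reduceFamily S, s <:+: t → s = t :=
  fun _ hs t ht h => (mem_reduceFamily.mp hs).2 t (mem_reduceFamily.mp ht).1 h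

theorem exists_reduce (S : Finset (List α)) {s : List α} (hs : s ∈ S) :
    ∃ t ∈ reduceFamily S, s <:+: t := by
  classical
  obtain ⟨t, ht, hmax⟩ := Finset.exists_max_image (S.filter (fun t => s <:+: t)) List.length
    ⟨s, Finset.mem_filter.mpr ⟨hs, List.infix_refl _⟩⟩
  rw [Finset.mem_filter] at ht
  refine ⟨t, mem_reduceFamily.mpr ⟨ht.1, ?_⟩, ht.2⟩
  intro t' ht' htt'
  have := hmax t' (Finset.mem_filter.mpr ⟨ht', ht.2.trans htt'⟩)
  exact htt'.eq_of_length_le this

theorem run_inv {S F : Finset (List α)}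
    (h : Relation.ReflTransGen GreedyStep (reduceFamily S) F) :
    ∃ own pos m, Inv (reduceFamily S) F own pos m := by
  induction h with
  | refl => exact ⟨_, _, _, inv_init (reduceFamily_free S)⟩
  | tail _ hstep ih =>
    obtain ⟨own, pos, m, hI⟩ := ih
    obtain ⟨X, hX, Y, hY, hXY, o, hoX, hoY, hmax, hF⟩ := hstep
    refine hI.step (reduceFamily_free S) hX hY hXY hoX hoY hmax ?_
    intro W
    rw [hF]
    simp only [Finset.mem_insert, Finset.mem_erase]
    tauto

theorem exists_placement {S : Finset (List α)} {G : List α} (h : IsGreedyOutput S G) :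
    ∃ pos, Placement (reduceFamily S) G pos := by
  obtain ⟨own, pos, m, hI⟩ := run_inv h
  have hown : ∀ s ∈ reduceFamily S, own s = G := fun s hs =>
    Finset.mem_singleton.mp (hI.ownF s hs)
  refine ⟨pos, reduceFamily_free S, ?_, ?_, ?_⟩
  · intro s hs
    have := hI.occ s hs
    rwa [hown s hs] at this
  · intro p hp
    obtain ⟨s, hs, -, h1, h2⟩ := hI.cov G (Finset.mem_singleton_self G) p hp
    exact ⟨s, hs, h1, h2⟩
  · rintro v a b ⟨haS, ha1, ha2, ha3⟩ ⟨hbS, hb1, hb2, hb3⟩
    obtain ⟨-, h1, h2⟩ := hI.gp v a b haS hbS ha1 ha2 (fun t ht _ => ha3 t ht) hb1 hb2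
      (fun t ht _ => hb3 t ht) (fun X hX Y hY hXY => by
        rw [Finset.mem_singleton] at hX hY
        exact absurd (hX.trans hY.symm) hXY)
    refine ⟨h1, fun s hs hs1 hs2 => ?_⟩
    obtain ⟨t, ht, -, t2, t3⟩ := h2 s hs (by rw [hown s hs, hown a haS]) hs1 hs2
    exact ⟨t, ht, t2, t3⟩

theorem greedy_superstring {S : Finset (List α)} {G : List α} (h : IsGreedyOutput S G) :
    ∀ s ∈ S, s <:+: G := by
  intro s hs
  obtain ⟨pos, hP⟩ := exists_placement h
  obtain ⟨t, ht, hst⟩ := exists_reduce S hs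
  obtain ⟨l, r, hlr, -⟩ := hP.occ t ht
  exact hst.trans ⟨l, r, by rw [hlr]; simp⟩

theorem greedy_bound {S : Finset (List α)} {G : List α} (h : IsGreedyOutput S G)
    (hlp : LowPeriodic (reduceFamily S) G) {T₁ T₂ : List α}
    (h1 : ∀ s ∈ S, s <:+: T₁) (h2 : ∀ s ∈ S, s <:+: T₂) :
    G.length ≤ T₁.length + T₂.length := by
  obtain ⟨pos, hP⟩ := exists_placement h
  exact hP.bound hlp (fun s hs => h1 s (mem_reduceFamily.mp hs).1)
    (fun s hs => h2 s (mem_reduceFamily.mp hs).1)

omit [DecidableEq α] in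
/-- Borders of length at most one suffice. -/
theorem lowPeriodic_of_border {S : Finset (List α)} (G : List α)
    (hS : ∀ s ∈ S, ∀ o : List α, o <+: s → o <:+ s → o.length < s.length → o.length ≤ 1) :
    LowPeriodic S G := by
  intro a ha X o _ haX hoX hoX' hlt hoa
  by_contra hcon
  push Not at hcon
  obtain ⟨l, hl⟩ := hoX'
  have lX : X.length = l.length + o.length := by rw [← hl]; simp
  have haXl := haX.length_le
  have e1 : X.drop l.length = o := by rw [← hl]; simp
  have e2 : a.drop l.length <+: o := by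
    rw [← e1]
    obtain ⟨r, hr⟩ := haX
    rw [← hr, List.drop_append_of_le_length (by omega)]
    exact List.prefix_append _ _
  have e3 : a.drop l.length <+: a := by
    refine List.prefix_of_prefix_length_le (e2.trans hoX) haX ?_
    rw [List.length_drop]
    omega
  have := hS a ha _ e3 (List.drop_suffix _ _) (by rw [List.length_drop]; omega)
  rw [List.length_drop] at this
  omega

omit [DecidableEq α] in
/-- Greedy superstrings without an overlap (a factor `c v c v c`) suffice. -/
theorem lowPeriodic_of_overlapFree {S : Finset (List α)} {G : List α}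
    (hG : ∀ (c : α) (v : List α), ¬ (c :: v) ++ (c :: v) ++ [c] <:+: G) :
    LowPeriodic S G := by
  intro a _ X o hXG _ hoX hoX' hlt _
  by_contra hcon
  push Not at hcon
  obtain ⟨l, hl⟩ := hoX'
  have lX : X.length = l.length + o.length := by rw [← hl]; simp
  have hl0 : 0 < l.length := by omega
  -- `l` is an initial part of `o`
  have h1 : l <+: o := by
    refine List.prefix_of_prefix_length_le (l₃ := X) ?_ hoX (by omega)
    rw [← hl]
    exact List.prefix_append _ _
  obtain ⟨o', ho'⟩ := h1
  -- `o'` is an initial part of `o`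
  have h2 : o' <+: o := by
    obtain ⟨r, hr⟩ := hoX
    have h3 : l ++ (l ++ o') = l ++ o' ++ r := by rw [ho', hl, hr]
    have h4 : l ++ o' = o' ++ r := by
      have : l ++ (l ++ o') = l ++ (o' ++ r) := by rw [h3]; simp
      exact List.append_cancel_left this
    rw [← ho', h4]
    exact List.prefix_append _ _
  have lo : o.length = l.length + o'.length := by rw [← ho']; simp
  obtain ⟨c, v, rfl⟩ : ∃ c v, l = c :: v := by
    cases l with
    | nil => simp at hl0
    | cons c v => exact ⟨c, v, rfl⟩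
  have h5 : [c] <+: o' := by
    refine List.prefix_of_prefix_length_le (l₃ := o) ?_ h2 ?_
    · rw [← ho']
      exact ⟨v ++ o', by simp⟩
    · simp only [List.length_cons, List.length_nil] at *
      omega
  obtain ⟨z, hz⟩ := h5
  apply hG c v
  refine List.IsInfix.trans ?_ hXG
  refine ⟨[], z, ?_⟩
  rw [← hl, ← ho', ← hz]
  simp

theorem exists_step {F : Finset (List α)} (h : 1 < F.card) : ∃ F', GreedyStep F F' ∧
    F'.card < F.card ∧ F'.Nonempty := by
  classical
  obtain ⟨s0, hs0, t0, ht0, hst0⟩ := Finset.one_lt_card.mp h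
  let P : ℕ → Prop := fun n => ∃ s ∈ F, ∃ t ∈ F, s ≠ t ∧ ∃ o : List α, o <:+ s ∧ o <+: t ∧
    o.length = n
  have hP0 : P 0 := ⟨s0, hs0, t0, ht0, hst0, [], List.nil_suffix, List.nil_prefix, rfl⟩
  have hbd : ∀ n, P n → n ≤ F.sup List.length := by
    rintro n ⟨s, hs, t, _, _, o, ho, _, rfl⟩
    exact ho.length_le.trans (Finset.le_sup (f := List.length) hs)
  have hPm := Nat.findGreatest_spec (P := P) (Nat.zero_le (F.sup List.length)) hP0
  obtain ⟨s, hs, t, ht, hst, o, ho1, ho2, ho3⟩ := hPm
  refine ⟨insert (s ++ t.drop o.length) ((F.erase s).erase t), ⟨s, hs, t, ht, hst, o, ho1, ho2,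
    ?_, rfl⟩, ?_, Finset.insert_nonempty _ _⟩
  · intro s' hs' t' ht' hst' o' h1 h2
    rw [ho3]
    exact Nat.le_findGreatest (hbd _ ⟨s', hs', t', ht', hst', o', h1, h2, rfl⟩)
      ⟨s', hs', t', ht', hst', o', h1, h2, rfl⟩
  · have h1 := Finset.card_insert_le (s ++ t.drop o.length) ((F.erase s).erase t)
    have h2 : t ∈ F.erase s := Finset.mem_erase.mpr ⟨hst.symm, ht⟩
    have h3 := Finset.card_erase_of_mem h2
    have h4 := Finset.card_erase_of_mem hs
    omega

theorem exists_run (F : Finset (List α)) (hF : F.Nonempty) :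
    ∃ G, Relation.ReflTransGen GreedyStep F {G} := by
  induction hn : F.card using Nat.strong_induction_on generalizing F with
  | _ n ih =>
    by_cases h1 : 1 < F.card
    · obtain ⟨F', hs, hc, hne⟩ := exists_step h1
      obtain ⟨G, hG⟩ := ih F'.card (by omega) F' hne rfl
      exact ⟨G, Relation.ReflTransGen.head hs hG⟩
    · have : F.card = 1 := by
        have := Finset.card_pos.mpr hF
        omega
      obtain ⟨G, hG⟩ := Finset.card_eq_one.mp this
      exact ⟨G, by rw [hG]⟩

theorem exists_output (S : Finset (List α)) (hS : S.Nonempty) : ∃ G, IsGreedyOutput S G := by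
  obtain ⟨s, hs⟩ := hS
  obtain ⟨t, ht, -⟩ := exists_reduce S hs
  exact exists_run _ ⟨t, ht⟩

end Vale.Agent.P333
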