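import Vale.Agent.P333.CE.RunV20
import Vale.Agent.P333.Lift
import Vale.Agent.P333.Main

/-! The greedy superstring conjecture is false, over every alphabet with two letters and for
arbitrarily large instances, whatever the way to break ties; the ratio is at least `2.182`. -/

namespace Vale.Agent.P333.Comb

open Vale.Agent.P333 Vale.Agent.P333.Rle

universe u

/-- all letters are smaller than `8` -/
def small (A : List (ℕ × ℕ)) : Bool := A.all (fun r => Nat.blt r.1 8)

theorem small_sound : ∀ {A : List (ℕ × ℕ)}, small A = true → ∀ a ∈ ex A, a < 8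
  | [], _, a, ha => by simp [ex] at ha
  | r :: A, h, a, ha => by
    unfold small at h
    rw [List.all_cons, Bool.and_eq_true] at h
    rw [show ex (r :: A) = List.replicate r.2 r.1 ++ ex A from rfl, List.mem_append] at ha
    rcases ha with ha | ha
    · rw [List.eq_of_mem_replicate ha]
      exact le_of_ble h.1
    · exact small_sound (A := A) h.2 a ha

theorem all_small : V20.L.all small = true := by decide +kernel

theorem letters_small : ∀ s ∈ fam V20.L, ∀ a ∈ s, a < 8 := by
  intro s hs
  obtain ⟨A, hA, rfl⟩ := List.mem_map.1 (List.mem_toFinset.1 hs)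
  have h1 := all_small
  rw [List.all_eq_true] at h1
  exact small_sound (h1 A hA)

theorem greedyFalse3 {α : Type u} [DecidableEq α] [Nontrivial α] (N : ℕ) :
    ∃ (S : Finset (List α)) (T : List α),
      (∀ s ∈ S, s <:+: T) ∧
      (∀ U : List α, (∀ s ∈ S, s <:+: U) → N ≤ U.length) ∧
      (∃ G : List α, IsGreedyOutput S G) ∧
      ∀ G : List α, IsGreedyOutput S G →
        2182 * T.length ≤ 1000 * G.length ∧ 2 * T.length + N < G.length := by
  obtain ⟨h1, h2⟩ := V20.forced
  have h3 : ex V20.w0 ∈ fam V20.L := by
    have : V20.w0 ∈ V20.L := by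
      unfold V20.L
      exact List.mem_cons_self
    exact List.mem_toFinset.2 (List.mem_map.2 ⟨_, this, rfl⟩)
  have h4 : (ex V20.w0).length ≠ 0 := by
    rw [length_ex]
    decide +kernel
  refine Lift.lift letters_small h1 ⟨_, h3, fun e => h4 (by rw [e]; rfl)⟩
    (exists_output _ ⟨_, h3⟩) (fun G hG => ?_) (by norm_num) N
  have h5 := h2 G hG
  rw [V20.len_T]
  omega

end Vale.Agent.P333.Comb
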