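import Mathlib

namespace P333R

open Finset

/-- The window of length `k` of the sequence `u` starting at `c`. -/
def win {A : Type*} (u : ℕ → A) (c k : ℕ) : List A := (List.range k).map (fun j => u (c + j))

section win
variable {A : Type*}

@[simp] lemma win_length (u : ℕ → A) (c k : ℕ) : (win u c k).length = k := by simp [win]

lemma win_getElem (u : ℕ → A) (c k j : ℕ) (h : j < (win u c k).length) :
    (win u c k)[j] = u (c + j) := by simp [win]

lemma win_eq_iff {u v : ℕ → A} {c d k : ℕ} :
    win u c k = win v d k ↔ ∀ j < k, u (c + j) = v (d + j) := by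
  constructor
  · intro h j hj
    have h1 := win_getElem u c k j (by simpa using hj)
    have h2 := win_getElem v d k j (by simpa using hj)
    rw [← h1, ← h2]
    simp [h]
  · intro h
    apply List.ext_getElem (by simp)
    intro j h1 h2
    rw [win_getElem, win_getElem]
    exact h j (by simpa using h1)

lemma win_take (u : ℕ → A) (c k : ℕ) : (win u c (k + 1)).take k = win u c k := by
  apply List.ext_getElem (by simp)
  intro j h1 h2
  rw [List.getElem_take, win_getElem, win_getElem]

lemma win_tail (u : ℕ → A) (c k : ℕ) : (win u c (k + 1)).tail = win u (c + 1) k := by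
  apply List.ext_getElem (by simp)
  intro j h1 h2
  rw [List.getElem_tail, win_getElem, win_getElem]
  congr 1; omega

lemma win_add (u : ℕ → A) (c k l : ℕ) : win u c (k + l) = win u c k ++ win u (c + k) l := by
  apply List.ext_getElem (by simp)
  intro j h1 h2
  rw [win_getElem, List.getElem_append]
  split_ifs with h
  · rw [win_getElem]
  · rw [win_getElem]
    simp only [win_length] at h ⊢
    congr 1; omega

lemma win_infix {u : ℕ → A} {c k l : ℕ} (h : k ≤ l) : win u c k <:+: win u c l := by
  obtain ⟨m, rfl⟩ := Nat.exists_eq_add_of_le h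
  rw [win_add]
  exact (List.prefix_append _ _).isInfix

end win

/-- periodicity transfers to multiples -/
lemma per_mul {A : Type*} {u : ℕ → A} {p : ℕ} (h : ∀ n, u (n + p) = u n) (n t : ℕ) :
    u (n + t * p) = u n := by
  induction t with
  | zero => simp
  | succ t ih => rw [show n + (t + 1) * p = (n + t * p) + p by ring, h, ih]

lemma per_mod {A : Type*} {u : ℕ → A} {p : ℕ} (h : ∀ n, u (n + p) = u n) (n : ℕ) :
    u n = u (n % p) := by
  have := per_mul h (n % p) (n / p)
  rw [← this]
  congr 1
  rw [mul_comm]
  exact (Nat.mod_add_div n p).symm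

/-- agreement on a window of length `p` gives agreement everywhere -/
lemma eq_of_win {A : Type*} {u v : ℕ → A} {p c d : ℕ} (hp : 0 < p)
    (hu : ∀ n, u (n + p) = u n) (hv : ∀ n, v (n + p) = v n)
    (h : ∀ j < p, u (c + j) = v (d + j)) (n : ℕ) : u (c + n) = v (d + n) := by
  have h1 : u (c + n) = u (c + n % p) := by
    have := per_mul (u := fun m => u (c + m)) (p := p) (fun m => by
      show u (c + (m + p)) = u (c + m)
      rw [← add_assoc, hu]) (n % p) (n / p)
    rw [← this]
    congr 2
    rw [mul_comm]; exact (Nat.mod_add_div n p).symm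
  have h2 : v (d + n) = v (d + n % p) := by
    have := per_mul (u := fun m => v (d + m)) (p := p) (fun m => by
      show v (d + (m + p)) = v (d + m)
      rw [← add_assoc, hv]) (n % p) (n / p)
    rw [← this]
    congr 2
    rw [mul_comm]; exact (Nat.mod_add_div n p).symm
  rw [h1, h2, h _ (Nat.mod_lt _ hp)]

/-- Existence of an unbordered window of length `p` (a Lyndon conjugate), letters natural numbers
bounded by `B`. -/
lemma exists_unb_nat (u : ℕ → ℕ) (B p : ℕ) (hB : ∀ n, u n < B) (hp : 0 < p)
    (hper : ∀ n, u (n + p) = u n)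
    (hprim : ∀ q, 0 < q → q < p → ∃ n, u (n + q) ≠ u n) :
    ∃ c, ∀ q, 0 < q → q < p → ∃ n, n + q < p ∧ u (c + n) ≠ u (c + n + q) := by
  classical
  set D := B + 2 with hD
  -- choose c minimising the value
  have hne : (Finset.range p).Nonempty := ⟨0, by simpa using hp⟩
  obtain ⟨c, hc, hmin⟩ := Finset.exists_min_image (Finset.range p)
    (fun c => Nat.ofDigits D (win u c p)) hne
  have hmin' : ∀ d, Nat.ofDigits D (win u c p) ≤ Nat.ofDigits D (win u d p) := by
    intro d
    have h1 := hmin (d % p) (by simpa using Nat.mod_lt _ hp)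
    have h2 : win u d p = win u (d % p) p := by
      rw [win_eq_iff]
      intro j _
      rw [per_mod hper (d + j), per_mod hper (d % p + j)]
      congr 1
      simp
    rw [h2]; exact h1
  refine ⟨c, ?_⟩
  intro q hq0 hqp
  by_contra hcon
  push Not at hcon
  -- border of length b = p - q
  set b := p - q with hb
  have hbq : q + b = p := by omega
  have hbq' : b + q = p := by omega
  -- v = win u c b = win u (c+q) b
  have hv : win u c b = win u (c + q) b := by
    rw [win_eq_iff]
    intro j hj
    have := hcon j (by omega)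
    rw [this]
    congr 1; omega
  -- win u c p = v ++ s, s = win u (c+b) q
  have e1 : win u c p = win u c b ++ win u (c + b) q := by rw [← win_add, hbq']
  -- win u c p = t ++ v', t = win u c q
  have e2 : win u c p = win u c q ++ win u (c + q) b := by rw [← win_add, hbq]
  -- rotation at c+q : v ++ t
  have e3 : win u (c + q) p = win u (c + q) b ++ win u c q := by
    have h1 : win u (c + q + b) q = win u c q := by
      rw [win_eq_iff]
      intro j _
      have : c + q + b + j = (c + j) + p := by omega
      rw [this, hper]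
    rw [← h1, ← win_add, hbq']
  -- rotation at c+b : s ++ v
  have e4 : win u (c + b) p = win u (c + b) q ++ win u c b := by
    have h1 : win u (c + b + q) b = win u c b := by
      rw [win_eq_iff]
      intro j _
      have : c + b + q + j = (c + j) + p := by omega
      rw [this, hper]
    rw [← h1, ← win_add, hbq]
  have m1 := hmin' (c + q)
  have m2 := hmin' (c + b)
  rw [e1, e3, Nat.ofDigits_append, Nat.ofDigits_append, ← hv] at m1
  rw [e2, e4, Nat.ofDigits_append, Nat.ofDigits_append, ← hv] at m2
  simp only [win_length] at m1 m2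
  have hDpos : 0 < D ^ b := by positivity
  have l1 : Nat.ofDigits D (win u (c + b) q) ≤ Nat.ofDigits D (win u c q) := by
    have : D ^ b * Nat.ofDigits D (win u (c + b) q) ≤ D ^ b * Nat.ofDigits D (win u c q) := by
      omega
    exact Nat.le_of_mul_le_mul_left this hDpos
  have l2 : Nat.ofDigits D (win u c q) ≤ Nat.ofDigits D (win u (c + b) q) := by omega
  have l3 : win u (c + b) q = win u c q := by
    apply Nat.ofDigits_inj_of_len_eq (b := D) (by omega) (by simp)
    · intro l hl
      simp only [win, List.mem_map, List.mem_range] at hl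
      obtain ⟨j, _, rfl⟩ := hl
      have := hB (c + b + j); omega
    · intro l hl
      simp only [win, List.mem_map, List.mem_range] at hl
      obtain ⟨j, _, rfl⟩ := hl
      have := hB (c + j); omega
    · omega
  -- then win u c p = win u (c+q) p
  have l4 : win u c p = win u (c + q) p := by rw [e1, e3, l3, hv]
  rw [win_eq_iff] at l4
  -- period q everywhere
  have l5 : ∀ n, u (c + n) = u (c + q + n) := eq_of_win hp hper hper l4
  obtain ⟨n, hn⟩ := hprim q hq0 hqp
  apply hn
  -- write n + M p = c + n'
  have h6 : u n = u (n + c * p) := (per_mul hper n c).symm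
  have h7 : u (n + q) = u (n + q + c * p) := (per_mul hper (n + q) c).symm
  have hcp : c ≤ c * p := Nat.le_mul_of_pos_right c hp
  obtain ⟨r, hr⟩ := Nat.exists_eq_add_of_le (show c ≤ n + c * p by omega)
  rw [h6, h7, hr, l5 r]
  congr 1; omega


/-- Existence of an unbordered window of length `p` (a Lyndon conjugate), general letters. -/
lemma exists_unb {A : Type*} [DecidableEq A] (T : List A) (u : ℕ → A) (p : ℕ)
    (hmem : ∀ n, u n ∈ T) (hp : 0 < p) (hper : ∀ n, u (n + p) = u n)
    (hprim : ∀ q, 0 < q → q < p → ∃ n, u (n + q) ≠ u n) :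
    ∃ c, ∀ q, 0 < q → q < p → ∃ n, n + q < p ∧ u (c + n) ≠ u (c + n + q) := by
  obtain ⟨c, hc⟩ := exists_unb_nat (fun n => T.idxOf (u n)) T.length p
    (fun n => List.idxOf_lt_length_iff.2 (hmem n)) hp (fun n => by
      show T.idxOf (u (n + p)) = T.idxOf (u n)
      rw [hper]) (by
      intro q h0 h1
      obtain ⟨n, hn⟩ := hprim q h0 h1
      refine ⟨n, fun h => hn ?_⟩
      exact (List.idxOf_inj (hmem _)).1 h)
  refine ⟨c, fun q h0 h1 => ?_⟩
  obtain ⟨n, h2, h3⟩ := hc q h0 h1
  refine ⟨n, h2, fun h => h3 ?_⟩
  show T.idxOf (u (c + n)) = T.idxOf (u (c + n + q))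
  rw [h]

/-- The set of factors of length `k` of `T`. -/
def Fac {A : Type*} [DecidableEq A] (T : List A) (k : ℕ) : Finset (List A) :=
  (Finset.range (T.length + 1 - k)).image (fun i => (T.drop i).take k)

section fac
variable {A : Type*} [DecidableEq A]

lemma mem_Fac {T : List A} {k : ℕ} {x : List A} :
    x ∈ Fac T k ↔ x.length = k ∧ x <:+: T := by
  unfold Fac
  simp only [Finset.mem_image, Finset.mem_range]
  constructor
  · rintro ⟨i, hi, rfl⟩
    constructor
    · rw [List.length_take, List.length_drop]; omega
    · exact (List.take_prefix _ _).isInfix.trans (List.drop_suffix _ _).isInfix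
  · rintro ⟨hx, s, t, hT⟩
    refine ⟨s.length, ?_, ?_⟩
    · rw [← hT]; simp only [List.length_append]; omega
    · rw [← hT, List.append_assoc, List.drop_left, ← hx, List.take_left]

lemma take_mem_Fac {T : List A} {k : ℕ} {f : List A} (h : f ∈ Fac T (k + 1)) :
    f.take k ∈ Fac T k := by
  rw [mem_Fac] at h ⊢
  refine ⟨by rw [List.length_take]; omega, (List.take_prefix _ _).isInfix.trans h.2⟩

lemma tail_mem_Fac {T : List A} {k : ℕ} {f : List A} (h : f ∈ Fac T (k + 1)) :
    f.tail ∈ Fac T k := by
  rw [mem_Fac] at h ⊢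
  refine ⟨by rw [List.length_tail]; omega, (List.tail_suffix _).isInfix.trans h.2⟩

/-- One edge of the graph of `k`-factors with the edges in `Sp` removed. -/
def rel (T : List A) (k : ℕ) (Sp : Finset (List A)) (x y : List A) : Prop :=
  ∃ f ∈ Fac T (k + 1), f ∉ Sp ∧ f.take k = x ∧ f.tail = y

lemma eqvGen_mem {T : List A} {k : ℕ} {Sp : Finset (List A)} {x y : List A}
    (h : Relation.EqvGen (rel T k Sp) x y) : x ∈ Fac T k ↔ y ∈ Fac T k := by
  induction h with
  | rel x y h =>
    obtain ⟨f, hf, _, rfl, rfl⟩ := h
    exact ⟨fun _ => tail_mem_Fac hf, fun _ => take_mem_Fac hf⟩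
  | refl x => rfl
  | symm x y _ ih => exact ih.symm
  | trans x y z _ _ ih1 ih2 => exact ih1.trans ih2

/-- The graph on the `k`-factors. -/
def gr (T : List A) (k : ℕ) (Sp : Finset (List A)) : SimpleGraph {x // x ∈ Fac T k} :=
  SimpleGraph.fromRel (fun x y => rel T k Sp x.1 y.1)

lemma reach_of_eqvGen {T : List A} {k : ℕ} {Sp : Finset (List A)} {x y : List A}
    (h : Relation.EqvGen (rel T k Sp) x y) (hx : x ∈ Fac T k) (hy : y ∈ Fac T k) :
    (gr T k Sp).Reachable ⟨x, hx⟩ ⟨y, hy⟩ := by
  induction h with
  | rel x y h =>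
    by_cases hxy : x = y
    · subst hxy; exact SimpleGraph.Reachable.refl _
    · apply SimpleGraph.Adj.reachable
      rw [gr, SimpleGraph.fromRel_adj]
      exact ⟨fun e => hxy (congrArg Subtype.val e), Or.inl h⟩
  | refl x => exact SimpleGraph.Reachable.refl _
  | symm x y _ ih => exact (ih hy hx).symm
  | trans x y z h1 _ ih1 ih2 =>
    have hy' := (eqvGen_mem h1).1 hx
    exact (ih1 hx hy').trans (ih2 hy' hy)

lemma level_bound (T : List A) (k : ℕ) (hk : k ≤ T.length) (Sp : Finset (List A))
    (hSp : Sp ⊆ Fac T (k + 1))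
    (hconn : ∀ f ∈ Fac T (k + 1), Relation.EqvGen (rel T k Sp) (f.take k) f.tail) :
    (Fac T k).card + Sp.card ≤ (Fac T (k + 1)).card + 1 := by
  classical
  -- walk along T
  have hwalk : ∀ i, i + k ≤ T.length →
      Relation.EqvGen (rel T k Sp) (T.take k) ((T.drop i).take k) := by
    intro i
    induction i with
    | zero => intro _; simpa using Relation.EqvGen.refl _
    | succ i ih =>
      intro hi
      have h1 := ih (by omega)
      have hf : (T.drop i).take (k + 1) ∈ Fac T (k + 1) := by
        unfold Fac
        exact Finset.mem_image.2 ⟨i, Finset.mem_range.2 (by omega), rfl⟩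
      have h2 := hconn _ hf
      have e1 : ((T.drop i).take (k + 1)).take k = (T.drop i).take k := by
        rw [List.take_take]; congr 1; omega
      have e2 : ((T.drop i).take (k + 1)).tail = (T.drop (i + 1)).take k := by
        apply List.ext_getElem
        · simp only [List.length_tail, List.length_take, List.length_drop]; omega
        · intro j h1 h2
          simp only [List.getElem_tail, List.getElem_take, List.getElem_drop]
          congr 1; omega
      rw [e1, e2] at h2
      exact Relation.EqvGen.trans _ _ _ h1 h2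
  have hroot : T.take k ∈ Fac T k := by
    rw [mem_Fac]
    exact ⟨by rw [List.length_take]; omega, (List.take_prefix _ _).isInfix⟩
  have hroot' : ∀ x ∈ Fac T k, Relation.EqvGen (rel T k Sp) (T.take k) x := by
    intro x hx
    unfold Fac at hx
    obtain ⟨i, hi, rfl⟩ := Finset.mem_image.1 hx
    have hi' := Finset.mem_range.1 hi
    exact hwalk i (by omega)
  have hcon : (gr T k Sp).Connected := by
    have : Nonempty {x // x ∈ Fac T k} := ⟨⟨_, hroot⟩⟩
    refine SimpleGraph.Connected.mk ?_
    rintro ⟨x, hx⟩ ⟨y, hy⟩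
    exact (reach_of_eqvGen (hroot' x hx) hroot hx).symm.trans
      (reach_of_eqvGen (hroot' y hy) hroot hy)
  have h1 := hcon.card_vert_le_card_edgeSet_add_one
  have h2 : Nat.card {x // x ∈ Fac T k} = (Fac T k).card := by simp
  let φ : {f // f ∈ Fac T (k + 1) \ Sp} → Sym2 {x // x ∈ Fac T k} := fun f =>
    s(⟨f.1.take k, take_mem_Fac (Finset.mem_sdiff.1 f.2).1⟩,
      ⟨f.1.tail, tail_mem_Fac (Finset.mem_sdiff.1 f.2).1⟩)
  have h3 : (gr T k Sp).edgeSet ⊆ Set.range φ := by
    intro e
    refine Sym2.ind (fun x y => ?_) e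
    intro hxy
    rw [SimpleGraph.mem_edgeSet, gr, SimpleGraph.fromRel_adj] at hxy
    obtain ⟨_, hxy⟩ := hxy
    rcases hxy with ⟨f, hf, hfS, ha, hb⟩ | ⟨f, hf, hfS, ha, hb⟩
    · refine ⟨⟨f, Finset.mem_sdiff.2 ⟨hf, hfS⟩⟩, ?_⟩
      show s(_, _) = s(x, y)
      rw [show x = ⟨f.take k, take_mem_Fac hf⟩ from (Subtype.ext ha).symm,
        show y = ⟨f.tail, tail_mem_Fac hf⟩ from (Subtype.ext hb).symm]
    · refine ⟨⟨f, Finset.mem_sdiff.2 ⟨hf, hfS⟩⟩, ?_⟩
      show s(_, _) = s(x, y)
      rw [Sym2.eq_swap]
      rw [show x = ⟨f.tail, tail_mem_Fac hf⟩ from (Subtype.ext hb).symm,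
        show y = ⟨f.take k, take_mem_Fac hf⟩ from (Subtype.ext ha).symm]
  have h4 : Nat.card (gr T k Sp).edgeSet ≤ (Fac T (k + 1) \ Sp).card := by
    have h5 : Nat.card (gr T k Sp).edgeSet ≤ Nat.card (Set.range φ) :=
      Nat.card_mono (Set.finite_range φ) h3
    have h6 : Nat.card (Set.range φ) ≤ Nat.card {f // f ∈ Fac T (k + 1) \ Sp} :=
      Finite.card_range_le φ
    have h7 : Nat.card {f // f ∈ Fac T (k + 1) \ Sp} = (Fac T (k + 1) \ Sp).card := by
      rw [Nat.card_eq_fintype_card, Fintype.card_coe]
    omega
  have h8 : (Fac T (k + 1) \ Sp).card + Sp.card = (Fac T (k + 1)).card :=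
    Finset.card_sdiff_add_card_eq_card hSp
  omega

end fac


section rings
variable {A : Type*} [DecidableEq A]

/-- A family of pairwise non-conjugate primitive rings whose windows are factors of `T`:
the total excess is at most `T.length`. -/
theorem rings_sum_add_le {A : Type*} [DecidableEq A] (T : List A) {I : Type*} [Fintype I]
    (pi z : I → ℕ) (u : I → ℕ → A)
    (hper : ∀ i n, u i (n + pi i) = u i n)
    (hprim : ∀ i q, 0 < q → q < pi i → ∃ n, u i (n + q) ≠ u i n)
    (hpos : ∀ i, 0 < pi i)
    (hnc : ∀ i j, i ≠ j → pi i = pi j → ∀ c, ∃ n, u i (n + c) ≠ u j n)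
    (hT : ∀ i c, win (u i) c (z i + 1) <:+: T) :
    ∑ i, (z i + 1 - pi i) + (Fac T 1).card ≤ T.length := by
  classical
  -- unbordered starts
  have hmem : ∀ i n, u i n ∈ T := by
    intro i n
    have h1 := hT i n
    apply h1.subset
    simp only [win, List.mem_map, List.mem_range]
    exact ⟨0, by omega, by simp⟩
  choose c0 hc0 using fun i => exists_unb T (u i) (pi i) (hmem i) (hpos i) (hper i) (hprim i)
  have hz : ∀ i, z i + 1 ≤ T.length := by
    intro i
    have := (hT i 0).length_le
    simpa using this
  -- property (P)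
  have hP : ∀ (k : ℕ) (i j : I) (c : ℕ), i ≠ j → pi j ≤ k →
      win (u j) (c0 j) (k + 1) = win (u i) c (k + 1) → pi j < pi i := by
    intro k i j c hij hk he
    rw [win_eq_iff] at he
    by_contra hcon
    rcases Nat.lt_or_ge (pi i) (pi j) with hlt | hge
    · obtain ⟨n, hn1, hn2⟩ := hc0 j (pi i) (hpos i) hlt
      apply hn2
      have e1 := he n (by omega)
      have e2 := he (n + pi i) (by omega)
      rw [← add_assoc, ← add_assoc, hper i] at e2
      rw [e1, e2]
    · have heq : pi i = pi j := by omega
      have h1 : ∀ n, u j (c0 j + n) = u i (c + n) :=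
        eq_of_win (hpos j) (hper j) (heq ▸ hper i) (fun n hn => he n (by omega))
      have hcp : c0 j ≤ c0 j * pi j := Nat.le_mul_of_pos_right _ (hpos j)
      obtain ⟨r, hr⟩ := Nat.exists_eq_add_of_le hcp
      obtain ⟨n, hn⟩ := hnc i j hij heq (c + r)
      apply hn
      have h2 : u j n = u j (n + c0 j * pi j) := (per_mul (hper j) n (c0 j)).symm
      rw [h2, show n + c0 j * pi j = c0 j + (n + r) by omega, h1]
      congr 1; omega
  -- same ring
  have hSame : ∀ (k : ℕ) (i : I) (t : ℕ), pi i ≤ k → t + 1 < pi i →
      win (u i) (c0 i + 1 + t) (k + 1) ≠ win (u i) (c0 i) (k + 1) := by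
    intro k i t hk ht he
    rw [win_eq_iff] at he
    have h1 : ∀ n, u i (c0 i + 1 + t + n) = u i (c0 i + n) :=
      eq_of_win (hpos i) (hper i) (hper i) (fun n hn => he n (by omega))
    obtain ⟨n, hn⟩ := hprim i (t + 1) (by omega) ht
    apply hn
    have hcp : c0 i ≤ c0 i * pi i := Nat.le_mul_of_pos_right _ (hpos i)
    obtain ⟨r, hr⟩ := Nat.exists_eq_add_of_le hcp
    have h2 : u i n = u i (n + c0 i * pi i) := (per_mul (hper i) n (c0 i)).symm
    have h3 : u i (n + (t + 1)) = u i (n + (t + 1) + c0 i * pi i) :=
      (per_mul (hper i) _ (c0 i)).symm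
    rw [h2, h3, show n + c0 i * pi i = c0 i + (n + r) by omega,
      show n + (t + 1) + c0 i * pi i = c0 i + 1 + t + (n + r) by omega, h1]
  -- alive rings and special edges
  let alive : ℕ → Finset I := fun k => Finset.univ.filter (fun i => pi i ≤ k ∧ k ≤ z i)
  let Sp : ℕ → Finset (List A) := fun k => (alive k).image (fun i => win (u i) (c0 i) (k + 1))
  have hwin : ∀ k i c, k ≤ z i → win (u i) c (k + 1) ∈ Fac T (k + 1) := by
    intro k i c hk
    rw [mem_Fac]
    exact ⟨by simp, (win_infix (by omega)).trans (hT i c)⟩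
  have hSpcard : ∀ k, (Sp k).card = (alive k).card := by
    intro k
    apply Finset.card_image_of_injOn
    intro i hi j hj he
    have hi' := (Finset.mem_filter.1 (Finset.mem_coe.1 hi)).2
    have hj' := (Finset.mem_filter.1 (Finset.mem_coe.1 hj)).2
    by_contra hij
    have h1 := hP k i j (c0 i) hij hj'.1 he.symm
    have h2 := hP k j i (c0 j) (Ne.symm hij) hi'.1 he
    omega
  have hSpsub : ∀ k, Sp k ⊆ Fac T (k + 1) := by
    intro k f hf
    obtain ⟨i, hi, rfl⟩ := Finset.mem_image.1 hf
    exact hwin k i _ (Finset.mem_filter.1 hi).2.2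
  have hreach : ∀ k n, ∀ f ∈ Fac T (k + 1),
      (f ∉ Sp k ∨ ∃ i ∈ alive k, f = win (u i) (c0 i) (k + 1) ∧ pi i < n) →
      Relation.EqvGen (rel T k (Sp k)) (f.take k) f.tail := by
    intro k n
    induction n with
    | zero =>
      intro f hf h
      rcases h with h | ⟨i, _, _, h⟩
      · exact Relation.EqvGen.rel _ _ ⟨f, hf, h, rfl, rfl⟩
      · omega
    | succ n ih =>
      intro f hf h
      rcases h with h | ⟨i, hi, rfl, h⟩
      · exact Relation.EqvGen.rel _ _ ⟨f, hf, h, rfl, rfl⟩
      · have hi' := (Finset.mem_filter.1 hi).2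
        rw [win_take, win_tail]
        -- walk from c0+1 to c0 + pi
        have hw : ∀ t, t + 1 ≤ pi i → Relation.EqvGen (rel T k (Sp k))
            (win (u i) (c0 i + 1) k) (win (u i) (c0 i + 1 + t) k) := by
          intro t
          induction t with
          | zero => intro _; exact Relation.EqvGen.refl _
          | succ t iht =>
            intro ht
            have h1 := iht (by omega)
            have hg := hwin k i (c0 i + 1 + t) hi'.2
            have h2 : Relation.EqvGen (rel T k (Sp k))
                ((win (u i) (c0 i + 1 + t) (k + 1)).take k)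
                (win (u i) (c0 i + 1 + t) (k + 1)).tail := by
              apply ih _ hg
              by_cases hs : win (u i) (c0 i + 1 + t) (k + 1) ∈ Sp k
              · right
                obtain ⟨j, hj, hje⟩ := Finset.mem_image.1 hs
                have hj' := (Finset.mem_filter.1 hj).2
                refine ⟨j, hj, hje.symm, ?_⟩
                have hne : i ≠ j := by
                  rintro rfl
                  exact hSame k i t hi'.1 (by omega) hje.symm
                have := hP k i j _ hne hj'.1 hje
                omega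
              · exact Or.inl hs
            rw [win_take, win_tail] at h2
            rw [show c0 i + 1 + (t + 1) = c0 i + 1 + t + 1 by omega]
            exact Relation.EqvGen.trans _ _ _ h1 h2
        have h3 := hw (pi i - 1) (by have := hpos i; omega)
        have h4 : win (u i) (c0 i + 1 + (pi i - 1)) k = win (u i) (c0 i) k := by
          rw [win_eq_iff]
          intro j _
          rw [show c0 i + 1 + (pi i - 1) + j = (c0 i + j) + pi i by
            have := hpos i; omega, hper]
        rw [h4] at h3
        exact Relation.EqvGen.symm _ _ h3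
  have hlevel : ∀ k, k ≤ T.length →
      (Fac T k).card + (alive k).card ≤ (Fac T (k + 1)).card + 1 := by
    intro k hk
    rw [← hSpcard]
    apply level_bound T k hk (Sp k) (hSpsub k)
    intro f hf
    by_cases hs : f ∈ Sp k
    · obtain ⟨i, hi, hie⟩ := Finset.mem_image.1 hs
      exact hreach k (pi i + 1) f hf (Or.inr ⟨i, hi, hie.symm, by omega⟩)
    · exact hreach k 0 f hf (Or.inl hs)
  -- telescoping
  have htel : ∀ m, m ≤ T.length →
      ∑ k ∈ Finset.range m, (alive (k + 1)).card + (Fac T 1).card ≤ (Fac T (m + 1)).card + m := by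
    intro m
    induction m with
    | zero => intro _; simp
    | succ m ih =>
      intro hm
      have h1 := ih (by omega)
      have h2 := hlevel (m + 1) hm
      rw [Finset.sum_range_succ]
      omega
  have hlast : (Fac T (T.length + 1)).card = 0 := by
    simp [Fac]
  have hfin := htel T.length le_rfl
  rw [hlast] at hfin
  -- double counting
  have hdc : ∑ i, (z i + 1 - pi i) = ∑ k ∈ Finset.range T.length, (alive (k + 1)).card := by
    have h1 : ∀ i, z i + 1 - pi i =
        ∑ k ∈ Finset.range T.length, if pi i ≤ k + 1 ∧ k + 1 ≤ z i then 1 else 0 := by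
      intro i
      rw [← Finset.card_filter]
      have h2 : (Finset.range T.length).filter (fun k => pi i ≤ k + 1 ∧ k + 1 ≤ z i) =
          Finset.Ico (pi i - 1) (z i) := by
        ext k
        simp only [Finset.mem_filter, Finset.mem_range, Finset.mem_Ico]
        have := hz i; have := hpos i
        omega
      rw [h2, Nat.card_Ico]
      have := hpos i
      omega
    rw [Finset.sum_congr rfl (fun i _ => h1 i), Finset.sum_comm]
    apply Finset.sum_congr rfl
    intro k _
    rw [← Finset.card_filter]
  omega

theorem rings_sum_le {A : Type*} [DecidableEq A] (T : List A) {I : Type*} [Fintype I]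
    (pi z : I → ℕ) (u : I → ℕ → A)
    (hper : ∀ i n, u i (n + pi i) = u i n)
    (hprim : ∀ i q, 0 < q → q < pi i → ∃ n, u i (n + q) ≠ u i n)
    (hpos : ∀ i, 0 < pi i)
    (hnc : ∀ i j, i ≠ j → pi i = pi j → ∀ c, ∃ n, u i (n + c) ≠ u j n)
    (hT : ∀ i c, win (u i) c (z i + 1) <:+: T) :
    ∑ i, (z i + 1 - pi i) ≤ T.length := by
  have := rings_sum_add_le T pi z u hper hprim hpos hnc hT
  omega

end rings

end P333R
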