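import Vale.Agent.P333.Closing
import Vale.Agent.P333.Rings

/-! The number of isolated positions is at most the length of any superstring. -/

namespace Vale.Agent.P333

universe u

variable {α : Type u} {S : Finset (List α)} {G : List α} {pos : List α → ℕ}

theorem getD_sub {U : List α} {i j k : ℕ} (x0 : α) (_hj : j ≤ U.length) (hk : i + k < j) :
    (sub U i j).getD k x0 = U.getD (i + k) x0 := by
  unfold sub
  simp only [List.getD_eq_getElem?_getD]
  rw [List.getElem?_take_of_lt (by omega), List.getElem?_drop]

theorem ext_getD {s t : List α} (x0 : α) (hl : s.length = t.length)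
    (h : ∀ k < s.length, s.getD k x0 = t.getD k x0) : s = t := by
  apply List.ext_getElem hl
  intro k h1 h2
  have := h k h1
  rw [List.getD_eq_getElem _ _ h1, List.getD_eq_getElem _ _ h2] at this
  exact this

theorem Occ.getD {s U : List α} {c k : ℕ} (x0 : α) (h : Occ s U c) (hk : k < s.length) :
    s.getD k x0 = U.getD (c + k) x0 := by
  obtain ⟨l, r, rfl, rfl⟩ := h
  simp only [List.getD_eq_getElem?_getD]
  rw [List.getElem?_append_right (by omega), List.getElem?_append_left (by omega)]
  congr 2
  omega

theorem getD_win {A : Type*} (u : ℕ → A) (c m k : ℕ) (x0 : A) (hk : k < m) :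
    (P333R.win u c m).getD k x0 = u (c + k) := by
  rw [List.getD_eq_getElem _ _ (by simpa using hk), P333R.win_getElem]

/-- The ring of a high-periodic closing: its least period and the periodic word. -/
theorem exists_ring (h : Placement S G pos) {a b : List α} {m : ℕ} (x0 : α)
    (C : Closing S G pos a b m) (_hhp : pos b + b.length < pos a + 2 * m) :
    ∃ (per : ℕ) (u : ℕ → α), 0 < per ∧ per + m ≤ pos b + b.length - pos a ∧
      (∀ n, u (n + per) = u n) ∧
      (∀ q, 0 < q → q < per → ∃ n, u (n + q) ≠ u n) ∧
      (∀ i, i < pos b + b.length - pos a → u i = G.getD (pos a + i) x0) := by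
  classical
  have hbl := (h.occ b C.hb).le
  have hmb := C.hmb
  have hab := C.hab
  set A := pos a with hA
  set E := pos b + b.length with hE
  let P : ℕ → Prop := fun q => 0 < q ∧ ∀ i, A ≤ i → i + q < E → G.getD i x0 = G.getD (i + q) x0
  have hd : P (E - A - m) := by
    refine ⟨by omega, ?_⟩
    intro i hi hiq
    have e := C.border
    have e1 := getD_sub (U := G) (i := A) (j := A + m) (k := i - A) x0 (by omega) (by omega)
    have e2 := getD_sub (U := G) (i := E - m) (j := E) (k := i - A) x0 (by omega) (by omega)
    rw [← hA, ← hE] at e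
    rw [e] at e1
    rw [e1] at e2
    have f1 : A + (i - A) = i := by omega
    have f2 : E - m + (i - A) = i + (E - A - m) := by omega
    rw [f1, f2] at e2
    exact e2
  have hex : ∃ q, P q := ⟨_, hd⟩
  have hmin := Nat.find_min' hex hd
  obtain ⟨hpos, hperiod⟩ := Nat.find_spec hex
  set per := Nat.find hex with hper
  have hu : ∀ i, i < E - A → G.getD (A + i % per) x0 = G.getD (A + i) x0 := by
    intro i
    induction i using Nat.strong_induction_on with
    | _ i ih =>
      intro hi
      by_cases hlt : i < per
      · rw [Nat.mod_eq_of_lt hlt]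
      · have h1 := ih (i - per) (by omega) (by omega)
        have h2 : (i - per) % per = i % per := by
          conv_rhs => rw [← Nat.sub_add_cancel (Nat.le_of_not_lt hlt)]
          rw [Nat.add_mod_right]
        rw [h2] at h1
        rw [h1]
        have h3 := hperiod (A + (i - per)) (by omega) (by omega)
        rw [h3]
        congr 1
        omega
  refine ⟨per, fun n => G.getD (A + n % per) x0, hpos, by omega, ?_, ?_, hu⟩
  · intro n
    simp only [Nat.add_mod_right]
  · intro q hq hqp
    by_contra hcon
    push Not at hcon
    refine Nat.find_min hex hqp ⟨hq, ?_⟩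
    intro i hi hiq
    have h1 := hcon (i - A)
    have h2 := hu (i - A) (by omega)
    have h3 := hu (i - A + q) (by omega)
    rw [h2, h3] at h1
    have f1 : A + (i - A) = i := by omega
    have f2 : A + (i - A + q) = i + q := by omega
    rw [f1, f2] at h1
    exact h1.symm

/-- The last string of a closing that starts at or before `x`. -/
theorem Closing.window (h : Placement S G pos) {a b : List α} {m : ℕ}
    (C : Closing S G pos a b m) {x : ℕ} (hx : pos a ≤ x) (hx2 : x + m ≤ pos b + b.length) :
    ∃ s ∈ S, pos a ≤ pos s ∧ pos s ≤ pos b ∧ pos s ≤ x ∧ x + m ≤ pos s + s.length ∧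
      ∀ t ∈ S, pos s < pos t → x < pos t := by
  classical
  obtain ⟨s, hs, hmax⟩ := Finset.exists_max_image (S.filter (fun t => pos t ≤ x)) pos
    ⟨a, Finset.mem_filter.mpr ⟨C.ha, hx⟩⟩
  rw [Finset.mem_filter] at hs
  have has : pos a ≤ pos s := hmax a (Finset.mem_filter.mpr ⟨C.ha, hx⟩)
  have hnext : ∀ t ∈ S, pos s < pos t → x < pos t := by
    intro t ht hlt
    by_contra hcon
    have := hmax t (Finset.mem_filter.mpr ⟨ht, by omega⟩)
    omega
  have hsb : pos s ≤ pos b := by
    by_contra hcon
    have := C.outB s hs.1 (by omega)
    omega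
  refine ⟨s, hs.1, has, hsb, hs.2, ?_, hnext⟩
  by_cases hlt : pos s < pos b
  · obtain ⟨t, ht, t1, t2⟩ := C.links s hs.1 has hlt
    have := hnext t ht t1
    omega
  · by_contra hcon
    have := h.order C.hb hs.1 (by omega) (by omega)
    rw [this] at hcon
    omega

/-- The first string of a closing that ends at or after `y`. -/
theorem Closing.window' (h : Placement S G pos) {a b : List α} {m : ℕ}
    (C : Closing S G pos a b m) {y : ℕ} (hy : pos a + m ≤ y) (hy2 : y ≤ pos b + b.length) :
    ∃ s ∈ S, pos a ≤ pos s ∧ pos s ≤ pos b ∧ pos s + m ≤ y ∧ y ≤ pos s + s.length ∧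
      ∀ t ∈ S, pos t < pos s → pos t + t.length < y := by
  classical
  obtain ⟨s, hs, hmin⟩ := Finset.exists_min_image (S.filter (fun t => y ≤ pos t + t.length)) pos
    ⟨b, Finset.mem_filter.mpr ⟨C.hb, hy2⟩⟩
  rw [Finset.mem_filter] at hs
  have hsb : pos s ≤ pos b := hmin b (Finset.mem_filter.mpr ⟨C.hb, hy2⟩)
  have hprev : ∀ t ∈ S, pos t < pos s → pos t + t.length < y := by
    intro t ht hlt
    by_contra hcon
    have := hmin t (Finset.mem_filter.mpr ⟨ht, by omega⟩)
    omega
  have has : pos a ≤ pos s := by
    by_contra hcon
    have := C.inA s hs.1 (by omega)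
    omega
  refine ⟨s, hs.1, has, hsb, ?_, hs.2, hprev⟩
  by_cases hlt : pos a < pos s
  · -- the predecessor of `s`
    obtain ⟨r, hr, hrmax⟩ := Finset.exists_max_image (S.filter (fun t => pos t < pos s)) pos
      ⟨a, Finset.mem_filter.mpr ⟨C.ha, hlt⟩⟩
    rw [Finset.mem_filter] at hr
    have har : pos a ≤ pos r := hrmax a (Finset.mem_filter.mpr ⟨C.ha, hlt⟩)
    obtain ⟨t, ht, t1, t2⟩ := C.links r hr.1 har (by omega)
    have hst : pos s ≤ pos t := by
      by_contra hcon
      have := hrmax t (Finset.mem_filter.mpr ⟨ht, by omega⟩)
      omega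
    have := hprev r hr.1 hr.2
    omega
  · omega

/-- Strings of a closing are longer than the closing word. -/
theorem Closing.long (h : Placement S G pos) {a b : List α} {m : ℕ}
    (C : Closing S G pos a b m) {s : List α} (hs : s ∈ S) (h1 : pos a ≤ pos s)
    (h2 : pos s ≤ pos b) : m < s.length := by
  by_cases hlt : pos s < pos b
  · obtain ⟨t, ht, t1, t2⟩ := C.links s hs h1 hlt
    omega
  · by_contra hcon
    have hmb := C.hmb
    have := h.order C.hb hs (by omega) (by omega)
    rw [this] at hcon
    omega

/-- The data of a ring. -/
structure IsRing (G : List α) (x0 : α) (A E m per : ℕ) (u : ℕ → α) : Prop where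
  hpos : 0 < per
  hle : per + m ≤ E - A
  hper : ∀ n, u (n + per) = u n
  hprim : ∀ q, 0 < q → q < per → ∃ n, u (n + q) ≠ u n
  hval : ∀ i, i < E - A → u i = G.getD (A + i) x0

theorem IsRing.per_mul {x0 : α} {A E m per : ℕ} {u : ℕ → α} (R : IsRing G x0 A E m per u)
    (n k : ℕ) : u (n + k * per) = u n := by
  induction k with
  | zero => simp
  | succ k ih =>
    rw [Nat.succ_mul, ← Nat.add_assoc, R.hper, ih]

theorem IsRing.per_mod {x0 : α} {A E m per : ℕ} {u : ℕ → α} (R : IsRing G x0 A E m per u)
    (n k : ℕ) : u (n % per + k) = u (n + k) := by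
  have := R.per_mul (n % per + k) (n / per)
  rw [← this]
  congr 1
  have := Nat.mod_add_div n per
  rw [Nat.mul_comm] at this
  omega

/-- A window of the ring of length at most `m` lies in one string. -/
theorem ring_window (h : Placement S G pos) {a b : List α} {m per : ℕ} {x0 : α} {u : ℕ → α}
    (C : Closing S G pos a b m) (R : IsRing G x0 (pos a) (pos b + b.length) m per u) (c : ℕ) :
    ∃ s ∈ S, pos a ≤ pos s ∧ pos s ≤ pos b ∧ P333R.win u c m <:+: s := by
  have hmod := Nat.mod_lt c R.hpos
  have hle := R.hle
  have hmb := C.hmb
  have hab := C.hab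
  have hbl := (h.occ b C.hb).le
  obtain ⟨s, hs, h1, h2, h3, h4, -⟩ := C.window h (x := pos a + c % per) (by omega) (by omega)
  refine ⟨s, hs, h1, h2, ?_⟩
  have hsl := (h.occ s hs).le
  have e : P333R.win u c m = sub G (pos a + c % per) (pos a + c % per + m) := by
    apply ext_getD x0
    · rw [sub_length (by omega)]
      simp
    · intro k hk
      have hk' : k < m := by simpa using hk
      rw [getD_win _ _ _ _ _ hk', getD_sub x0 (by omega) (by omega)]
      have e1 := R.per_mod c k
      rw [← e1, R.hval _ (by omega)]
      congr 1
      omega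
  rw [e]
  have e2 := (h.occ s hs).sub_eq (i := pos a + c % per - pos s)
    (j := pos a + c % per + m - pos s) (by omega)
  have f1 : pos s + (pos a + c % per - pos s) = pos a + c % per := by omega
  have f2 : pos s + (pos a + c % per + m - pos s) = pos a + c % per + m := by omega
  rw [f1, f2] at e2
  rw [e2]
  exact sub_infix _ _

/-- `c` is a factor of the periodic word `u`. -/
def OnRing (u : ℕ → α) (x0 : α) (c : List α) : Prop :=
  ∃ f, ∀ k < c.length, c.getD k x0 = u (f + k)

theorem onRing_long (h : Placement S G pos) {a b : List α} {m per : ℕ} {x0 : α} {u : ℕ → α}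
    (C : Closing S G pos a b m) (R : IsRing G x0 (pos a) (pos b + b.length) m per u)
    {c : List α} (hc : c ∈ S) (ho : OnRing u x0 c) : m < c.length := by
  by_contra hcon
  push Not at hcon
  obtain ⟨f, hf⟩ := ho
  obtain ⟨s, hs, h1, h2, h3⟩ := ring_window h C R f
  have e : c = P333R.win u f c.length := by
    apply ext_getD x0
    · simp
    · intro k hk
      rw [getD_win _ _ _ _ _ hk, hf k hk]
  have h4 : c <:+: s := by
    rw [e]
    exact (P333R.win_infix hcon).trans h3
  have h5 := h.free c hc s hs h4
  have := C.long h hs h1 h2
  rw [h5] at hcon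
  omega

/-- A string on the ring with short in-overlap is not after the closing. -/
theorem onRing_le (h : Placement S G pos) {a b : List α} {m per : ℕ} {x0 : α} {u : ℕ → α}
    (C : Closing S G pos a b m) (R : IsRing G x0 (pos a) (pos b + b.length) m per u)
    {c : List α} (hc : c ∈ S) (ho : OnRing u x0 c)
    (hin : ∀ t ∈ S, pos t < pos c → pos t + t.length < pos c + m) : pos c ≤ pos b := by
  obtain ⟨f, hf⟩ := ho
  have hmod := Nat.mod_lt f R.hpos
  have hle := R.hle
  have hmb := C.hmb
  have hab := C.hab
  have hbl := (h.occ b C.hb).le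
  obtain ⟨s, hs, h1, h2, h3, h4, h5⟩ := C.window h (x := pos a + f % per) (by omega) (by omega)
  set x := pos a + f % per with hx
  have hsl := (h.occ s hs).le
  have hse : pos s + s.length ≤ pos b + b.length := by
    by_contra hcon
    have := h.order hs C.hb h2 (by omega)
    rw [this] at hcon
    omega
  have hval : ∀ k, k < c.length → x + k < pos b + b.length → c.getD k x0 = G.getD (x + k) x0 := by
    intro k hk hk2
    rw [hf k hk, ← R.per_mod f k, R.hval _ (by omega)]
    congr 1
    omega
  rcases Nat.lt_or_ge (pos s + s.length - x) c.length with hlt | hge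
  · by_cases hsx : pos s = x
    · -- `s` is an initial part of `c`
      exfalso
      have e : s = c.take s.length := by
        apply ext_getD x0
        · rw [List.length_take]
          omega
        · intro k hk
          have e1 : (c.take s.length).getD k x0 = c.getD k x0 := by
            simp only [List.getD_eq_getElem?_getD]
            rw [List.getElem?_take_of_lt hk]
          rw [e1, hval k (by omega) (by omega), (h.occ s hs).getD x0 hk, hsx]
      have h6 : s <:+: c := by
        rw [e]
        exact (List.take_prefix _ _).isInfix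
      have := h.free s hs c hc h6
      rw [this] at hsx hlt
      omega
    · have hv : sub G x (pos s + s.length) = c.take (pos s + s.length - x) := by
        apply ext_getD x0
        · rw [sub_length hsl, List.length_take]
          omega
        · intro k hk
          rw [sub_length hsl] at hk
          rw [getD_sub x0 hsl (by omega)]
          have e1 : (c.take (pos s + s.length - x)).getD k x0 = c.getD k x0 := by
            simp only [List.getD_eq_getElem?_getD]
            rw [List.getElem?_take_of_lt hk]
          rw [e1, hval k (by omega) (by omega)]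
      have hvl := sub_length (U := G) (i := x) (j := pos s + s.length) hsl
      have g := (h.greedy (sub G x (pos s + s.length)) c s
        ⟨hc, by rw [hv]; exact List.take_prefix _ _, by omega, fun t ht htc => by
          have := hin t ht htc
          omega⟩
        ⟨hs, by
          have e := (h.occ s hs).sub_self
          conv_rhs => rw [← e]
          exact sub_suffix (by omega) (by omega), by omega, fun t ht hst => by
          have := h5 t ht hst
          omega⟩).1
      omega
  · -- `c` is a factor of `s`
    have e : c = sub G x (x + c.length) := by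
      apply ext_getD x0
      · rw [sub_length (by omega)]
        omega
      · intro k hk
        rw [getD_sub x0 (by omega) (by omega), hval k hk (by omega)]
    have e2 := (h.occ s hs).sub_eq (i := x - pos s) (j := x + c.length - pos s) (by omega)
    have f1 : pos s + (x - pos s) = x := by omega
    have f2 : pos s + (x + c.length - pos s) = x + c.length := by omega
    rw [f1, f2] at e2
    rw [e2] at e
    have h6 : c <:+: s := by
      rw [e]
      exact sub_infix _ _
    rw [h.free c hc s hs h6]
    exact h2

/-- A string on the ring with short out-overlap is not before the closing. -/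
theorem onRing_ge (h : Placement S G pos) {a b : List α} {m per : ℕ} {x0 : α} {u : ℕ → α}
    (C : Closing S G pos a b m) (R : IsRing G x0 (pos a) (pos b + b.length) m per u)
    {c : List α} (hc : c ∈ S) (ho : OnRing u x0 c)
    (hout : ∀ t ∈ S, pos c < pos t → pos c + c.length < pos t + m) : pos a ≤ pos c := by
  have hlong := onRing_long h C R hc ho
  obtain ⟨f, hf⟩ := ho
  have hle := R.hle
  have hmb := C.hmb
  have hab := C.hab
  have hbl := (h.occ b C.hb).le
  have hpos := R.hpos
  -- the end of `c` is placed in the last lap
  obtain ⟨y, hy1, hy2, k1, k2, hy3⟩ : ∃ y, y ≤ pos b + b.length ∧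
      pos b + b.length < y + per ∧ ∃ k1 k2, f + c.length + k1 * per = y - pos a + k2 * per := by
    have hm := Nat.mod_lt (pos b + b.length - pos a + (f + c.length) * (per - 1)) hpos
    set r := (pos b + b.length - pos a + (f + c.length) * (per - 1)) % per with hr
    set q := (pos b + b.length - pos a + (f + c.length) * (per - 1)) / per with hq
    have hd := Nat.div_add_mod (pos b + b.length - pos a + (f + c.length) * (per - 1)) per
    rw [← hr, ← hq] at hd
    refine ⟨pos b + b.length - r, by omega, by omega, q, f + c.length, ?_⟩
    ·
      have e1 : (f + c.length) * (per - 1) + (f + c.length) = (f + c.length) * per := by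
        conv_lhs => rw [← Nat.mul_succ]
        congr 1
        omega
      have e2 : q * per = per * q := Nat.mul_comm _ _
      omega
  obtain ⟨s, hs, h1, h2, h3, h4, h5⟩ := C.window' h (y := y) (by omega) (by omega)
  have hsl := (h.occ s hs).le
  have hse : pos s + s.length ≤ pos b + b.length := by
    by_contra hcon
    have := h.order hs C.hb h2 (by omega)
    rw [this] at hcon
    omega
  -- letters of `c` counted from the end
  have hval : ∀ j, 1 ≤ j → j ≤ c.length → pos a + j ≤ y →
      c.getD (c.length - j) x0 = G.getD (y - j) x0 := by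
    intro j hj1 hj2 hj3
    rw [hf (c.length - j) (by omega)]
    have e1 := R.per_mul (f + (c.length - j)) k1
    have e2 := R.per_mul (y - pos a - j) k2
    have e3 : f + (c.length - j) + k1 * per = y - pos a - j + k2 * per := by omega
    rw [← e1, e3, e2, R.hval _ (by omega)]
    congr 1
    omega
  rcases Nat.lt_or_ge (y - pos s) c.length with hlt | hge
  · have hv : sub G (pos s) y = c.drop (c.length - (y - pos s)) := by
      apply ext_getD x0
      · rw [sub_length (by omega), List.length_drop]
        omega
      · intro k hk
        rw [sub_length (by omega)] at hk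
        rw [getD_sub x0 (by omega) (by omega)]
        have e1 : (c.drop (c.length - (y - pos s))).getD k x0 =
            c.getD (c.length - (y - pos s - k)) x0 := by
          simp only [List.getD_eq_getElem?_getD]
          rw [List.getElem?_drop]
          congr 2
          omega
        rw [e1, hval (y - pos s - k) (by omega) (by omega) (by omega)]
        congr 1
        omega
    have hvl := sub_length (U := G) (i := pos s) (j := y) (by omega)
    by_cases hsy : pos s + s.length = y
    · exfalso
      have h6 : s <:+: c := by
        have e := (h.occ s hs).sub_self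
        rw [hsy] at e
        rw [← e, hv]
        exact (List.drop_suffix _ _).isInfix
      have := h.free s hs c hc h6
      rw [this] at hsy hlt
      omega
    · have g := (h.greedy (sub G (pos s) y) s c
        ⟨hs, by
          have e := (h.occ s hs).sub_self
          conv_rhs => rw [← e]
          exact sub_prefix (by omega), by omega, fun t ht hts => by
          have := h5 t ht hts
          omega⟩
        ⟨hc, by rw [hv]; exact List.drop_suffix _ _, by omega, fun t ht hct => by
          have := hout t ht hct
          omega⟩).1
      omega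
  · -- `c` is a factor of `s`
    have e : c = sub G (y - c.length) y := by
      apply ext_getD x0
      · rw [sub_length (by omega)]
        omega
      · intro k hk
        rw [getD_sub x0 (by omega) (by omega)]
        have := hval (c.length - k) (by omega) (by omega) (by omega)
        have f1 : c.length - (c.length - k) = k := by omega
        have f2 : y - (c.length - k) = y - c.length + k := by omega
        rw [f1, f2] at this
        exact this
    have e2 := (h.occ s hs).sub_eq (i := y - c.length - pos s) (j := y - pos s) (by omega)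
    have f1 : pos s + (y - c.length - pos s) = y - c.length := by omega
    have f2 : pos s + (y - pos s) = y := by omega
    rw [f1, f2] at e2
    rw [e2] at e
    have h6 : c <:+: s := by
      rw [e]
      exact sub_infix _ _
    rw [h.free c hc s hs h6]
    exact h1

/-- Two closings on the same ring coincide. -/
theorem closing_unique (h : Placement S G pos) {a b a' b' : List α} {m m' per : ℕ} {x0 : α}
    {u : ℕ → α} (C : Closing S G pos a b m)
    (R : IsRing G x0 (pos a) (pos b + b.length) m per u)
    (C' : Closing S G pos a' b' m') (hm : m' ≤ m)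
    (hon : ∀ c ∈ S, pos a' ≤ pos c → pos c ≤ pos b' → OnRing u x0 c) : a' = a ∧ b' = b := by
  classical
  have ha' := hon a' C'.ha le_rfl C'.hab
  have hb' := hon b' C'.hb C'.hab le_rfl
  have h1 : pos a' ≤ pos b := onRing_le h C R C'.ha ha' (fun t ht htc => by
    have := C'.inA t ht htc
    omega)
  have h2 : pos a ≤ pos b' := onRing_ge h C R C'.hb hb' (fun t ht htc => by
    have := C'.outB t ht htc
    omega)
  have h3 : pos a' ≤ pos a := by
    by_contra hcon
    push Not at hcon
    obtain ⟨r, hr, hrmax⟩ := Finset.exists_max_image (S.filter (fun t => pos t < pos a')) pos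
      ⟨a, Finset.mem_filter.mpr ⟨C.ha, hcon⟩⟩
    rw [Finset.mem_filter] at hr
    have har : pos a ≤ pos r := hrmax a (Finset.mem_filter.mpr ⟨C.ha, hcon⟩)
    obtain ⟨t, ht, t1, t2⟩ := C.links r hr.1 har (by omega)
    have hst : pos a' ≤ pos t := by
      by_contra hcon2
      have := hrmax t (Finset.mem_filter.mpr ⟨ht, by omega⟩)
      omega
    have := C'.inA r hr.1 hr.2
    omega
  have h4 : pos b ≤ pos b' := by
    by_contra hcon
    push Not at hcon
    obtain ⟨t, ht, t1, t2⟩ := C.links b' C'.hb h2 hcon
    have := C'.outB t ht t1
    omega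
  have hab := C.hab
  have h5 : pos a ≤ pos a' := by
    by_contra hcon
    push Not at hcon
    obtain ⟨c, hc, hcmax⟩ := Finset.exists_max_image (S.filter (fun t => pos t < pos a)) pos
      ⟨a', Finset.mem_filter.mpr ⟨C'.ha, hcon⟩⟩
    rw [Finset.mem_filter] at hc
    have hac : pos a' ≤ pos c := hcmax a' (Finset.mem_filter.mpr ⟨C'.ha, hcon⟩)
    have := onRing_ge h C R hc.1 (hon c hc.1 hac (by omega)) (fun t ht hct => by
      have h6 : pos a ≤ pos t := by
        by_contra hcon2
        have := hcmax t (Finset.mem_filter.mpr ⟨ht, by omega⟩)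
        omega
      have := C.inA c hc.1 hc.2
      omega)
    omega
  have h6 : pos b' ≤ pos b := by
    by_contra hcon
    push Not at hcon
    obtain ⟨c, hc, hcmin⟩ := Finset.exists_min_image (S.filter (fun t => pos b < pos t)) pos
      ⟨b', Finset.mem_filter.mpr ⟨C'.hb, hcon⟩⟩
    rw [Finset.mem_filter] at hc
    have hcb : pos c ≤ pos b' := hcmin b' (Finset.mem_filter.mpr ⟨C'.hb, hcon⟩)
    have := onRing_le h C R hc.1 (hon c hc.1 (by omega) hcb) (fun t ht htc => by
      have h7 : pos t ≤ pos b := by
        by_contra hcon2
        have := hcmin t (Finset.mem_filter.mpr ⟨ht, by omega⟩)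
        omega
      have h8 : pos t + t.length ≤ pos b + b.length := by
        by_contra hcon2
        have := h.order ht C.hb h7 (by omega)
        rw [this] at hcon2
        omega
      have := C.outB c hc.1 hc.2
      omega)
    omega
  constructor
  · rcases Nat.le_total a.length a'.length with hl | hl
    · exact (h.order C'.ha C.ha (by omega) (by omega)).symm
    · exact h.order C.ha C'.ha (by omega) (by omega)
  · rcases Nat.le_total b.length b'.length with hl | hl
    · exact (h.order C'.hb C.hb (by omega) (by omega)).symm
    · exact h.order C.hb C'.hb (by omega) (by omega)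

theorem iso_card (h : Placement S G pos) {T : List α} (hT : ∀ s ∈ S, s <:+: T) (I : Finset ℕ)
    (hI : ∀ p ∈ I, p < G.length ∧ IsolatedAt S G pos p) : I.card ≤ T.length := by
  classical
  rcases I.eq_empty_or_nonempty with rfl | ⟨p0, hp0⟩
  · simp
  have hG : 0 < G.length := by
    have := (hI p0 hp0).1
    omega
  let x0 : α := G[0]
  -- the pairs with a high-periodic closing
  let P : List α × List α → ℕ → Prop := fun ab m =>
    Closing S G pos ab.1 ab.2 m ∧ pos ab.2 + ab.2.length < pos ab.1 + 2 * m
  let Q : Finset (List α × List α) := (S ×ˢ S).filter (fun ab => ∃ m, P ab m)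
  have hQ : ∀ ab ∈ Q, ∃ m, P ab m ∧ ∀ m', P ab m' → m' ≤ m := by
    intro ab hab
    obtain ⟨m0, hm0⟩ := (Finset.mem_filter.mp hab).2
    refine ⟨Nat.findGreatest (P ab) ab.1.length,
      Nat.findGreatest_spec (P := P ab) (m := m0) hm0.1.hma.le hm0, ?_⟩
    intro m' hm'
    exact Nat.le_findGreatest hm'.1.hma.le hm'
  choose! M hM hMmax using hQ
  have hring : ∀ ab ∈ Q, ∃ (per : ℕ) (u : ℕ → α),
      IsRing G x0 (pos ab.1) (pos ab.2 + ab.2.length) (M ab) per u := by
    intro ab hab
    obtain ⟨C, hhp⟩ := hM ab hab
    obtain ⟨per, u, r1, r2, r3, r4, r5⟩ := exists_ring h x0 C hhp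
    exact ⟨per, u, ⟨r1, r2, r3, r4, r5⟩⟩
  have hring' : ∀ ab : {x // x ∈ Q}, ∃ (per : ℕ) (u : ℕ → α),
      IsRing G x0 (pos ab.1.1) (pos ab.1.2 + ab.1.2.length) (M ab.1) per u :=
    fun ab => hring ab.1 ab.2
  choose per u R using hring'
  have hnc : ∀ i j : {x // x ∈ Q}, i ≠ j → per i = per j → ∀ c, ∃ n, u i (n + c) ≠ u j n := by
    -- the case of the larger closing word first
    have key : ∀ i j : {x // x ∈ Q}, M j.1 ≤ M i.1 →
        (∃ c, ∀ n, u i (n + c) = u j n) → i = j := by
      rintro i j hm ⟨c, hc⟩
      have hu := closing_unique h (hM i.1 i.2).1 (R i) (hM j.1 j.2).1 hm (by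
        intro s hs h1 h2
        refine ⟨pos s - pos j.1.1 + c, fun k hk => ?_⟩
        have hse : pos s + s.length ≤ pos j.1.2 + j.1.2.length := by
          by_contra hcon
          have := h.order hs (hM j.1 j.2).1.hb h2 (by omega)
          rw [this] at hcon
          omega
        have e1 := hc (pos s - pos j.1.1 + k)
        have e2 : pos s - pos j.1.1 + c + k = pos s - pos j.1.1 + k + c := by omega
        rw [e2, e1, (R j).hval _ (by omega), (h.occ s hs).getD x0 hk]
        congr 1
        omega)
      exact Subtype.ext (Prod.ext hu.1.symm hu.2.symm)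
    intro i j hij hper c
    by_contra hcon
    push Not at hcon
    rcases Nat.le_total (M j.1) (M i.1) with hm | hm
    · exact hij (key i j hm ⟨c, hcon⟩)
    · refine hij (key j i hm ⟨c * (per i - 1), fun n => ?_⟩).symm
      have hp := (R i).hpos
      rw [← hcon (n + c * (per i - 1))]
      have e1 : n + c * (per i - 1) + c = n + c * per i := by
        have : c * (per i - 1) + c = c * per i := by
          conv_lhs => rw [← Nat.mul_succ]
          congr 1
          omega
        omega
      rw [e1, (R i).per_mul]
  have hsum := P333R.rings_sum_le T per (fun i => M i.1 - 1) u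
    (fun i => (R i).hper) (fun i => (R i).hprim) (fun i => (R i).hpos) hnc (by
      intro i c
      have hmpos : M i.1 - 1 + 1 = M i.1 := by
        have h1 := (hM i.1 i.2).2
        have h2 := (hM i.1 i.2).1.hab
        omega
      rw [hmpos]
      obtain ⟨s, hs, -, -, h3⟩ := ring_window h (hM i.1 i.2).1 (R i) c
      exact h3.trans (hT s hs))
  -- the isolated positions
  have hcov : I ⊆ (Finset.univ : Finset {x // x ∈ Q}).biUnion
      (fun i => Finset.Ico (pos i.1.2 + i.1.2.length - M i.1) (pos i.1.1 + M i.1)) := by
    intro p hp
    obtain ⟨-, a, b, m, C, h1, h2, h3⟩ := hI p hp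
    have hab : (a, b) ∈ Q := Finset.mem_filter.mpr
      ⟨Finset.mem_product.mpr ⟨C.ha, C.hb⟩, m, C, h1⟩
    have hmM := hMmax (a, b) hab m ⟨C, h1⟩
    rw [Finset.mem_biUnion]
    refine ⟨⟨(a, b), hab⟩, Finset.mem_univ _, ?_⟩
    rw [Finset.mem_Ico]
    simp only
    omega
  have hc1 := (Finset.card_le_card hcov).trans Finset.card_biUnion_le
  refine hc1.trans (le_trans (Finset.sum_le_sum (fun i _ => ?_)) hsum)
  rw [Nat.card_Ico]
  have h1 := (R i).hle
  have h2 := (hM i.1 i.2).2
  have h3 := (hM i.1 i.2).1.hab
  omega

end Vale.Agent.P333
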