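import Vale.Agent.P333.Main
import Vale.Agent.P333.IsoCard

/-! Plain greedy is a 3-approximation for the shortest common superstring problem. -/

namespace Vale.Agent.P333.Comb

open Vale.Agent.P333

universe u

/-- The greedy algorithm has an output on every nonempty finite family `S` of strings; every
output `G` (for every way to break ties) is a common superstring of `S` and satisfies
`|G| ≤ 3 |T|` for every common superstring `T` of `S`. Moreover `|G| ≤ 2 |T|` in each of the
following cases: no string of the reduced family has a border of length at least two; `G`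
contains no overlap `c v c v c`; every factor `X` of `G` that starts with a string `a` of the
reduced family and has a proper border `o` shorter than `a` satisfies `2 |o| ≤ |X|`. -/
theorem greedyThree {α : Type u} [DecidableEq α] (S : Finset (List α)) :
    (S.Nonempty → ∃ G, IsGreedyOutput S G) ∧
    ∀ G, IsGreedyOutput S G →
      (∀ s ∈ S, s <:+: G) ∧
      (∀ T : List α, (∀ s ∈ S, s <:+: T) → G.length ≤ 3 * T.length) ∧
      ((∀ s ∈ reduceFamily S, ∀ o : List α, o <+: s → o <:+ s → o.length < s.length →
          o.length ≤ 1) →
        ∀ T : List α, (∀ s ∈ S, s <:+: T) → G.length ≤ 2 * T.length) ∧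
      ((∀ (c : α) (v : List α), ¬ (c :: v) ++ (c :: v) ++ [c] <:+: G) →
        ∀ T : List α, (∀ s ∈ S, s <:+: T) → G.length ≤ 2 * T.length) ∧
      ((∀ a ∈ reduceFamily S, ∀ X o : List α, X <:+: G → a <+: X → o <+: X → o <:+ X →
          o.length < X.length → o.length < a.length → 2 * o.length ≤ X.length) →
        ∀ T : List α, (∀ s ∈ S, s <:+: T) → G.length ≤ 2 * T.length) := by
  refine ⟨exists_output S, fun G hG => ⟨greedy_superstring hG, ?_, ?_, ?_, ?_⟩⟩
  · intro T hT
    obtain ⟨pos, hP⟩ := exists_placement hG
    have hT' : ∀ s ∈ reduceFamily S, s <:+: T := fun s hs => hT s (mem_reduceFamily.mp hs).1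
    have := hP.bound_isolated hT' hT' T.length (iso_card hP hT')
    omega
  · intro h T hT
    have := greedy_bound hG (lowPeriodic_of_border G h) hT hT
    omega
  · intro h T hT
    have := greedy_bound hG (lowPeriodic_of_overlapFree h) hT hT
    omega
  · intro h T hT
    have := greedy_bound hG h hT hT
    omega

end Vale.Agent.P333.Comb
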