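import Vale.Agent.P333.Paths

/-! From a greedy placement to the bound by two superstrings. -/

namespace Vale.Agent.P333

universe u

variable {α : Type u}

/-- `v` is a proper initial part of `a`, and the overlap of `a` with earlier strings is shorter
than `v`. -/
def SSet (S : Finset (List α)) (pos : List α → ℕ) (v a : List α) : Prop :=
  a ∈ S ∧ v <+: a ∧ v.length < a.length ∧
    ∀ t ∈ S, pos t < pos a → pos t + t.length < pos a + v.length

/-- `v` is a proper final part of `b`, and the overlap of `b` with later strings is shorter
than `v`. -/
def ESet (S : Finset (List α)) (pos : List α → ℕ) (v b : List α) : Prop :=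
  b ∈ S ∧ v <:+ b ∧ v.length < b.length ∧
    ∀ t ∈ S, pos b < pos t → pos b + b.length < pos t + v.length

/-- A placement of the strings of `S` in `G` with the property of greedy superstrings. -/
structure Placement (S : Finset (List α)) (G : List α) (pos : List α → ℕ) : Prop where
  free : ∀ s ∈ S, ∀ t ∈ S, s <:+: t → s = t
  occ : ∀ s ∈ S, Occ s G (pos s)
  cov : ∀ p < G.length, ∃ s ∈ S, pos s ≤ p ∧ p < pos s + s.length
  greedy : ∀ v a b, SSet S pos v a → ESet S pos v b → pos a ≤ pos b ∧
    ∀ s ∈ S, pos a ≤ pos s → pos s < pos b → ∃ t ∈ S, pos s < pos t ∧
      pos t + v.length ≤ pos s + s.length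

variable {S : Finset (List α)} {G : List α} {pos : List α → ℕ}

theorem Placement.order (h : Placement S G pos) {s t : List α} (hs : s ∈ S) (ht : t ∈ S)
    (h1 : pos s ≤ pos t) (h2 : pos t + t.length ≤ pos s + s.length) : t = s :=
  h.free t ht s hs ((h.occ t ht).nested (h.occ s hs) h1 h2)

/-- Positions which carry a leaf inject into the positions of any superstring. -/
theorem leaf_card (h : Placement S G pos) (rule : List α → Prop) {T : List α}
    (hT : ∀ s ∈ S, s <:+: T) (A : Finset ℕ)
    (hA : ∀ p ∈ A, ∃ s ∈ S, Reach rule G p (pos s) (pos s + s.length)) :
    A.card ≤ T.length := by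
  classical
  have hposT : ∀ s : List α, ∃ c, s ∈ S → Occ s T c := by
    intro s
    by_cases hs : s ∈ S
    · obtain ⟨l, r, hlr⟩ := hT s hs
      exact ⟨l.length, fun _ => ⟨l, r, by rw [← hlr]; simp, rfl⟩⟩
    · exact ⟨0, fun h => absurd h hs⟩
  choose posT hposT using hposT
  have hc : ∀ p : ℕ, ∃ s, p ∈ A → s ∈ S ∧ Reach rule G p (pos s) (pos s + s.length) := by
    intro p
    by_cases hp : p ∈ A
    · obtain ⟨s, hs, hr⟩ := hA p hp
      exact ⟨s, fun _ => ⟨hs, hr⟩⟩
    · exact ⟨[], fun h => absurd h hp⟩
  choose f hf using hc
  have key : ∀ p ∈ A, Reach rule T (posT (f p) + (p - pos (f p))) (posT (f p))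
      (posT (f p) + (f p).length) := by
    intro p hp
    obtain ⟨hs, hr⟩ := hf p hp
    have h1 := hr.restrict (h.occ _ hs) le_rfl le_rfl
    have h2 := h1.lift (hposT _ hs)
    have e1 : posT (f p) + (pos (f p) - pos (f p)) = posT (f p) := by omega
    have e2 : posT (f p) + (pos (f p) + (f p).length - pos (f p)) =
        posT (f p) + (f p).length := by omega
    rw [e1, e2] at h2
    exact h2
  have hcard : A.card ≤ (Finset.range T.length).card := by
    refine Finset.card_le_card_of_injOn (fun p => posT (f p) + (p - pos (f p))) ?_ ?_
    · intro p hp
      have := (key p hp).bounds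
      simp only [Finset.coe_range, Set.mem_Iio]
      omega
    · intro p hp q hq hpq
      have hp' : p ∈ A := hp
      have hq' : q ∈ A := hq
      simp only at hpq
      have k1 := key p hp'
      have k2 := key q hq'
      rw [hpq] at k1
      have b1 := ((hf p hp').2).bounds
      have b2 := ((hf q hq').2).bounds
      have o1 := hposT _ (hf p hp').1
      have o2 := hposT _ (hf q hq').1
      have hfe : f p = f q := by
        rcases Nat.le_total (f p).length (f q).length with hl | hl
        · have := k1.nested k2 (by omega)
          exact h.free _ (hf p hp').1 _ (hf q hq').1 (o1.nested o2 this.1 this.2)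
        · have := k2.nested k1 (by omega)
          exact (h.free _ (hf q hq').1 _ (hf p hp').1 (o2.nested o1 this.1 this.2)).symm
      rw [hfe] at hpq b1
      omega
  simpa using hcard

/-- Extend to the left: some string ends here and none starts here. -/
def ruleR (S : Finset (List α)) (pos : List α → ℕ) (v : List α) : Prop :=
  (∃ b, ESet S pos v b) ∧ ¬ ∃ a, SSet S pos v a

/-- Extend to the left unless some string starts here and none ends here. -/
def ruleL (S : Finset (List α)) (pos : List α → ℕ) (v : List α) : Prop :=
  ¬ ((∃ a, SSet S pos v a) ∧ ¬ ∃ b, ESet S pos v b)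

theorem ruleR_ruleL (v : List α) (h : ruleR S pos v) : ruleL S pos v :=
  fun h' => h.2 h'.1

theorem stuckR (h : Placement S G pos) {p : ℕ} (hp : p < G.length) :
    (∃ s ∈ S, Reach (ruleR S pos) G p (pos s) (pos s + s.length)) ∨
    ∃ i j b a, Reach (ruleR S pos) G p i j ∧ ESet S pos (sub G i j) b ∧
      SSet S pos (sub G i j) a ∧ pos b + b.length = j ∧ pos b < i := by
  by_contra hcon
  push Not at hcon
  obtain ⟨hc1, hc2⟩ := hcon
  have main : ∀ n : ℕ, ∃ i j, Reach (ruleR S pos) G p i j ∧ j - i = n + 1 ∧
      ∃ s ∈ S, pos s ≤ i ∧ j ≤ pos s + s.length := by
    intro n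
    induction n with
    | zero =>
      obtain ⟨s, hs, h1, h2⟩ := h.cov p hp
      exact ⟨p, p + 1, Reach.start hp, by omega, s, hs, h1, h2⟩
    | succ n ih =>
      obtain ⟨i, j, hr, hl, s, hs, h1, h2⟩ := ih
      have hb := hr.bounds
      have hos := h.occ s hs
      have hole := hos.le
      have hne : ¬ (pos s = i ∧ j = pos s + s.length) := by
        rintro ⟨e1, e2⟩
        apply hc1 s hs
        rw [← e2, e1]
        exact hr
      have hlen := sub_length (U := G) (i := i) (j := j) hb.2.2
      have hsub : sub G i j = sub s (i - pos s) (j - pos s) := by
        have := hos.sub_eq (i := i - pos s) (j := j - pos s) (by omega)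
        rw [← this]
        congr 1 <;> omega
      by_cases hrule : ruleR S pos (sub G i j)
      · -- left
        by_cases hex : ∃ t ∈ S, pos t + 1 ≤ i ∧ j ≤ pos t + t.length
        · obtain ⟨t, ht, ht1, ht2⟩ := hex
          refine ⟨i - 1, j, ?_, by omega, t, ht, by omega, ht2⟩
          have e : i = (i - 1) + 1 := by omega
          rw [e] at hr hrule
          exact Reach.left hr hrule
        · exfalso
          push Not at hex
          have hsi : pos s = i := by
            by_contra hne'
            have := hex s hs (by omega)
            omega
          have hj : j < pos s + s.length := by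
            by_contra hcon
            exact hne ⟨hsi, by omega⟩
          apply hrule.2
          refine ⟨s, hs, ?_, by omega, ?_⟩
          · rw [hsub]
            have : i - pos s = 0 := by omega
            rw [this]
            simp only [sub, List.drop_zero]
            exact List.take_prefix _ _
          · intro t ht ht'
            have := hex t ht (by omega)
            omega
      · -- right
        by_cases hex : ∃ t ∈ S, pos t ≤ i ∧ j + 1 ≤ pos t + t.length
        · obtain ⟨t, ht, ht1, ht2⟩ := hex
          have := (h.occ t ht).le
          exact ⟨i, j + 1, Reach.right hr hrule (by omega), by omega, t, ht, ht1, ht2⟩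
        · exfalso
          push Not at hex
          have hsj : pos s + s.length = j := by
            by_contra hne'
            have := hex s hs (by omega)
            omega
          have hi : pos s < i := by
            by_contra hcon
            exact hne ⟨by omega, by omega⟩
          have hE : ESet S pos (sub G i j) s := by
            refine ⟨hs, ?_, by omega, ?_⟩
            · rw [hsub]
              unfold sub
              have : (s.drop (i - pos s)).length = j - pos s - (i - pos s) := by
                simp only [List.length_drop]
                omega
              rw [← this, List.take_length]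
              exact List.drop_suffix _ _
            · intro t ht ht'
              by_contra hcon
              have h3 : pos t ≤ i := by omega
              have h4 := hex t ht h3
              have := h.order hs ht ht'.le (by omega)
              rw [this] at ht'
              omega
          have hSS : ∃ a, SSet S pos (sub G i j) a := by
            by_contra hcon
            exact hrule ⟨⟨s, hE⟩, hcon⟩
          obtain ⟨a, ha⟩ := hSS
          exact absurd hi (by
            have := hc2 i j s a hr hE ha hsj
            omega)
  obtain ⟨i, j, hr, hl, -⟩ := main G.length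
  have := hr.bounds
  omega

theorem stuckL (h : Placement S G pos) {p : ℕ} (hp : p < G.length) :
    (∃ s ∈ S, Reach (ruleL S pos) G p (pos s) (pos s + s.length)) ∨
    ∃ i j a b, Reach (ruleL S pos) G p i j ∧ SSet S pos (sub G i j) a ∧
      ESet S pos (sub G i j) b ∧ pos a = i ∧ j < pos a + a.length := by
  by_contra hcon
  push Not at hcon
  obtain ⟨hc1, hc2⟩ := hcon
  have main : ∀ n : ℕ, ∃ i j, Reach (ruleL S pos) G p i j ∧ j - i = n + 1 ∧
      ∃ s ∈ S, pos s ≤ i ∧ j ≤ pos s + s.length := by
    intro n
    induction n with
    | zero =>
      obtain ⟨s, hs, h1, h2⟩ := h.cov p hp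
      exact ⟨p, p + 1, Reach.start hp, by omega, s, hs, h1, h2⟩
    | succ n ih =>
      obtain ⟨i, j, hr, hl, s, hs, h1, h2⟩ := ih
      have hb := hr.bounds
      have hos := h.occ s hs
      have hole := hos.le
      have hne : ¬ (pos s = i ∧ j = pos s + s.length) := by
        rintro ⟨e1, e2⟩
        apply hc1 s hs
        rw [← e2, e1]
        exact hr
      have hlen := sub_length (U := G) (i := i) (j := j) hb.2.2
      have hsub : sub G i j = sub s (i - pos s) (j - pos s) := by
        have := hos.sub_eq (i := i - pos s) (j := j - pos s) (by omega)
        rw [← this]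
        congr 1 <;> omega
      by_cases hrule : ruleL S pos (sub G i j)
      · -- left
        by_cases hex : ∃ t ∈ S, pos t + 1 ≤ i ∧ j ≤ pos t + t.length
        · obtain ⟨t, ht, ht1, ht2⟩ := hex
          refine ⟨i - 1, j, ?_, by omega, t, ht, by omega, ht2⟩
          have e : i = (i - 1) + 1 := by omega
          rw [e] at hr hrule
          exact Reach.left hr hrule
        · exfalso
          push Not at hex
          have hsi : pos s = i := by
            by_contra hne'
            have := hex s hs (by omega)
            omega
          have hj : j < pos s + s.length := by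
            by_contra hcon
            exact hne ⟨hsi, by omega⟩
          have hSS : SSet S pos (sub G i j) s := by
            refine ⟨hs, ?_, by omega, ?_⟩
            · rw [hsub]
              have : i - pos s = 0 := by omega
              rw [this]
              simp only [sub, List.drop_zero]
              exact List.take_prefix _ _
            · intro t ht ht'
              have := hex t ht (by omega)
              omega
          have hE : ∃ b, ESet S pos (sub G i j) b := by
            by_contra hcon
            exact hrule ⟨⟨s, hSS⟩, hcon⟩
          obtain ⟨b, hb'⟩ := hE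
          have := hc2 i j s b hr hSS hb' hsi
          omega
      · -- right
        by_cases hex : ∃ t ∈ S, pos t ≤ i ∧ j + 1 ≤ pos t + t.length
        · obtain ⟨t, ht, ht1, ht2⟩ := hex
          have := (h.occ t ht).le
          exact ⟨i, j + 1, Reach.right hr hrule (by omega), by omega, t, ht, ht1, ht2⟩
        · exfalso
          push Not at hex
          have hsj : pos s + s.length = j := by
            by_contra hne'
            have := hex s hs (by omega)
            omega
          have hi : pos s < i := by
            by_contra hcon
            exact hne ⟨by omega, by omega⟩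
          have hE : ESet S pos (sub G i j) s := by
            refine ⟨hs, ?_, by omega, ?_⟩
            · rw [hsub]
              unfold sub
              have : (s.drop (i - pos s)).length = j - pos s - (i - pos s) := by
                simp only [List.length_drop]
                omega
              rw [← this, List.take_length]
              exact List.drop_suffix _ _
            · intro t ht ht'
              by_contra hcon
              have h3 : pos t ≤ i := by omega
              have h4 := hex t ht h3
              have := h.order hs ht ht'.le (by omega)
              rw [this] at ht'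
              omega
          apply hrule
          rintro ⟨-, h5⟩
          exact h5 ⟨s, hE⟩
  obtain ⟨i, j, hr, hl, -⟩ := main G.length
  have := hr.bounds
  omega

/-- No high-periodic stretch: a factor `X` of `G` that starts with a string `a` of the family and
has a border `o` shorter than `a` satisfies `2 |o| ≤ |X|`. -/
def LowPeriodic (S : Finset (List α)) (G : List α) : Prop :=
  ∀ a ∈ S, ∀ X o : List α, X <:+: G → a <+: X → o <+: X → o <:+ X → o.length < X.length →
    o.length < a.length → 2 * o.length ≤ X.length

theorem sub_infix (i j : ℕ) : sub G i j <:+: G := by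
  unfold sub
  exact (List.take_prefix _ _).isInfix.trans (List.drop_suffix _ _).isInfix

theorem sub_prefix {i j k : ℕ} (h : j ≤ k) : sub G i j <+: sub G i k := by
  unfold sub
  exact List.take_prefix_take_left (by omega)

theorem sub_suffix {i j k : ℕ} (h : i ≤ j) (hjk : j ≤ k) : sub G j k <:+ sub G i k := by
  have : sub G j k = (sub G i k).drop (j - i) := by
    unfold sub
    rw [List.drop_take, List.drop_drop]
    congr 1
    · omega
    · congr 1
      omega
  rw [this]
  exact List.drop_suffix _ _

theorem leaf_exists (h : Placement S G pos) (hlp : LowPeriodic S G) {p : ℕ} (hp : p < G.length) :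
    (∃ s ∈ S, Reach (ruleR S pos) G p (pos s) (pos s + s.length)) ∨
    (∃ s ∈ S, Reach (ruleL S pos) G p (pos s) (pos s + s.length)) := by
  rcases stuckR h hp with hR | ⟨i, j, b, a, hr, hE, hA, hbj, hbi⟩
  · exact Or.inl hR
  rcases stuckL h hp with hL | ⟨i', j', a', b', hr', hA', hE', hai, haj⟩
  · exact Or.inr hL
  exfalso
  have hb := hr.bounds
  have hb' := hr'.bounds
  have len := sub_length (U := G) (i := i) (j := j) hb.2.2
  have len' := sub_length (U := G) (i := i') (j := j') hb'.2.2
  obtain ⟨hbS, hbsuf, hblt, hbout⟩ := hE
  obtain ⟨haS, hapre, halt, hain⟩ := hA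
  obtain ⟨ha'S, ha'pre, ha'lt, ha'in⟩ := hA'
  obtain ⟨hb'S, hb'suf, hb'lt, hb'out⟩ := hE'
  rw [len] at hblt hbout halt hain
  rw [len'] at ha'lt ha'in hb'lt hb'out
  by_cases hcase : pos b < pos a'
  · have c1 := hbout a' ha'S hcase
    have c2 := ha'in b hbS hcase
    rcases Nat.le_total (j - i) (j' - i') with hl | hl
    · obtain ⟨i2, j2, h2, h3, h4, h5⟩ := hr'.inter (n := j - i) (by omega) hl
      have := Reach.cross (fun v hv => ruleR_ruleL v hv) hr h2 (by omega)
      omega
    · obtain ⟨i2, j2, h2, h3, h4, h5⟩ := hr.inter (n := j' - i') (by omega) hl
      have := Reach.cross (fun v hv => ruleR_ruleL v hv) h2 hr' (by omega)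
      have b2 := h2.bounds
      omega
  · push Not at hcase
    rcases Nat.le_total (j' - i') (j - i) with hl | hl
    · -- the closing at `w = sub G i j`
      obtain ⟨g1, g2⟩ := h.greedy (sub G i j) a b
        ⟨haS, hapre, by rw [len]; exact halt, by rw [len]; exact hain⟩
        ⟨hbS, hbsuf, by rw [len]; exact hblt, by rw [len]; exact hbout⟩
      rw [len] at g2
      have hle : pos a' ≤ pos a := by
        by_contra hcon
        push Not at hcon
        obtain ⟨s, hs, hmax⟩ := Finset.exists_max_image (S.filter (fun t => pos t < pos a')) pos
          ⟨a, Finset.mem_filter.mpr ⟨haS, hcon⟩⟩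
        rw [Finset.mem_filter] at hs
        have hsa : pos a ≤ pos s := hmax a (Finset.mem_filter.mpr ⟨haS, hcon⟩)
        obtain ⟨t, htS, ht1, ht2⟩ := g2 s hs.1 hsa (by omega)
        have ht3 : pos a' ≤ pos t := by
          by_contra hcon2
          have := hmax t (Finset.mem_filter.mpr ⟨htS, by omega⟩)
          omega
        have := ha'in s hs.1 hs.2
        omega
      have oa := h.occ a haS
      have ob := h.occ b hbS
      have hae : pos a + a.length ≤ pos b + b.length := by
        by_contra hcon
        have := h.order haS hbS g1 (by omega)
        rw [this] at hcon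
        omega
      have := hlp a haS (sub G (pos a) j) (sub G i j) (sub_infix _ _)
        (by
          have e := oa.sub_self
          conv_lhs => rw [← e]
          exact sub_prefix (by omega))
        (by
          refine hapre.trans ?_
          have e := oa.sub_self
          conv_lhs => rw [← e]
          exact sub_prefix (by omega))
        (sub_suffix (by omega) (by omega))
        (by rw [len, sub_length hb.2.2]; omega)
        (by rw [len]; exact halt)
      rw [len, sub_length hb.2.2] at this
      omega
    · obtain ⟨g1, g2⟩ := h.greedy (sub G i' j') a' b'
        ⟨ha'S, ha'pre, by rw [len']; exact ha'lt, by rw [len']; exact ha'in⟩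
        ⟨hb'S, hb'suf, by rw [len']; exact hb'lt, by rw [len']; exact hb'out⟩
      rw [len'] at g2
      have hle : pos b' ≤ pos b := by
        by_contra hcon
        push Not at hcon
        obtain ⟨t, htS, ht1, ht2⟩ := g2 b hbS hcase hcon
        have := hbout t htS ht1
        omega
      have oa := h.occ a' ha'S
      have ob := h.occ b' hb'S
      have hae : pos a' + a'.length ≤ pos b' + b'.length := by
        by_contra hcon
        have := h.order ha'S hb'S g1 (by omega)
        rw [this] at hcon
        omega
      have hbe : pos b' + b'.length ≤ pos b + b.length := by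
        by_contra hcon
        have := h.order hb'S hbS hle (by omega)
        rw [this] at hcon
        omega
      have obl := ob.le
      have hX := sub_length (U := G) (i := pos a') (j := pos b' + b'.length) obl
      have := hlp a' ha'S (sub G (pos a') (pos b' + b'.length)) (sub G i' j') (sub_infix _ _)
        (by
          have e := oa.sub_self
          conv_lhs => rw [← e]
          exact sub_prefix (by omega))
        (by
          refine ha'pre.trans ?_
          have e := oa.sub_self
          conv_lhs => rw [← e]
          exact sub_prefix (by omega))
        (by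
          refine hb'suf.trans ?_
          have e := ob.sub_self
          conv_lhs => rw [← e]
          exact sub_suffix (by omega) (by omega))
        (by rw [len', hX]; omega)
        (by rw [len']; exact ha'lt)
      rw [len', hX] at this
      omega

theorem Placement.bound (h : Placement S G pos) (hlp : LowPeriodic S G) {T₁ T₂ : List α}
    (h1 : ∀ s ∈ S, s <:+: T₁) (h2 : ∀ s ∈ S, s <:+: T₂) :
    G.length ≤ T₁.length + T₂.length := by
  classical
  have hA := leaf_card h (ruleR S pos) h1 ((Finset.range G.length).filter
    (fun p => ∃ s ∈ S, Reach (ruleR S pos) G p (pos s) (pos s + s.length)))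
    (fun p hp => (Finset.mem_filter.mp hp).2)
  have hB := leaf_card h (ruleL S pos) h2 ((Finset.range G.length).filter
    (fun p => ∃ s ∈ S, Reach (ruleL S pos) G p (pos s) (pos s + s.length)))
    (fun p hp => (Finset.mem_filter.mp hp).2)
  have hU : Finset.range G.length ⊆
      ((Finset.range G.length).filter
        (fun p => ∃ s ∈ S, Reach (ruleR S pos) G p (pos s) (pos s + s.length))) ∪
      ((Finset.range G.length).filter
        (fun p => ∃ s ∈ S, Reach (ruleL S pos) G p (pos s) (pos s + s.length))) := by
    intro p hp
    have hp' := Finset.mem_range.mp hp
    rcases leaf_exists h hlp hp' with hR | hL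
    · exact Finset.mem_union_left _ (Finset.mem_filter.mpr ⟨hp, hR⟩)
    · exact Finset.mem_union_right _ (Finset.mem_filter.mpr ⟨hp, hL⟩)
  have hc := (Finset.card_le_card hU).trans (Finset.card_union_le _ _)
  rw [Finset.card_range] at hc
  omega

end Vale.Agent.P333
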