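import Vale.Agent.P333.Tick2

/-!
P333: the ticked functions are implemented by programs of the machine model, with a constant
factor overhead.
-/

namespace Vale.Agent.P333

open Tick

variable {α β γ δ Γ σ : Type}

theorem bindv (x : Tick α) (f : α → Tick β) : (x.bind f).val = (f x.val).val := by
  cases x; rfl

theorem bindt (x : Tick α) (f : α → Tick β) : (x.bind f).time = x.time + (f x.val).time := by
  cases x; rfl

/-- `g` is implemented by a program, with a constant factor overhead -/
def Impl (g : α → Tick β) : Prop :=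
  ∃ (f : α → Tick β) (K : ℕ), Prog f ∧
    ∀ x, (f x).val = (g x).val ∧ (f x).time ≤ K * ((g x).time + 1)

theorem Impl.of {f : α → Tick β} (h : Prog f) : Impl f :=
  ⟨f, 1, h, fun x => ⟨rfl, by omega⟩⟩

/-- change of the cost -/
theorem Impl.le {f g : α → Tick β} (h : Impl f) (K : ℕ) (hv : ∀ x, (f x).val = (g x).val)
    (ht : ∀ x, (f x).time ≤ K * ((g x).time + 1)) : Impl g := by
  obtain ⟨p, L, hp, h⟩ := h
  refine ⟨p, L * (K + 1), hp, fun x => ⟨(h x).1.trans (hv x), (h x).2.trans ?_⟩⟩
  have h1 := ht x
  rw [mul_assoc]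
  refine Nat.mul_le_mul_left _ ?_
  have h2 : (K + 1) * ((g x).time + 1) = K * ((g x).time + 1) + ((g x).time + 1) := by ring
  omega

theorem Impl.congr {f g : α → Tick β} (h : Impl f) (hfg : ∀ x, f x = g x) : Impl g := by
  have : f = g := funext hfg
  rwa [← this]

theorem Impl.seq {f : α → Tick β} {g : β → Tick γ} (hf : Impl f) (hg : Impl g) :
    Impl (fun x => (f x).bind g) := by
  obtain ⟨p, K, hp, h1⟩ := hf
  obtain ⟨q, L, hq, h2⟩ := hg
  refine ⟨_, K + L, Prog.seq hp hq, fun x => ?_⟩
  rw [bindv, bindv, bindt, bindt, (h1 x).1]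
  refine ⟨(h2 _).1, ?_⟩
  have h3 := (h1 x).2
  have h4 := (h2 (f x).val).2
  have h5 : (K + L) * ((f x).time + (g (f x).val).time + 1) =
    K * ((f x).time + 1) + L * ((g (f x).val).time + 1) + K * (g (f x).val).time +
      L * (f x).time := by ring
  omega

theorem Impl.pair {f : α → Tick β} {g : α → Tick γ} (hf : Impl f) (hg : Impl g) :
    Impl (fun x => (f x).bind fun b => (g x).bind fun c => ret (b, c)) := by
  obtain ⟨p, K, hp, h1⟩ := hf
  obtain ⟨q, L, hq, h2⟩ := hg
  refine ⟨_, K + L, Prog.pair hp hq, fun x => ?_⟩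
  simp only [bindv, bindt, ret_val, ret_time, (h1 x).1, (h2 x).1, true_and]
  have h3 := (h1 x).2
  have h4 := (h2 x).2
  have h5 : (K + L) * ((f x).time + ((g x).time + 0) + 1) =
    K * ((f x).time + 1) + L * ((g x).time + 1) + K * (g x).time +
      L * (f x).time := by ring
  omega

/-- composition in a context -/
theorem Impl.bind {f : Γ → Tick α} {g : Γ → α → Tick β} (hf : Impl f)
    (hg : Impl (fun y : Γ × α => g y.1 y.2)) : Impl (fun x => (f x).bind (g x)) := by
  refine (Impl.seq (Impl.pair (Impl.of Prog.id) hf) hg).le 1 (fun x => ?_) fun x => ?_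
  · simp only [bindv, ret_val]
  · simp only [bindv, bindt, ret_val, ret_time]
    omega

/-- values that are computed in constant time -/
def Wire (v : Γ → α) : Prop := Impl (fun x => ret (v x))

theorem Impl.ret {v : Γ → α} (h : Wire v) : Impl (fun x => Tick.ret (v x)) := h

theorem Impl.pay {v : Γ → α} {k : Γ → ℕ} (h : Wire v) : Impl (fun x => Tick.pay (k x) (v x)) :=
  h.le 1 (fun _ => rfl) fun x => by rw [ret_time, pay_time]; omega

theorem Wire.of_pay {v : Γ → α} (k : ℕ) (h : Impl (fun x => Tick.pay k (v x))) : Wire v :=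
  h.le k (fun _ => rfl) fun x => by rw [ret_time, pay_time]; omega

theorem Impl.subst {f : α → Tick β} {v : Γ → α} (hf : Impl f) (hv : Wire v) :
    Impl (fun x => f (v x)) :=
  (Impl.seq hv hf).le 1 (fun x => by rw [bindv, ret_val])
    fun x => by rw [bindt, ret_val, ret_time]; omega

theorem Wire.comp {u : α → β} {v : Γ → α} (hu : Wire u) (hv : Wire v) :
    Wire (fun x => u (v x)) :=
  Impl.subst (f := fun y => Tick.ret (u y)) hu hv

theorem Wire.id : Wire (fun x : Γ => x) := Impl.of Prog.id

theorem Wire.fst {v : Γ → α × β} (h : Wire v) : Wire (fun x => (v x).1) :=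
  Wire.comp (u := Prod.fst) (Impl.of Prog.fst) h

theorem Wire.snd {v : Γ → α × β} (h : Wire v) : Wire (fun x => (v x).2) :=
  Wire.comp (u := Prod.snd) (Impl.of Prog.snd) h

theorem Wire.pair {a : Γ → α} {b : Γ → β} (ha : Wire a) (hb : Wire b) :
    Wire (fun x => (a x, b x)) :=
  (Impl.pair ha hb).le 1 (fun x => by simp only [bindv, ret_val])
    fun x => by simp only [bindt, ret_time]; omega

theorem Wire.nil : Wire (fun _ : Γ => ([] : List α)) := Wire.of_pay 1 (Impl.of Prog.nil)

theorem Wire.cons {a : Γ → α} {l : Γ → List α} (ha : Wire a) (hl : Wire l) :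
    Wire (fun x => a x :: l x) :=
  Wire.comp (u := fun x : α × List α => x.1 :: x.2) (Wire.of_pay 1 (Impl.of Prog.cons))
    (Wire.pair ha hl)

theorem Wire.none : Wire (fun _ : Γ => (none : Option α)) := Wire.of_pay 1 (Impl.of Prog.none)

theorem Wire.some {a : Γ → α} (ha : Wire a) : Wire (fun x => some (a x)) :=
  Wire.comp (u := fun x : α => Option.some x) (Wire.of_pay 1 (Impl.of Prog.some)) ha

theorem Wire.inl {a : Γ → α} (ha : Wire a) : Wire (fun x => (Sum.inl (a x) : α ⊕ β)) :=
  Wire.comp (u := fun x : α => (Sum.inl x : α ⊕ β)) (Wire.of_pay 1 (Impl.of Prog.inl)) ha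

theorem Wire.inr {a : Γ → β} (ha : Wire a) : Wire (fun x => (Sum.inr (a x) : α ⊕ β)) :=
  Wire.comp (u := fun x : β => (Sum.inr x : α ⊕ β)) (Wire.of_pay 1 (Impl.of Prog.inr)) ha

theorem Wire.zero : Wire (fun _ : Γ => (0 : ℕ)) := Wire.of_pay 1 (Impl.of Prog.zero)

theorem Wire.succ {a : Γ → ℕ} (ha : Wire a) : Wire (fun x => a x + 1) :=
  Wire.comp (u := fun x : ℕ => x + 1) (Wire.of_pay 1 (Impl.of Prog.succ)) ha

/-- a fixed number -/
theorem Wire.num (k : ℕ) : Wire (fun _ : Γ => k) := by
  induction k with
  | zero => exact Wire.zero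
  | succ k ih => exact Wire.succ ih

theorem Wire.tt : Wire (fun _ : Γ => true) := Wire.of_pay 1 (Impl.of Prog.tt)

theorem Wire.ff : Wire (fun _ : Γ => false) := Wire.of_pay 1 (Impl.of Prog.ff)

theorem Wire.eq {a b : Γ → ℕ} (ha : Wire a) (hb : Wire b) :
    Wire (fun x => decide (a x = b x)) :=
  Wire.comp (u := fun x : ℕ × ℕ => decide (x.1 = x.2)) (Wire.of_pay 1 (Impl.of Prog.eq))
    (Wire.pair ha hb)

theorem Impl.cond {b : Γ → Bool} {f g : Γ → Tick β} (hb : Wire b) (hf : Impl f) (hg : Impl g) :
    Impl (fun x => bif b x then f x else g x) := by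
  obtain ⟨p, K, hp, h1⟩ := hf
  obtain ⟨q, L, hq, h2⟩ := hg
  have h : Impl (fun x : Bool × Γ => bif x.1 then f x.2 else g x.2) := by
    refine ⟨_, K + L, Prog.cond hp hq, fun x => ?_⟩
    obtain ⟨c, x⟩ := x
    have h3 := h1 x
    have h4 := h2 x
    cases c
    · simp only [cond_false]
      refine ⟨h4.1, h4.2.trans (Nat.mul_le_mul_right _ (by omega))⟩
    · simp only [cond_true]
      refine ⟨h3.1, h3.2.trans (Nat.mul_le_mul_right _ (by omega))⟩
  exact Impl.subst (v := fun x => (b x, x)) h (Wire.pair hb Wire.id)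

theorem Impl.ite {b : Γ → Bool} {f g : Γ → Tick β} (hb : Wire b) (hf : Impl f) (hg : Impl g) :
    Impl (fun x => if b x = true then f x else g x) :=
  (Impl.cond hb hf hg).congr fun x => by cases b x <;> rfl

theorem Impl.iteEq {a b : Γ → ℕ} {f g : Γ → Tick β} (ha : Wire a) (hb : Wire b)
    (hf : Impl f) (hg : Impl g) : Impl (fun x => if a x = b x then f x else g x) :=
  (Impl.cond (Wire.eq ha hb) hf hg).congr fun x => by
    by_cases h : a x = b x <;> simp [h]

theorem Wire.cond {b : Γ → Bool} {f g : Γ → β} (hb : Wire b) (hf : Wire f) (hg : Wire g) :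
    Wire (fun x => bif b x then f x else g x) :=
  (Impl.cond hb hf hg).congr fun x => by cases h : b x <;> simp [h]

theorem Wire.not {a : Γ → Bool} (ha : Wire a) : Wire (fun x => !(a x)) :=
  (Wire.cond ha Wire.ff Wire.tt).congr fun x => by cases h : a x <;> simp [h]

theorem Wire.and {a b : Γ → Bool} (ha : Wire a) (hb : Wire b) : Wire (fun x => a x && b x) :=
  (Wire.cond ha hb Wire.ff).congr fun x => by cases h : a x <;> simp [h]

theorem Wire.or {a b : Γ → Bool} (ha : Wire a) (hb : Wire b) : Wire (fun x => a x || b x) :=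
  (Wire.cond ha Wire.tt hb).congr fun x => by cases h : a x <;> simp [h]

theorem Impl.option {o : Γ → Option α} {f : Γ → Tick γ} {g : Γ → α → Tick γ} (ho : Wire o)
    (hf : Impl f) (hg : Impl (fun y : Γ × α => g y.1 y.2)) :
    Impl (fun x => (o x).elim (f x) (g x)) := by
  obtain ⟨p, K, hp, h1⟩ := hf
  obtain ⟨q, L, hq, h2⟩ := hg
  have h : Impl (fun x : Γ × Option α => x.2.elim (f x.1) (g x.1)) := by
    refine ⟨_, K + L, Prog.option hp hq, fun x => ?_⟩
    obtain ⟨x, c⟩ := x
    cases c with
    | none =>
      have h3 := h1 x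
      exact ⟨h3.1, h3.2.trans (Nat.mul_le_mul_right _ (by omega))⟩
    | some a =>
      have h4 := h2 (x, a)
      exact ⟨h4.1, h4.2.trans (Nat.mul_le_mul_right _ (by omega))⟩
  exact Impl.subst (v := fun x => (x, o x)) h (Wire.pair Wire.id ho)

/-! ### recursion -/

theorem Impl.recList {base : σ → Tick β} {pre : σ × α × List α → Tick (σ ⊕ β)}
    {post : (σ × α × List α) × β → Tick β} (h0 : Impl base) (h1 : Impl pre) (h2 : Impl post) :
    Impl (fun x : σ × List α => recList base pre post x.2 x.1) := by
  obtain ⟨p0, K0, hp0, h0⟩ := h0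
  obtain ⟨p1, K1, hp1, h1⟩ := h1
  obtain ⟨p2, K2, hp2, h2⟩ := h2
  refine ⟨_, K0 + K1 + K2 + 1, Prog.recList hp0 hp1 hp2, fun x => ?_⟩
  obtain ⟨s, l⟩ := x
  simp only
  have key : (Vale.Agent.P333.recList p0 p1 p2 l s).val =
      (Vale.Agent.P333.recList base pre post l s).val ∧
      (Vale.Agent.P333.recList p0 p1 p2 l s).time ≤
      (K0 + K1 + K2 + 1) * ((Vale.Agent.P333.recList base pre post l s).time) := by
    induction l generalizing s with
    | nil =>
      simp only [Vale.Agent.P333.recList, bindv, bindt, pay_val, pay_time]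
      refine ⟨(h0 s).1, ?_⟩
      have := (h0 s).2
      have h5 : (K0 + K1 + K2 + 1) * ((base s).time + 1) = K0 * ((base s).time + 1) +
        (K1 + K2) * ((base s).time + 1) + (base s).time + 1 := by ring
      omega
    | cons a l ih =>
      simp only [Vale.Agent.P333.recList, bindv, bindt]
      have h3 := h1 (s, a, l)
      rw [h3.1]
      cases hc : (pre (s, a, l)).val with
      | inl s' =>
        simp only [Sum.elim_inl, bindv, bindt, pay_val, pay_time]
        have h4 := ih s'
        rw [h4.1]
        have h5 := h2 ((s, a, l), (Vale.Agent.P333.recList base pre post l s').val)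
        refine ⟨h5.1, ?_⟩
        have h6 := h3.2
        have h7 := h4.2
        have h8 := h5.2
        generalize (p1 (s, a, l)).time = t1 at *
        generalize (pre (s, a, l)).time = t2 at *
        generalize (Vale.Agent.P333.recList p0 p1 p2 l s').time = t3 at *
        generalize (Vale.Agent.P333.recList base pre post l s').time = t4 at *
        generalize (p2 ((s, a, l), (Vale.Agent.P333.recList base pre post l s').val)).time = t5 at *
        generalize (post ((s, a, l),
          (Vale.Agent.P333.recList base pre post l s').val)).time = t6 at *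
        have h9 : (K0 + K1 + K2 + 1) * (t2 + (t4 + (t6 + 1))) =
          (K0 + K1 + K2 + 1) * t4 + K1 * (t2 + 1) + K2 * (t6 + 1) + K0 * (t2 + t6 + 1) +
          K1 * t6 + K2 * t2 + (t2 + t6 + 1) := by ring
        rw [h9]
        omega
      | inr b =>
        simp only [Sum.elim_inr, pay_val, pay_time, true_and]
        have h6 := h3.2
        generalize (p1 (s, a, l)).time = t1 at *
        generalize (pre (s, a, l)).time = t2 at *
        have h9 : (K0 + K1 + K2 + 1) * (t2 + 1) =
          K1 * (t2 + 1) + (K0 + K2) * (t2 + 1) + t2 + 1 := by ring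
        rw [h9]
        omega
  exact ⟨key.1, key.2.trans (Nat.mul_le_mul_left _ (by omega))⟩

theorem Impl.recNat {base : σ → Tick β} {pre : σ × ℕ → Tick (σ ⊕ β)}
    {post : (σ × ℕ) × β → Tick β} (h0 : Impl base) (h1 : Impl pre) (h2 : Impl post) :
    Impl (fun x : σ × ℕ => recNat base pre post x.2 x.1) := by
  obtain ⟨p0, K0, hp0, h0⟩ := h0
  obtain ⟨p1, K1, hp1, h1⟩ := h1
  obtain ⟨p2, K2, hp2, h2⟩ := h2
  refine ⟨_, K0 + K1 + K2 + 1, Prog.recNat hp0 hp1 hp2, fun x => ?_⟩
  obtain ⟨s, l⟩ := x
  simp only
  have key : (Vale.Agent.P333.recNat p0 p1 p2 l s).val =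
      (Vale.Agent.P333.recNat base pre post l s).val ∧
      (Vale.Agent.P333.recNat p0 p1 p2 l s).time ≤
      (K0 + K1 + K2 + 1) * ((Vale.Agent.P333.recNat base pre post l s).time) := by
    induction l generalizing s with
    | zero =>
      simp only [Vale.Agent.P333.recNat, bindv, bindt, pay_val, pay_time]
      refine ⟨(h0 s).1, ?_⟩
      have := (h0 s).2
      have h5 : (K0 + K1 + K2 + 1) * ((base s).time + 1) = K0 * ((base s).time + 1) +
        (K1 + K2) * ((base s).time + 1) + (base s).time + 1 := by ring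
      omega
    | succ l ih =>
      simp only [Vale.Agent.P333.recNat, bindv, bindt]
      have h3 := h1 (s, l)
      rw [h3.1]
      cases hc : (pre (s, l)).val with
      | inl s' =>
        simp only [Sum.elim_inl, bindv, bindt, pay_val, pay_time]
        have h4 := ih s'
        rw [h4.1]
        have h5 := h2 ((s, l), (Vale.Agent.P333.recNat base pre post l s').val)
        refine ⟨h5.1, ?_⟩
        have h6 := h3.2
        have h7 := h4.2
        have h8 := h5.2
        generalize (p1 (s, l)).time = t1 at *
        generalize (pre (s, l)).time = t2 at *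
        generalize (Vale.Agent.P333.recNat p0 p1 p2 l s').time = t3 at *
        generalize (Vale.Agent.P333.recNat base pre post l s').time = t4 at *
        generalize (p2 ((s, l), (Vale.Agent.P333.recNat base pre post l s').val)).time = t5 at *
        generalize (post ((s, l),
          (Vale.Agent.P333.recNat base pre post l s').val)).time = t6 at *
        have h9 : (K0 + K1 + K2 + 1) * (t2 + (t4 + (t6 + 1))) =
          (K0 + K1 + K2 + 1) * t4 + K1 * (t2 + 1) + K2 * (t6 + 1) + K0 * (t2 + t6 + 1) +
          K1 * t6 + K2 * t2 + (t2 + t6 + 1) := by ring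
        rw [h9]
        omega
      | inr b =>
        simp only [Sum.elim_inr, pay_val, pay_time, true_and]
        have h6 := h3.2
        generalize (p1 (s, l)).time = t1 at *
        generalize (pre (s, l)).time = t2 at *
        have h9 : (K0 + K1 + K2 + 1) * (t2 + 1) =
          K1 * (t2 + 1) + (K0 + K2) * (t2 + 1) + t2 + 1 := by ring
        rw [h9]
        omega
  exact ⟨key.1, key.2.trans (Nat.mul_le_mul_left _ (by omega))⟩

/-- A function `g` defined by recursion on a list. `K` is the constant of the overhead. -/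
theorem Impl.ofRecList {g : List α → σ → Tick β} (base : σ → Tick β)
    (pre : σ × α × List α → Tick (σ ⊕ β)) (post : (σ × α × List α) × β → Tick β)
    (i0 : Impl base) (i1 : Impl pre) (i2 : Impl post) (K : ℕ)
    (h0 : ∀ s, (base s).val = (g [] s).val ∧ (base s).time + 1 ≤ K * ((g [] s).time + 1))
    (h1 : ∀ s x l s', (pre (s, x, l)).val = Sum.inl s' →
      (post ((s, x, l), (g l s').val)).val = (g (x :: l) s).val ∧
      (pre (s, x, l)).time + (post ((s, x, l), (g l s').val)).time + 1 + K * (g l s').time ≤
        K * (g (x :: l) s).time)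
    (h2 : ∀ s x l b, (pre (s, x, l)).val = Sum.inr b →
      b = (g (x :: l) s).val ∧ (pre (s, x, l)).time + 1 ≤ K * ((g (x :: l) s).time + 1)) :
    Impl (fun x : σ × List α => g x.2 x.1) := by
  have key : ∀ l s, (Vale.Agent.P333.recList base pre post l s).val = (g l s).val ∧
      (Vale.Agent.P333.recList base pre post l s).time ≤ K * ((g l s).time + 1) := by
    intro l
    induction l with
    | nil =>
      intro s
      simp only [Vale.Agent.P333.recList, bindv, bindt, pay_val, pay_time]
      exact h0 s
    | cons a l ih =>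
      intro s
      simp only [Vale.Agent.P333.recList, bindv, bindt]
      cases hc : (pre (s, a, l)).val with
      | inl s' =>
        simp only [Sum.elim_inl, bindv, bindt, pay_val, pay_time]
        rw [(ih s').1]
        have h3 := h1 s a l s' hc
        refine ⟨h3.1, ?_⟩
        have h4 := (ih s').2
        have h5 := h3.2
        rw [mul_add, mul_one] at h4 ⊢
        omega
      | inr b =>
        simp only [Sum.elim_inr, pay_val, pay_time]
        exact h2 s a l b hc
  exact (Impl.recList i0 i1 i2).le K (fun x => (key x.2 x.1).1) fun x => (key x.2 x.1).2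

/-- A function `g` defined by recursion on a number. -/
theorem Impl.ofRecNat {g : ℕ → σ → Tick β} (base : σ → Tick β)
    (pre : σ × ℕ → Tick (σ ⊕ β)) (post : (σ × ℕ) × β → Tick β)
    (i0 : Impl base) (i1 : Impl pre) (i2 : Impl post) (K : ℕ)
    (h0 : ∀ s, (base s).val = (g 0 s).val ∧ (base s).time + 1 ≤ K * ((g 0 s).time + 1))
    (h1 : ∀ s n s', (pre (s, n)).val = Sum.inl s' →
      (post ((s, n), (g n s').val)).val = (g (n + 1) s).val ∧
      (pre (s, n)).time + (post ((s, n), (g n s').val)).time + 1 + K * (g n s').time ≤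
        K * (g (n + 1) s).time)
    (h2 : ∀ s n b, (pre (s, n)).val = Sum.inr b →
      b = (g (n + 1) s).val ∧ (pre (s, n)).time + 1 ≤ K * ((g (n + 1) s).time + 1)) :
    Impl (fun x : σ × ℕ => g x.2 x.1) := by
  have key : ∀ l s, (Vale.Agent.P333.recNat base pre post l s).val = (g l s).val ∧
      (Vale.Agent.P333.recNat base pre post l s).time ≤ K * ((g l s).time + 1) := by
    intro l
    induction l with
    | zero =>
      intro s
      simp only [Vale.Agent.P333.recNat, bindv, bindt, pay_val, pay_time]
      exact h0 s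
    | succ l ih =>
      intro s
      simp only [Vale.Agent.P333.recNat, bindv, bindt]
      cases hc : (pre (s, l)).val with
      | inl s' =>
        simp only [Sum.elim_inl, bindv, bindt, pay_val, pay_time]
        rw [(ih s').1]
        have h3 := h1 s l s' hc
        refine ⟨h3.1, ?_⟩
        have h4 := (ih s').2
        have h5 := h3.2
        rw [mul_add, mul_one] at h4 ⊢
        omega
      | inr b =>
        simp only [Sum.elim_inr, pay_val, pay_time]
        exact h2 s l b hc
  exact (Impl.recNat i0 i1 i2).le K (fun x => (key x.2 x.1).1) fun x => (key x.2 x.1).2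

end Vale.Agent.P333
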