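import Vale.Agent.P333.Impl

/-!
P333: the primitives of `Tick.lean` and `Tick2.lean` are implemented by programs.
-/

namespace Vale.Agent.P333

open Tick

variable {α β γ δ Γ σ : Type}

/-! ### case distinctions -/

theorem Impl.listCase {l : Γ → List α} {f : Γ → Tick β} {g : Γ → α → List α → Tick β}
    (hl : Wire l) (hf : Impl f) (hg : Impl (fun y : Γ × α × List α => g y.1 y.2.1 y.2.2)) :
    Impl (fun x => List.casesOn (motive := fun _ => Tick β) (l x) (f x) (g x)) := by
  refine Impl.subst (f := fun y : Γ × List α =>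
    List.casesOn (motive := fun _ => Tick β) y.2 (f y.1) (g y.1))
    (v := fun x => (x, l x)) ?_ (Wire.pair Wire.id hl)
  refine Impl.ofRecList (g := fun l (c : Γ) =>
      List.casesOn (motive := fun _ => Tick β) l (f c) (g c))
    f (fun y => (g y.1 y.2.1 y.2.2).bind fun r => Tick.ret (Sum.inr r))
    (fun y => Tick.ret y.2) hf (Impl.bind hg (Impl.ret (Wire.inr Wire.id.snd)))
    (Impl.ret Wire.id.snd) 1
    (fun s => ?_) (fun s x l s' h => ?_) (fun s x l b h => ?_)
  · simp
  · simp at h
  · simp at h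
    simp [h]

theorem Impl.natCase {n : Γ → ℕ} {f : Γ → Tick β} {g : Γ → ℕ → Tick β}
    (hn : Wire n) (hf : Impl f) (hg : Impl (fun y : Γ × ℕ => g y.1 y.2)) :
    Impl (fun x => Nat.casesOn (motive := fun _ => Tick β) (n x) (f x) (g x)) := by
  refine Impl.subst (f := fun y : Γ × ℕ =>
    Nat.casesOn (motive := fun _ => Tick β) y.2 (f y.1) (g y.1))
    (v := fun x => (x, n x)) ?_ (Wire.pair Wire.id hn)
  refine Impl.ofRecNat (g := fun l (c : Γ) =>
      Nat.casesOn (motive := fun _ => Tick β) l (f c) (g c))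
    f (fun y => (g y.1 y.2).bind fun r => Tick.ret (Sum.inr r))
    (fun y => Tick.ret y.2) hf (Impl.bind hg (Impl.ret (Wire.inr Wire.id.snd)))
    (Impl.ret Wire.id.snd) 1
    (fun s => ?_) (fun s l s' h => ?_) (fun s l b h => ?_)
  · simp
  · simp at h
  · simp at h
    simp [h]

theorem Wire.pred {n : Γ → ℕ} (hn : Wire n) : Wire (fun x => n x - 1) :=
  (Impl.natCase (f := fun _ => Tick.ret 0) (g := fun _ j => Tick.ret j) hn
    (Impl.ret Wire.zero) (Impl.ret Wire.id.snd)).congr fun x => by cases h : n x <;> simp [h]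

/-! ### numbers -/

/-- addition, at a cost that depends on the first number only -/
theorem Impl.addFst {a b : Γ → ℕ} (ha : Wire a) (hb : Wire b) :
    Impl (fun x => Tick.pay (a x + 1) (a x + b x)) := by
  refine Impl.subst (f := fun y : ℕ × ℕ => Tick.pay (y.2 + 1) (y.2 + y.1))
    (v := fun x => (b x, a x)) ?_ (Wire.pair hb ha)
  refine Impl.ofRecNat (g := fun n (s : ℕ) => Tick.pay (n + 1) (n + s))
    (fun s => Tick.ret s) (fun y => Tick.ret (Sum.inl y.1)) (fun y => Tick.ret (y.2 + 1))
    (Impl.ret Wire.id) (Impl.ret (Wire.inl Wire.id.fst))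
    (Impl.ret (Wire.succ Wire.id.snd)) 2
    (fun s => ?_) (fun s x s' h => ?_) (fun s x b h => ?_)
  · simp
  · simp at h ⊢
    subst h
    omega
  · simp at h

theorem Impl.addT {a b : Γ → ℕ} (ha : Wire a) (hb : Wire b) :
    Impl (fun x => addT (a x) (b x)) :=
  (Impl.addFst ha hb).le 1 (fun x => by simp) fun x => by simp; omega

theorem Impl.subT {a b : Γ → ℕ} (ha : Wire a) (hb : Wire b) :
    Impl (fun x => subT (a x) (b x)) := by
  refine Impl.subst (f := fun y : ℕ × ℕ => Vale.Agent.P333.subT y.1 y.2)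
    (v := fun x => (a x, b x)) ?_ (Wire.pair ha hb)
  refine Impl.ofRecNat (g := fun n (s : ℕ) => Vale.Agent.P333.subT s n)
    (fun s => Tick.ret s) (fun y => Tick.ret (Sum.inl y.1)) (fun y => Tick.ret (y.2 - 1))
    (Impl.ret Wire.id) (Impl.ret (Wire.inl Wire.id.fst))
    (Impl.ret (Wire.pred Wire.id.snd)) 2
    (fun s => ?_) (fun s x s' h => ?_) (fun s x b h => ?_)
  · simp
    omega
  · simp at h ⊢
    subst h
    omega
  · simp at h

theorem Impl.mulT {a b : Γ → ℕ} (ha : Wire a) (hb : Wire b) :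
    Impl (fun x => mulT (a x) (b x)) := by
  refine Impl.subst (f := fun y : ℕ × ℕ => Vale.Agent.P333.mulT y.2 y.1)
    (v := fun x => (b x, a x)) ?_ (Wire.pair hb ha)
  refine Impl.ofRecNat (g := fun n (s : ℕ) => Vale.Agent.P333.mulT n s)
    (fun s => Tick.ret 0) (fun y => Tick.ret (Sum.inl y.1))
    (fun y => Tick.pay (y.1.1 + 1) (y.1.1 + y.2))
    (Impl.ret Wire.zero) (Impl.ret (Wire.inl Wire.id.fst))
    (Impl.addFst Wire.id.fst.fst Wire.id.snd) 2
    (fun s => ?_) (fun s x s' h => ?_) (fun s x b h => ?_)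
  · simp
    omega
  · simp at h ⊢
    subst h
    constructor
    · ring
    · nlinarith
  · simp at h

theorem Impl.cmpT {a b : Γ → ℕ} (ha : Wire a) (hb : Wire b) :
    Impl (fun x => cmpT (a x) (b x)) := by
  refine Impl.subst (f := fun y : ℕ × ℕ => Vale.Agent.P333.cmpT y.2 y.1)
    (v := fun x => (b x, a x)) ?_ (Wire.pair hb ha)
  refine Impl.ofRecNat (g := fun n (s : ℕ) => Vale.Agent.P333.cmpT n s)
    (fun s => Tick.ret true)
    (fun y => Nat.casesOn (motive := fun _ => Tick (ℕ ⊕ Bool)) y.1 (Tick.ret (Sum.inr false))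
      fun j => Tick.ret (Sum.inl j))
    (fun y => Tick.ret y.2)
    (Impl.ret Wire.tt)
    (Impl.natCase (g := fun _ j => Tick.ret (Sum.inl j)) Wire.id.fst
      (Impl.ret (Wire.inr Wire.ff)) (Impl.ret (Wire.inl Wire.id.snd)))
    (Impl.ret Wire.id.snd) 2
    (fun s => ?_) (fun s x s' h => ?_) (fun s x b h => ?_)
  · simp
    omega
  · cases s with
    | zero => simp at h
    | succ j =>
      simp at h ⊢
      subst h
      omega
  · cases s with
    | zero =>
      simp at h ⊢
      subst h
      simp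
      omega
    | succ j => simp at h

theorem Impl.eqNT {a b : Γ → ℕ} (ha : Wire a) (hb : Wire b) :
    Impl (fun x => eqNT (a x) (b x)) := Impl.pay (Wire.eq ha hb)

theorem Impl.rangeT {a : Γ → ℕ} (ha : Wire a) : Impl (fun x => rangeT (a x)) := by
  refine Impl.subst (f := fun y : Γ × ℕ => Vale.Agent.P333.rangeT y.2)
    (v := fun x => (x, a x)) ?_ (Wire.pair Wire.id ha)
  refine Impl.ofRecNat (g := fun n (_ : Γ) => Vale.Agent.P333.rangeT n)
    (fun s => Tick.ret []) (fun y => Tick.ret (Sum.inl y.1))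
    (fun y => Tick.ret (y.1.2 :: y.2))
    (Impl.ret Wire.nil) (Impl.ret (Wire.inl Wire.id.fst))
    (Impl.ret (Wire.cons Wire.id.fst.snd Wire.id.snd)) 2
    (fun s => ?_) (fun s x s' h => ?_) (fun s x b h => ?_)
  · simp [Vale.Agent.P333.rangeT]
  · simp [Vale.Agent.P333.rangeT]
    omega
  · simp at h

theorem Impl.rangeUpT {a : Γ → ℕ} (ha : Wire a) : Impl (fun x => rangeUpT (a x)) := by
  refine Impl.subst (f := fun y : (List ℕ) × ℕ => Vale.Agent.P333.rangeUpT.go y.2 y.1)
    (v := fun x => ([], a x)) ?_ (Wire.pair Wire.nil ha)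
  refine Impl.ofRecNat (g := fun n (s : List ℕ) => Vale.Agent.P333.rangeUpT.go n s)
    (fun s => Tick.ret s) (fun y => Tick.ret (Sum.inl (y.2 :: y.1)))
    (fun y => Tick.ret y.2)
    (Impl.ret Wire.id) (Impl.ret (Wire.inl (Wire.cons Wire.id.snd Wire.id.fst)))
    (Impl.ret Wire.id.snd) 2
    (fun s => ?_) (fun s x s' h => ?_) (fun s x b h => ?_)
  · simp [Vale.Agent.P333.rangeUpT.go]
  · simp at h
    subst h
    simp [Vale.Agent.P333.rangeUpT.go]
    omega
  · simp at h

theorem Impl.replicateT {a : Γ → ℕ} {b : Γ → α} (ha : Wire a) (hb : Wire b) :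
    Impl (fun x => replicateT (a x) (b x)) := by
  refine Impl.subst (f := fun y : α × ℕ => Vale.Agent.P333.replicateT y.2 y.1)
    (v := fun x => (b x, a x)) ?_ (Wire.pair hb ha)
  refine Impl.ofRecNat (g := fun n (s : α) => Vale.Agent.P333.replicateT n s)
    (fun s => Tick.ret []) (fun y => Tick.ret (Sum.inl y.1))
    (fun y => Tick.ret (y.1.1 :: y.2))
    (Impl.ret Wire.nil) (Impl.ret (Wire.inl Wire.id.fst))
    (Impl.ret (Wire.cons Wire.id.fst.fst Wire.id.snd)) 2
    (fun s => ?_) (fun s x s' h => ?_) (fun s x b h => ?_)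
  · simp [Vale.Agent.P333.replicateT]
  · simp at h
    subst h
    simp [Vale.Agent.P333.replicateT]
    omega
  · simp at h

theorem Impl.iterT {f : Γ → β → Tick β} {n : Γ → ℕ} {b : Γ → β}
    (hf : Impl (fun y : Γ × β => f y.1 y.2)) (hn : Wire n) (hb : Wire b) :
    Impl (fun x => iterT (f x) (n x) (b x)) := by
  refine Impl.subst (f := fun y : (Γ × β) × ℕ => Vale.Agent.P333.iterT (f y.1.1) y.2 y.1.2)
    (v := fun x => ((x, b x), n x)) ?_ (Wire.pair (Wire.pair Wire.id hb) hn)
  refine Impl.ofRecNat (g := fun n (s : Γ × β) => Vale.Agent.P333.iterT (f s.1) n s.2)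
    (fun s => Tick.ret s.2)
    (fun y => (f y.1.1 y.1.2).bind fun c => Tick.ret (Sum.inl (y.1.1, c)))
    (fun y => Tick.ret y.2)
    (Impl.ret Wire.id.snd)
    (Impl.bind (Impl.subst hf Wire.id.fst)
      (Impl.ret (Wire.inl (Wire.pair Wire.id.fst.fst.fst Wire.id.snd))))
    (Impl.ret Wire.id.snd) 2
    (fun s => ?_) (fun s x s' h => ?_) (fun s x b h => ?_)
  · simp [Vale.Agent.P333.iterT]
  · simp at h
    subst h
    simp [Vale.Agent.P333.iterT]
    omega
  · simp at h

/-! ### lists -/

theorem Impl.lengthT {l : Γ → List α} (hl : Wire l) : Impl (fun x => lengthT (l x)) := by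
  refine Impl.subst (f := fun y : Γ × List α => Vale.Agent.P333.lengthT y.2)
    (v := fun x => (x, l x)) ?_ (Wire.pair Wire.id hl)
  refine Impl.ofRecList (g := fun l (_ : Γ) => Vale.Agent.P333.lengthT l)
    (fun _ => Tick.pay 1 0) (fun y => Tick.ret (Sum.inl y.1)) (fun y => Tick.pay 1 (y.2 + 1))
    (Impl.pay Wire.zero) (Impl.ret (Wire.inl Wire.id.fst)) (Impl.pay (Wire.succ Wire.id.snd)) 2
    (fun s => ?_) (fun s x l s' h => ?_) (fun s x l b h => ?_)
  · simp [Vale.Agent.P333.lengthT]
  · simp [Vale.Agent.P333.lengthT]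
    omega
  · simp at h

theorem Impl.dropT {a : Γ → ℕ} {b : Γ → List α} (ha : Wire a) (hb : Wire b) :
    Impl (fun x => dropT (a x) (b x)) := by
  refine Impl.subst (f := fun y : (List α) × ℕ => Vale.Agent.P333.dropT y.2 y.1)
    (v := fun x => (b x, a x)) ?_ (Wire.pair hb ha)
  refine Impl.ofRecNat (g := fun n (s : List α) => Vale.Agent.P333.dropT n s)
    (fun s => Tick.ret s)
    (fun y => List.casesOn (motive := fun _ => Tick (List α ⊕ List α)) y.1
      (Tick.ret (Sum.inr [])) fun _ t => Tick.ret (Sum.inl t))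
    (fun y => Tick.ret y.2)
    (Impl.ret Wire.id)
    (Impl.listCase (g := fun _ _ t => Tick.ret (Sum.inl t)) Wire.id.fst
      (Impl.ret (Wire.inr Wire.nil)) (Impl.ret (Wire.inl Wire.id.snd.snd)))
    (Impl.ret Wire.id.snd) 2
    (fun s => ?_) (fun s x s' h => ?_) (fun s x b h => ?_)
  · simp [Vale.Agent.P333.dropT]
  · cases s with
    | nil => simp at h
    | cons c s =>
      simp at h
      subst h
      simp [Vale.Agent.P333.dropT]
      omega
  · cases s with
    | nil =>
      simp at h
      subst h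
      simp [Vale.Agent.P333.dropT]
    | cons c s => simp at h

theorem Impl.appendT {a b : Γ → List α} (ha : Wire a) (hb : Wire b) :
    Impl (fun x => appendT (a x) (b x)) := by
  refine Impl.subst (f := fun y : (List α) × List α => Vale.Agent.P333.appendT y.2 y.1)
    (v := fun x => (b x, a x)) ?_ (Wire.pair hb ha)
  refine Impl.ofRecList (g := fun n (s : List α) => Vale.Agent.P333.appendT n s)
    (fun s => Tick.ret s) (fun y => Tick.ret (Sum.inl y.1))
    (fun y => Tick.ret (y.1.2.1 :: y.2))
    (Impl.ret Wire.id) (Impl.ret (Wire.inl Wire.id.fst))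
    (Impl.ret (Wire.cons Wire.id.fst.snd.fst Wire.id.snd)) 2
    (fun s => ?_) (fun s x l s' h => ?_) (fun s x l b h => ?_)
  · simp [Vale.Agent.P333.appendT]
  · simp at h
    subst h
    simp [Vale.Agent.P333.appendT]
    omega
  · simp at h

theorem Impl.isPrefixT {a b : Γ → List ℕ} (ha : Wire a) (hb : Wire b) :
    Impl (fun x => isPrefixT (a x) (b x)) := by
  refine Impl.subst (f := fun y : (List ℕ) × List ℕ => Vale.Agent.P333.isPrefixT y.2 y.1)
    (v := fun x => (b x, a x)) ?_ (Wire.pair hb ha)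
  refine Impl.ofRecList (g := fun n (s : List ℕ) => Vale.Agent.P333.isPrefixT n s)
    (fun s => Tick.ret true)
    (fun y => List.casesOn (motive := fun _ => Tick (List ℕ ⊕ Bool)) y.1
      (Tick.ret (Sum.inr false))
      fun z t => if y.2.1 = z then Tick.ret (Sum.inl t) else Tick.ret (Sum.inr false))
    (fun y => Tick.ret y.2)
    (Impl.ret Wire.tt)
    (Impl.listCase (g := fun (y : List ℕ × ℕ × List ℕ) z t => if y.2.1 = z then
        Tick.ret (Sum.inl t) else Tick.ret (Sum.inr false)) Wire.id.fst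
      (Impl.ret (Wire.inr Wire.ff))
      (Impl.iteEq Wire.id.fst.snd.fst Wire.id.snd.fst (Impl.ret (Wire.inl Wire.id.snd.snd))
        (Impl.ret (Wire.inr Wire.ff))))
    (Impl.ret Wire.id.snd) 2
    (fun s => ?_) (fun s x l s' h => ?_) (fun s x l b h => ?_)
  · simp [Vale.Agent.P333.isPrefixT]
  · cases s with
    | nil => simp at h
    | cons c s =>
      by_cases hc : x = c
      · simp [hc] at h
        subst h
        simp [Vale.Agent.P333.isPrefixT, hc]
        omega
      · simp [hc] at h
  · cases s with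
    | nil =>
      simp at h
      subst h
      simp [Vale.Agent.P333.isPrefixT]
    | cons c s =>
      by_cases hc : x = c
      · simp [hc] at h
      · simp [hc] at h
        subst h
        simp [Vale.Agent.P333.isPrefixT, hc]

theorem Impl.isInfixT {a b : Γ → List ℕ} (ha : Wire a) (hb : Wire b) :
    Impl (fun x => isInfixT (a x) (b x)) := by
  refine Impl.subst (f := fun y : (List ℕ) × List ℕ => Vale.Agent.P333.isInfixT y.1 y.2)
    (v := fun x => (a x, b x)) ?_ (Wire.pair ha hb)
  refine Impl.ofRecList (g := fun n (s : List ℕ) => Vale.Agent.P333.isInfixT s n)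
    (fun s => Vale.Agent.P333.isPrefixT s [])
    (fun y => (Vale.Agent.P333.isPrefixT y.1 (y.2.1 :: y.2.2)).bind fun p =>
      if p = true then Tick.ret (Sum.inr true) else Tick.ret (Sum.inl y.1))
    (fun y => Tick.ret y.2)
    (Impl.isPrefixT Wire.id Wire.nil)
    (Impl.bind (Impl.isPrefixT Wire.id.fst (Wire.cons Wire.id.snd.fst Wire.id.snd.snd))
      (Impl.ite Wire.id.snd (Impl.ret (Wire.inr Wire.tt)) (Impl.ret (Wire.inl Wire.id.fst.fst))))
    (Impl.ret Wire.id.snd) 2
    (fun s => ?_) (fun s x l s' h => ?_) (fun s x l b h => ?_)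
  · simp [Vale.Agent.P333.isInfixT]
  · cases hc : (Vale.Agent.P333.isPrefixT s (x :: l)).val with
    | true => simp only [bindv, hc] at h; simp at h
    | false =>
      simp only [bindv, hc] at h
      simp at h
      subst h
      simp only [Vale.Agent.P333.isInfixT, bindv, bindt, hc]
      simp
      omega
  · cases hc : (Vale.Agent.P333.isPrefixT s (x :: l)).val with
    | false => simp only [bindv, hc] at h; simp at h
    | true =>
      simp only [bindv, hc] at h
      simp at h
      subst h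
      simp only [Vale.Agent.P333.isInfixT, bindv, bindt, hc]
      simp
      omega

theorem Impl.sumT {l : Γ → List ℕ} (hl : Wire l) : Impl (fun x => sumT (l x)) := by
  refine Impl.subst (f := fun y : Γ × List ℕ => Vale.Agent.P333.sumT y.2)
    (v := fun x => (x, l x)) ?_ (Wire.pair Wire.id hl)
  refine Impl.ofRecList (g := fun l (_ : Γ) => Vale.Agent.P333.sumT l)
    (fun _ => Tick.ret 0) (fun y => Tick.ret (Sum.inl y.1))
    (fun y => Vale.Agent.P333.addT y.1.2.1 y.2)
    (Impl.ret Wire.zero) (Impl.ret (Wire.inl Wire.id.fst))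
    (Impl.addT Wire.id.fst.snd.fst Wire.id.snd) 2
    (fun s => ?_) (fun s x l s' h => ?_) (fun s x l b h => ?_)
  · simp [Vale.Agent.P333.sumT]
  · simp [Vale.Agent.P333.sumT]
    omega
  · simp at h

theorem Impl.flattenT {l : Γ → List (List α)} (hl : Wire l) :
    Impl (fun x => flattenT (l x)) := by
  refine Impl.subst (f := fun y : Γ × List (List α) => Vale.Agent.P333.flattenT y.2)
    (v := fun x => (x, l x)) ?_ (Wire.pair Wire.id hl)
  refine Impl.ofRecList (g := fun l (_ : Γ) => Vale.Agent.P333.flattenT l)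
    (fun _ => Tick.ret []) (fun y => Tick.ret (Sum.inl y.1))
    (fun y => Vale.Agent.P333.appendT y.1.2.1 y.2)
    (Impl.ret Wire.nil) (Impl.ret (Wire.inl Wire.id.fst))
    (Impl.appendT Wire.id.fst.snd.fst Wire.id.snd) 2
    (fun s => ?_) (fun s x l s' h => ?_) (fun s x l b h => ?_)
  · simp [Vale.Agent.P333.flattenT]
  · simp [Vale.Agent.P333.flattenT, appendT_time]
    omega
  · simp at h

theorem Impl.getT {l : Γ → List α} {i : Γ → ℕ} {d : Γ → α} (hl : Wire l) (hi : Wire i)
    (hd : Wire d) : Impl (fun x => getT (l x) (i x) (d x)) := by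
  refine Impl.subst (f := fun y : (ℕ × α) × List α => Vale.Agent.P333.getT y.2 y.1.1 y.1.2)
    (v := fun x => ((i x, d x), l x)) ?_ (Wire.pair (Wire.pair hi hd) hl)
  refine Impl.ofRecList (g := fun l (s : ℕ × α) => Vale.Agent.P333.getT l s.1 s.2)
    (fun s => Tick.ret s.2)
    (fun y => Nat.casesOn (motive := fun _ => Tick ((ℕ × α) ⊕ α)) y.1.1
      (Tick.ret (Sum.inr y.2.1)) fun j => Tick.ret (Sum.inl (j, y.1.2)))
    (fun y => Tick.ret y.2)
    (Impl.ret Wire.id.snd)
    (Impl.natCase (g := fun y j => Tick.ret (Sum.inl (j, y.1.2))) Wire.id.fst.fst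
      (Impl.ret (Wire.inr Wire.id.snd.fst))
      (Impl.ret (Wire.inl (Wire.pair Wire.id.snd Wire.id.fst.fst.snd))))
    (Impl.ret Wire.id.snd) 2
    (fun s => ?_) (fun s x l s' h => ?_) (fun s x l b h => ?_)
  · simp [Vale.Agent.P333.getT]
  · obtain ⟨j, d⟩ := s
    cases j with
    | zero => simp at h
    | succ j =>
      simp at h
      subst h
      simp [Vale.Agent.P333.getT]
      omega
  · obtain ⟨j, d⟩ := s
    cases j with
    | zero =>
      simp at h
      subst h
      simp [Vale.Agent.P333.getT]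
    | succ j => simp at h

theorem Impl.setT {l : Γ → List α} {i : Γ → ℕ} {d : Γ → α} (hl : Wire l) (hi : Wire i)
    (hd : Wire d) : Impl (fun x => setT (l x) (i x) (d x)) := by
  refine Impl.subst (f := fun y : (ℕ × α) × List α => Vale.Agent.P333.setT y.2 y.1.1 y.1.2)
    (v := fun x => ((i x, d x), l x)) ?_ (Wire.pair (Wire.pair hi hd) hl)
  refine Impl.ofRecList (g := fun l (s : ℕ × α) => Vale.Agent.P333.setT l s.1 s.2)
    (fun s => Tick.ret [])
    (fun y => Nat.casesOn (motive := fun _ => Tick ((ℕ × α) ⊕ List α)) y.1.1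
      (Tick.ret (Sum.inr (y.1.2 :: y.2.2))) fun j => Tick.ret (Sum.inl (j, y.1.2)))
    (fun y => Tick.ret (y.1.2.1 :: y.2))
    (Impl.ret Wire.nil)
    (Impl.natCase (g := fun y j => Tick.ret (Sum.inl (j, y.1.2))) Wire.id.fst.fst
      (Impl.ret (Wire.inr (Wire.cons Wire.id.fst.snd Wire.id.snd.snd)))
      (Impl.ret (Wire.inl (Wire.pair Wire.id.snd Wire.id.fst.fst.snd))))
    (Impl.ret (Wire.cons Wire.id.fst.snd.fst Wire.id.snd)) 2
    (fun s => ?_) (fun s x l s' h => ?_) (fun s x l b h => ?_)
  · simp [Vale.Agent.P333.setT]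
  · obtain ⟨j, d⟩ := s
    cases j with
    | zero => simp at h
    | succ j =>
      simp at h
      subst h
      simp [Vale.Agent.P333.setT]
      omega
  · obtain ⟨j, d⟩ := s
    cases j with
    | zero =>
      simp at h
      subst h
      simp [Vale.Agent.P333.setT]
    | succ j => simp at h

theorem Impl.mapT {f : Γ → α → Tick β} {l : Γ → List α}
    (hf : Impl (fun y : Γ × α => f y.1 y.2)) (hl : Wire l) :
    Impl (fun x => mapT (f x) (l x)) := by
  refine Impl.subst (f := fun y : Γ × List α => Vale.Agent.P333.mapT (f y.1) y.2)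
    (v := fun x => (x, l x)) ?_ (Wire.pair Wire.id hl)
  refine Impl.ofRecList (g := fun l (c : Γ) => Vale.Agent.P333.mapT (f c) l)
    (fun _ => Tick.pay 1 []) (fun y => Tick.ret (Sum.inl y.1))
    (fun y => (f y.1.1 y.1.2.1).bind fun z => Tick.pay 1 (z :: y.2))
    (Impl.pay Wire.nil) (Impl.ret (Wire.inl Wire.id.fst))
    (Impl.bind (Impl.subst (v := fun y : (Γ × α × List α) × List β => (y.1.1, y.1.2.1)) hf
      (Wire.pair Wire.id.fst.fst Wire.id.fst.snd.fst))
      (Impl.pay (Wire.cons Wire.id.snd Wire.id.fst.snd))) 2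
    (fun s => ?_) (fun s x l s' h => ?_) (fun s x l b h => ?_)
  · simp [Vale.Agent.P333.mapT]
  · simp at h
    subst h
    simp [Vale.Agent.P333.mapT]
    omega
  · simp at h

theorem Impl.foldlT {f : Γ → β → α → Tick β} {b : Γ → β} {l : Γ → List α}
    (hf : Impl (fun y : Γ × β × α => f y.1 y.2.1 y.2.2)) (hb : Wire b) (hl : Wire l) :
    Impl (fun x => foldlT (f x) (b x) (l x)) := by
  refine Impl.subst (f := fun y : (Γ × β) × List α =>
      Vale.Agent.P333.foldlT (f y.1.1) y.1.2 y.2)
    (v := fun x => ((x, b x), l x)) ?_ (Wire.pair (Wire.pair Wire.id hb) hl)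
  refine Impl.ofRecList (g := fun l (s : Γ × β) => Vale.Agent.P333.foldlT (f s.1) s.2 l)
    (fun s => Tick.ret s.2)
    (fun y => (f y.1.1 y.1.2 y.2.1).bind fun c => Tick.ret (Sum.inl (y.1.1, c)))
    (fun y => Tick.ret y.2)
    (Impl.ret Wire.id.snd)
    (Impl.bind (Impl.subst (v := fun y : (Γ × β) × α × List α => (y.1.1, y.1.2, y.2.1)) hf
        (Wire.pair Wire.id.fst.fst (Wire.pair Wire.id.fst.snd Wire.id.snd.fst)))
      (Impl.ret (Wire.inl (Wire.pair Wire.id.fst.fst.fst Wire.id.snd))))
    (Impl.ret Wire.id.snd) 2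
    (fun s => ?_) (fun s x l s' h => ?_) (fun s x l b h => ?_)
  · simp [Vale.Agent.P333.foldlT]
  · simp at h
    subst h
    simp [Vale.Agent.P333.foldlT]
    omega
  · simp at h

theorem Impl.findT {p : Γ → α → Tick Bool} {l : Γ → List α}
    (hp : Impl (fun y : Γ × α => p y.1 y.2)) (hl : Wire l) :
    Impl (fun x => findT (p x) (l x)) := by
  refine Impl.subst (f := fun y : Γ × List α => Vale.Agent.P333.findT (p y.1) y.2)
    (v := fun x => (x, l x)) ?_ (Wire.pair Wire.id hl)
  refine Impl.ofRecList (g := fun l (c : Γ) => Vale.Agent.P333.findT (p c) l)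
    (fun _ => Tick.ret none)
    (fun y => (p y.1 y.2.1).bind fun b => if b = true then Tick.ret (Sum.inr (some y.2.1))
      else Tick.ret (Sum.inl y.1))
    (fun y => Tick.ret y.2)
    (Impl.ret Wire.none)
    (Impl.bind (Impl.subst (v := fun y : Γ × α × List α => (y.1, y.2.1)) hp
        (Wire.pair Wire.id.fst Wire.id.snd.fst))
      (Impl.ite Wire.id.snd (Impl.ret (Wire.inr (Wire.some Wire.id.fst.snd.fst)))
        (Impl.ret (Wire.inl Wire.id.fst.fst))))
    (Impl.ret Wire.id.snd) 2
    (fun s => ?_) (fun s x l s' h => ?_) (fun s x l b h => ?_)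
  · simp [Vale.Agent.P333.findT]
  · cases hc : (p s x).val with
    | true => simp [hc] at h
    | false =>
      simp [hc] at h
      subst h
      simp [Vale.Agent.P333.findT, hc]
      omega
  · cases hc : (p s x).val with
    | false => simp [hc] at h
    | true =>
      simp [hc] at h
      subst h
      simp [Vale.Agent.P333.findT, hc]
      omega

theorem Impl.allT {p : Γ → α → Tick Bool} {l : Γ → List α}
    (hp : Impl (fun y : Γ × α => p y.1 y.2)) (hl : Wire l) :
    Impl (fun x => allT (p x) (l x)) := by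
  refine Impl.subst (f := fun y : Γ × List α => Vale.Agent.P333.allT (p y.1) y.2)
    (v := fun x => (x, l x)) ?_ (Wire.pair Wire.id hl)
  refine Impl.ofRecList (g := fun l (c : Γ) => Vale.Agent.P333.allT (p c) l)
    (fun _ => Tick.ret true)
    (fun y => (p y.1 y.2.1).bind fun b => if b = true then Tick.ret (Sum.inl y.1)
      else Tick.ret (Sum.inr false))
    (fun y => Tick.ret y.2)
    (Impl.ret Wire.tt)
    (Impl.bind (Impl.subst (v := fun y : Γ × α × List α => (y.1, y.2.1)) hp
        (Wire.pair Wire.id.fst Wire.id.snd.fst))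
      (Impl.ite Wire.id.snd (Impl.ret (Wire.inl Wire.id.fst.fst))
        (Impl.ret (Wire.inr Wire.ff))))
    (Impl.ret Wire.id.snd) 2
    (fun s => ?_) (fun s x l s' h => ?_) (fun s x l b h => ?_)
  · simp [Vale.Agent.P333.allT]
  · cases hc : (p s x).val with
    | false => simp [hc] at h
    | true =>
      simp [hc] at h
      subst h
      simp [Vale.Agent.P333.allT, hc]
      omega
  · cases hc : (p s x).val with
    | true => simp [hc] at h
    | false =>
      simp [hc] at h
      subst h
      simp [Vale.Agent.P333.allT, hc]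
      omega

theorem Impl.anyT {p : Γ → α → Tick Bool} {l : Γ → List α}
    (hp : Impl (fun y : Γ × α => p y.1 y.2)) (hl : Wire l) :
    Impl (fun x => anyT (p x) (l x)) := by
  refine Impl.subst (f := fun y : Γ × List α => Vale.Agent.P333.anyT (p y.1) y.2)
    (v := fun x => (x, l x)) ?_ (Wire.pair Wire.id hl)
  refine Impl.ofRecList (g := fun l (c : Γ) => Vale.Agent.P333.anyT (p c) l)
    (fun _ => Tick.ret false)
    (fun y => (p y.1 y.2.1).bind fun b => if b = true then Tick.ret (Sum.inr true)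
      else Tick.ret (Sum.inl y.1))
    (fun y => Tick.ret y.2)
    (Impl.ret Wire.ff)
    (Impl.bind (Impl.subst (v := fun y : Γ × α × List α => (y.1, y.2.1)) hp
        (Wire.pair Wire.id.fst Wire.id.snd.fst))
      (Impl.ite Wire.id.snd (Impl.ret (Wire.inr Wire.tt))
        (Impl.ret (Wire.inl Wire.id.fst.fst))))
    (Impl.ret Wire.id.snd) 2
    (fun s => ?_) (fun s x l s' h => ?_) (fun s x l b h => ?_)
  · simp [Vale.Agent.P333.anyT]
  · cases hc : (p s x).val with
    | true => simp [hc] at h
    | false =>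
      simp [hc] at h
      subst h
      simp [Vale.Agent.P333.anyT, hc]
      omega
  · cases hc : (p s x).val with
    | false => simp [hc] at h
    | true =>
      simp [hc] at h
      subst h
      simp [Vale.Agent.P333.anyT, hc]
      omega

theorem Impl.filterT {p : Γ → α → Tick Bool} {l : Γ → List α}
    (hp : Impl (fun y : Γ × α => p y.1 y.2)) (hl : Wire l) :
    Impl (fun x => filterT (p x) (l x)) := by
  refine Impl.subst (f := fun y : Γ × List α => Vale.Agent.P333.filterT (p y.1) y.2)
    (v := fun x => (x, l x)) ?_ (Wire.pair Wire.id hl)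
  refine Impl.ofRecList (g := fun l (c : Γ) => Vale.Agent.P333.filterT (p c) l)
    (fun _ => Tick.ret []) (fun y => Tick.ret (Sum.inl y.1))
    (fun y => (p y.1.1 y.1.2.1).bind fun b => if b = true then Tick.pay 1 (y.1.2.1 :: y.2)
      else Tick.pay 1 y.2)
    (Impl.ret Wire.nil) (Impl.ret (Wire.inl Wire.id.fst))
    (Impl.bind (Impl.subst (v := fun y : (Γ × α × List α) × List α => (y.1.1, y.1.2.1)) hp
        (Wire.pair Wire.id.fst.fst Wire.id.fst.snd.fst))
      (Impl.ite Wire.id.snd (Impl.pay (Wire.cons Wire.id.fst.fst.snd.fst Wire.id.fst.snd))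
        (Impl.pay Wire.id.fst.snd))) 2
    (fun s => ?_) (fun s x l s' h => ?_) (fun s x l b h => ?_)
  · simp [Vale.Agent.P333.filterT]
  · simp at h
    subst h
    cases hc : (p s x).val <;> simp [Vale.Agent.P333.filterT, hc] <;> omega
  · simp at h

theorem Impl.insertT {le : Γ → α → α → Tick Bool} {a : Γ → α} {l : Γ → List α}
    (hle : Impl (fun y : Γ × α × α => le y.1 y.2.1 y.2.2)) (ha : Wire a) (hl : Wire l) :
    Impl (fun x => insertT (le x) (a x) (l x)) := by
  refine Impl.subst (f := fun y : (Γ × α) × List α =>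
      Vale.Agent.P333.insertT (le y.1.1) y.1.2 y.2)
    (v := fun x => ((x, a x), l x)) ?_ (Wire.pair (Wire.pair Wire.id ha) hl)
  refine Impl.ofRecList (g := fun l (s : Γ × α) => Vale.Agent.P333.insertT (le s.1) s.2 l)
    (fun s => Tick.ret [s.2])
    (fun y => (le y.1.1 y.1.2 y.2.1).bind fun c => if c = true then
      Tick.ret (Sum.inr (y.1.2 :: y.2.1 :: y.2.2)) else Tick.ret (Sum.inl y.1))
    (fun y => Tick.ret (y.1.2.1 :: y.2))
    (Impl.ret (Wire.cons Wire.id.snd Wire.nil))
    (Impl.bind (Impl.subst (v := fun y : (Γ × α) × α × List α => (y.1.1, y.1.2, y.2.1)) hle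
        (Wire.pair Wire.id.fst.fst (Wire.pair Wire.id.fst.snd Wire.id.snd.fst)))
      (Impl.ite Wire.id.snd (Impl.ret (Wire.inr (Wire.cons Wire.id.fst.fst.snd
          (Wire.cons Wire.id.fst.snd.fst Wire.id.fst.snd.snd))))
        (Impl.ret (Wire.inl Wire.id.fst.fst))))
    (Impl.ret (Wire.cons Wire.id.fst.snd.fst Wire.id.snd)) 2
    (fun s => ?_) (fun s x l s' h => ?_) (fun s x l b h => ?_)
  · simp [Vale.Agent.P333.insertT]
  · cases hc : (le s.1 s.2 x).val with
    | true => simp [hc] at h
    | false =>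
      simp [hc] at h
      subst h
      simp [Vale.Agent.P333.insertT, hc]
      omega
  · cases hc : (le s.1 s.2 x).val with
    | false => simp [hc] at h
    | true =>
      simp [hc] at h
      subst h
      simp [Vale.Agent.P333.insertT, hc]
      omega

theorem insertT_pos {le : α → α → Tick Bool} {a : α} {l : List α} :
    1 ≤ (Vale.Agent.P333.insertT le a l).time := by
  cases l with
  | nil => simp [Vale.Agent.P333.insertT]
  | cons b l =>
    cases hc : (le a b).val
    · simp [Vale.Agent.P333.insertT, hc]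
      omega
    · simp [Vale.Agent.P333.insertT, hc]

theorem Impl.sortT {le : Γ → α → α → Tick Bool} {l : Γ → List α}
    (hle : Impl (fun y : Γ × α × α => le y.1 y.2.1 y.2.2)) (hl : Wire l) :
    Impl (fun x => sortT (le x) (l x)) := by
  refine Impl.subst (f := fun y : Γ × List α => Vale.Agent.P333.sortT (le y.1) y.2)
    (v := fun x => (x, l x)) ?_ (Wire.pair Wire.id hl)
  refine Impl.ofRecList (g := fun l (s : Γ) => Vale.Agent.P333.sortT (le s) l)
    (fun s => Tick.ret [])
    (fun y => Tick.ret (Sum.inl y.1))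
    (fun y => Vale.Agent.P333.insertT (le y.1.1) y.1.2.1 y.2)
    (Impl.ret Wire.nil) (Impl.ret (Wire.inl Wire.id.fst))
    (Impl.insertT (le := fun (y : (Γ × α × List α) × List α) => le y.1.1)
      (Impl.subst (v := fun y : ((Γ × α × List α) × List α) × α × α =>
        (y.1.1.1, y.2.1, y.2.2)) hle
        (Wire.pair Wire.id.fst.fst.fst (Wire.pair Wire.id.snd.fst Wire.id.snd.snd)))
      Wire.id.fst.snd.fst Wire.id.snd) 2
    (fun s => ?_) (fun s x l s' h => ?_) (fun s x l b h => ?_)
  · simp [Vale.Agent.P333.sortT]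
  · simp at h
    subst h
    have := insertT_pos (le := le s) (a := x) (l := (Vale.Agent.P333.sortT (le s) l).val)
    simp only [Vale.Agent.P333.sortT, bindv, bindt, ret_time, true_and]
    omega
  · simp at h

end Vale.Agent.P333
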