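import Vale.Agent.P333.Core
import Vale.Agent.P333.Rings

/-! Isolated positions of a greedy superstring and the cyclic words of its closings. -/

namespace Vale.Agent.P333

universe u

variable {α : Type u} {S : Finset (List α)} {G : List α} {pos : List α → ℕ}

theorem Placement.end_lt (h : Placement S G pos) {s t : List α} (hs : s ∈ S) (ht : t ∈ S)
    (h1 : pos s < pos t) : pos s + s.length < pos t + t.length := by
  by_contra hcon
  push Not at hcon
  have := h.order hs ht h1.le hcon
  rw [this] at h1
  omega

theorem Placement.inj (h : Placement S G pos) {s t : List α} (hs : s ∈ S) (ht : t ∈ S)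
    (h1 : pos s = pos t) : s = t := by
  rcases Nat.le_total (pos t + t.length) (pos s + s.length) with h2 | h2
  · exact (h.order hs ht h1.le h2).symm
  · exact h.order ht hs h1.symm.le h2

theorem Placement.end_le (h : Placement S G pos) {s t : List α} (hs : s ∈ S) (ht : t ∈ S)
    (h1 : pos s ≤ pos t) : pos s + s.length ≤ pos t + t.length := by
  rcases Nat.lt_or_ge (pos s) (pos t) with h2 | h2
  · exact (h.end_lt hs ht h2).le
  · have := h.inj hs ht (by omega)
    rw [this]

/-- A position without leaves belongs to the overlap of the two ends of a closing. -/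
theorem iso_closing (h : Placement S G pos) {p : ℕ} (hp : p < G.length)
    (hR : ¬ ∃ s ∈ S, Reach (ruleR S pos) G p (pos s) (pos s + s.length))
    (hL : ¬ ∃ s ∈ S, Reach (ruleL S pos) G p (pos s) (pos s + s.length)) :
    ∃ v a b, SSet S pos v a ∧ ESet S pos v b ∧ pos b + b.length ≤ p + v.length ∧
      p < pos a + v.length := by
  rcases stuckR h hp with hR' | ⟨i, j, b, a, hr, hE, hA, hbj, hbi⟩
  · exact absurd hR' hR
  rcases stuckL h hp with hL' | ⟨i', j', a', b', hr', hA', hE', hai, haj⟩
  · exact absurd hL' hL
  have hb := hr.bounds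
  have hb' := hr'.bounds
  have len := sub_length (U := G) (i := i) (j := j) hb.2.2
  have len' := sub_length (U := G) (i := i') (j := j') hb'.2.2
  have hE0 := hE
  have hA0 := hA
  have hE0' := hE'
  have hA0' := hA'
  obtain ⟨hbS, hbsuf, hblt, hbout⟩ := hE
  obtain ⟨haS, hapre, halt, hain⟩ := hA
  obtain ⟨ha'S, ha'pre, ha'lt, ha'in⟩ := hA'
  obtain ⟨hb'S, hb'suf, hb'lt, hb'out⟩ := hE'
  rw [len] at hblt hbout halt hain
  rw [len'] at ha'lt ha'in hb'lt hb'out
  by_cases hcase : pos b < pos a'
  · exfalso
    have c1 := hbout a' ha'S hcase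
    have c2 := ha'in b hbS hcase
    rcases Nat.le_total (j - i) (j' - i') with hl | hl
    · obtain ⟨i2, j2, h2, h3, h4, h5⟩ := hr'.inter (n := j - i) (by omega) hl
      have := Reach.cross (fun v hv => ruleR_ruleL v hv) hr h2 (by omega)
      omega
    · obtain ⟨i2, j2, h2, h3, h4, h5⟩ := hr.inter (n := j' - i') (by omega) hl
      have := Reach.cross (fun v hv => ruleR_ruleL v hv) h2 hr' (by omega)
      have b2 := h2.bounds
      omega
  · push Not at hcase
    rcases Nat.le_total (j' - i') (j - i) with hl | hl
    · obtain ⟨g1, g2⟩ := h.greedy (sub G i j) a b hA0 hE0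
      rw [len] at g2
      have hle : pos a' ≤ pos a := by
        by_contra hcon
        push Not at hcon
        obtain ⟨s, hs, hmax⟩ := Finset.exists_max_image (S.filter (fun t => pos t < pos a')) pos
          ⟨a, Finset.mem_filter.mpr ⟨haS, hcon⟩⟩
        rw [Finset.mem_filter] at hs
        have hsa : pos a ≤ pos s := hmax a (Finset.mem_filter.mpr ⟨haS, hcon⟩)
        obtain ⟨t, htS, ht1, ht2⟩ := g2 s hs.1 hsa (by omega)
        have ht3 : pos a' ≤ pos t := by
          by_contra hcon2
          have := hmax t (Finset.mem_filter.mpr ⟨htS, by omega⟩)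
          omega
        have := ha'in s hs.1 hs.2
        omega
      exact ⟨sub G i j, a, b, hA0, hE0, by rw [len]; omega, by rw [len]; omega⟩
    · obtain ⟨g1, g2⟩ := h.greedy (sub G i' j') a' b' hA0' hE0'
      rw [len'] at g2
      have hle : pos b' ≤ pos b := by
        by_contra hcon
        push Not at hcon
        obtain ⟨t, htS, ht1, ht2⟩ := g2 b hbS hcase hcon
        have := hbout t htS ht1
        omega
      have hbe := h.end_le hb'S hbS hle
      exact ⟨sub G i' j', a', b', hA0', hE0', by rw [len']; omega, by rw [len']; omega⟩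

theorem Occ.get {s U : List α} {c : ℕ} (h : Occ s U c) {k : ℕ} (hk : k < s.length) :
    U[c + k]? = s[k]? := by
  obtain ⟨l, r, rfl, rfl⟩ := h
  rw [List.getElem?_append_right (by omega), List.getElem?_append_left (by omega)]
  congr 1
  omega

/-- The periodic word of a closing. -/
theorem closing_seq (h : Placement S G pos) {v a b : List α} (hA : SSet S pos v a)
    (hE : ESet S pos v b) :
    ∃ u : ℕ → α, (∀ n, u (n + (pos b + b.length - v.length - pos a)) = u n) ∧
      ∀ n < (pos b + b.length - v.length - pos a) + v.length, G[pos a + n]? = some (u n) := by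
  obtain ⟨g1, g2⟩ := h.greedy v a b hA hE
  obtain ⟨haS, hapre, halt, hain⟩ := hA
  obtain ⟨hbS, hbsuf, hblt, hbout⟩ := hE
  have hend := h.end_le haS hbS g1
  have hble := (h.occ b hbS).le
  set d := pos b + b.length - v.length - pos a with hd
  have hd0 : 0 < d := by omega
  have hb : ∀ n, pos a + n % d < G.length := by
    intro n
    have := Nat.mod_lt n hd0
    omega
  have hper : ∀ n, n < v.length → G[pos a + n]? = G[pos a + (n + d)]? := by
    intro n hn
    have e1 := (h.occ a haS).get (k := n) (by omega)
    have e2 := (h.occ b hbS).get (k := b.length - v.length + n) (by omega)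
    have e3 : a[n]? = v[n]? := by
      obtain ⟨r, hr⟩ := hapre
      rw [← hr, List.getElem?_append_left hn]
    have e4 : b[b.length - v.length + n]? = v[n]? := by
      obtain ⟨l, hl⟩ := hbsuf
      have e5 : b.length = l.length + v.length := by rw [← hl]; simp
      have e6 : b.length - v.length + n = l.length + n := by omega
      rw [e6, ← hl, List.getElem?_append_right (by omega)]
      congr 1
      omega
    rw [e1, e3, ← e4, ← e2]
    congr 1
    omega
  refine ⟨fun n => G[pos a + n % d]'(hb n), ?_, ?_⟩
  · intro n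
    simp only [Nat.add_mod_right]
  · intro n
    induction n using Nat.strong_induction_on with
    | _ n ih =>
      intro hn
      by_cases hnd : n < d
      · simp only [Nat.mod_eq_of_lt hnd]
        exact List.getElem?_eq_getElem _
      · have := ih (n - d) (by omega) (by omega)
        have e := hper (n - d) (by omega)
        have e1 : n - d + d = n := by omega
        rw [e1] at e
        have e7 : (n - d) % d = n % d := by
          conv_rhs => rw [← e1]
          rw [Nat.add_mod_right]
        rw [← e, this]
        simp only [e7]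

theorem seq_mod {u : ℕ → α} {d : ℕ} (hu : ∀ n, u (n + d) = u n) (c k : ℕ) :
    u (c + k) = u (c % d + k) := by
  have h1 : ∀ q n, u (n + d * q) = u n := by
    intro q
    induction q with
    | zero => intro n; simp
    | succ q ih =>
      intro n
      rw [Nat.mul_succ, ← Nat.add_assoc, hu, ih]
  have h2 := h1 (c / d) (c % d + k)
  rw [← h2]
  congr 1
  have := Nat.mod_add_div c d
  omega

/-- The string of a stretch that covers the position `c` and continues farthest. -/
theorem locate (h : Placement S G pos) {v a b : List α} (hA : SSet S pos v a)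
    (hE : ESet S pos v b) {c : ℕ} (hc : c < pos b + b.length - v.length - pos a) :
    ∃ s ∈ S, pos a ≤ pos s ∧ pos s ≤ pos b ∧ pos s ≤ pos a + c ∧
      pos a + c + v.length + 1 ≤ pos s + s.length ∧ pos s + s.length ≤ pos b + b.length ∧
      ∀ t ∈ S, pos s < pos t → pos a + c < pos t := by
  obtain ⟨g1, g2⟩ := h.greedy v a b hA hE
  obtain ⟨haS, hapre, halt, hain⟩ := hA
  obtain ⟨hbS, hbsuf, hblt, hbout⟩ := hE
  obtain ⟨s, hs, hmax⟩ := Finset.exists_max_image (S.filter (fun t => pos t ≤ pos a + c)) pos
    ⟨a, Finset.mem_filter.mpr ⟨haS, by omega⟩⟩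
  rw [Finset.mem_filter] at hs
  have hsa : pos a ≤ pos s := hmax a (Finset.mem_filter.mpr ⟨haS, by omega⟩)
  have hmax' : ∀ t ∈ S, pos s < pos t → pos a + c < pos t := by
    intro t ht hst
    by_contra hcon
    have := hmax t (Finset.mem_filter.mpr ⟨ht, by omega⟩)
    omega
  have hsb : pos s ≤ pos b := by
    by_contra hcon
    have := hbout s hs.1 (by omega)
    omega
  refine ⟨s, hs.1, hsa, hsb, hs.2, ?_, h.end_le hs.1 hbS hsb, hmax'⟩
  rcases Nat.lt_or_ge (pos s) (pos b) with hlt | hge
  · obtain ⟨t, htS, ht1, ht2⟩ := g2 s hs.1 hsa hlt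
    have := hmax' t htS ht1
    omega
  · have := h.inj hs.1 hbS (by omega)
    rw [this]
    omega

/-- The strings of the stretch are factors of the periodic word. -/
theorem stretch_pure (h : Placement S G pos) {v a b : List α} 
    (hE : ESet S pos v b) {u : ℕ → α}
    (hu2 : ∀ n < (pos b + b.length - v.length - pos a) + v.length, G[pos a + n]? = some (u n))
    {s : List α} (hs : s ∈ S) (h1 : pos a ≤ pos s) (h2 : pos s ≤ pos b) {k : ℕ}
    (hk : k < s.length) : s[k]? = some (u (pos s - pos a + k)) := by
  have hbS := hE.1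
  have hend := h.end_le hs hbS h2
  have := (h.occ s hs).get hk
  rw [← this, ← hu2 _ (by omega)]
  congr 1
  omega

/-- Every window of the periodic word that is one longer than the closing word lies inside one
string. -/
theorem window_infix (h : Placement S G pos) {v a b : List α} (hA : SSet S pos v a)
    (hE : ESet S pos v b) {u : ℕ → α}
    (hu1 : ∀ n, u (n + (pos b + b.length - v.length - pos a)) = u n)
    (hu2 : ∀ n < (pos b + b.length - v.length - pos a) + v.length, G[pos a + n]? = some (u n))
    {T : List α} (hT : ∀ s ∈ S, s <:+: T) (c : ℕ) :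
    P333R.win u c (v.length + 1) <:+: T := by
  have hd0 : 0 < pos b + b.length - v.length - pos a := by
    have g1 := (h.greedy v a b hA hE).1
    have := h.end_le hA.1 hE.1 g1
    have := hA.2.2.1
    omega
  obtain ⟨s, hs, h1, h2, h3, h4, h5, h6⟩ := locate h hA hE (Nat.mod_lt c hd0)
  refine List.IsInfix.trans ?_ (hT s hs)
  rw [List.infix_iff_getElem?]
  set c' := c % (pos b + b.length - v.length - pos a) with hc'
  have hlen : (P333R.win u c (v.length + 1)).length = v.length + 1 := by
    simp [P333R.win]
  refine ⟨pos a + c' - pos s, ?_, ?_⟩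
  · rw [hlen]
    omega
  · intro i hi
    rw [hlen] at hi
    rw [stretch_pure h hE hu2 hs h1 h2 (by omega)]
    simp only [P333R.win, List.getElem_map, List.getElem_range]
    rw [seq_mod hu1 c i, ← hc']
    congr 2
    omega

/-- A string outside the stretch whose overlap with earlier strings is not longer than the
closing word is not a factor of the periodic word. -/
theorem not_pure (h : Placement S G pos) {v a b : List α} (hA : SSet S pos v a)
    (hE : ESet S pos v b) {u : ℕ → α}
    (hu1 : ∀ n, u (n + (pos b + b.length - v.length - pos a)) = u n)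
    (hu2 : ∀ n < (pos b + b.length - v.length - pos a) + v.length, G[pos a + n]? = some (u n))
    {x : List α} (hx : x ∈ S)
    (hxin : ∀ t ∈ S, pos t < pos x → pos t + t.length ≤ pos x + v.length)
    (hout : pos x < pos a ∨ pos b < pos x) {c : ℕ}
    (hc : ∀ k < x.length, x[k]? = some (u (c + k))) : False := by
  have hd0 : 0 < pos b + b.length - v.length - pos a := by
    have g1 := (h.greedy v a b hA hE).1
    have := h.end_le hA.1 hE.1 g1
    have := hA.2.2.1
    omega
  obtain ⟨s, hs, h1, h2, h3, h4, h5, h6⟩ := locate h hA hE (Nat.mod_lt c hd0)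
  set c' := c % (pos b + b.length - v.length - pos a) with hc'
  have hx' : ∀ k < x.length, x[k]? = some (u (c' + k)) := by
    intro k hk
    rw [hc k hk, seq_mod hu1 c k]
  have hsx : s ≠ x := by
    rintro rfl
    omega
  have hpure : ∀ k < s.length, s[k]? = some (u (pos s - pos a + k)) := fun k hk =>
    stretch_pure h hE hu2 hs h1 h2 hk
  have n1 : pos s + s.length < pos a + c' + x.length := by
    by_contra hcon
    push Not at hcon
    apply hsx
    symm
    apply h.free x hx s hs
    rw [List.infix_iff_getElem?]
    refine ⟨pos a + c' - pos s, by omega, ?_⟩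
    intro i hi
    rw [hpure _ (by omega), ← List.getElem?_eq_getElem hi, hx' i hi]
    congr 2
    omega
  have n2 : pos s < pos a + c' := by
    by_contra hcon
    apply hsx
    apply h.free s hs x hx
    apply List.IsPrefix.isInfix
    rw [List.prefix_iff_getElem?]
    intro i hi
    rw [← List.getElem?_eq_getElem hi, hpure _ hi, hx' i (by omega)]
    congr 2
    omega
  obtain ⟨m, hm⟩ : ∃ m, m + (pos a + c') = pos s + s.length := ⟨pos s + s.length - (pos a + c'),
    by omega⟩
  have hwl : (x.take m).length = m := by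
    rw [List.length_take]
    omega
  have hSS : SSet S pos (x.take m) x := by
    refine ⟨hx, List.take_prefix _ _, by omega, ?_⟩
    intro t ht htx
    have := hxin t ht htx
    omega
  have hEE : ESet S pos (x.take m) s := by
    refine ⟨hs, ?_, by omega, ?_⟩
    · have : x.take m = s.drop (s.length - m) := by
        apply List.ext_getElem?
        intro i
        rw [List.getElem?_drop]
        by_cases hi : i < m
        · rw [List.getElem?_take_of_lt hi, hx' i (by omega), hpure _ (by omega)]
          congr 2
          omega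
        · rw [List.getElem?_eq_none (by omega), List.getElem?_eq_none (by omega)]
      rw [this]
      exact List.drop_suffix _ _
    · intro t ht hst
      have := h6 t ht hst
      omega
  obtain ⟨g1, g2⟩ := h.greedy _ _ _ hSS hEE
  have hxa : pos x < pos a := by omega
  obtain ⟨r, hr, hmax⟩ := Finset.exists_max_image (S.filter (fun t => pos t < pos a)) pos
    ⟨x, Finset.mem_filter.mpr ⟨hx, hxa⟩⟩
  rw [Finset.mem_filter] at hr
  have hrx : pos x ≤ pos r := hmax x (Finset.mem_filter.mpr ⟨hx, hxa⟩)
  obtain ⟨t, htS, ht1, ht2⟩ := g2 r hr.1 hrx (by omega)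
  have ht3 : pos a ≤ pos t := by
    by_contra hcon
    have := hmax t (Finset.mem_filter.mpr ⟨htS, by omega⟩)
    omega
  have := hA.2.2.2 r hr.1 hr.2
  omega

/-- The necklaces of two closings with different ends are different. -/
theorem necklaces (h : Placement S G pos) {v a b : List α} (hA : SSet S pos v a)
    (hE : ESet S pos v b) {u : ℕ → α}
    (hu1 : ∀ n, u (n + (pos b + b.length - v.length - pos a)) = u n)
    (hu2 : ∀ n < (pos b + b.length - v.length - pos a) + v.length, G[pos a + n]? = some (u n))
    {v' a' b' : List α} (hA' : SSet S pos v' a')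
    (hE' : ESet S pos v' b') {u' : ℕ → α}
    (hu2' : ∀ n < (pos b' + b'.length - v'.length - pos a') + v'.length,
      G[pos a' + n]? = some (u' n))
    (hle : v'.length ≤ v.length) (hne : ¬ (a = a' ∧ b = b')) {c : ℕ}
    (hcu : ∀ n, u' n = u (c + n)) : False := by
  obtain ⟨g1, g2⟩ := h.greedy v a b hA hE
  obtain ⟨g1', g2'⟩ := h.greedy v' a' b' hA' hE'
  have hpure : ∀ x ∈ S, pos a' ≤ pos x → pos x ≤ pos b' → ∀ k < x.length,
      x[k]? = some (u (c + (pos x - pos a') + k)) := by
    intro x hx hx1 hx2 k hk
    rw [stretch_pure h hE' hu2' hx hx1 hx2 hk, hcu]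
    congr 2
    omega
  by_cases hout : pos a' < pos a ∨ pos b < pos a'
  · refine not_pure h hA hE hu1 hu2 hA'.1 ?_ hout (hpure a' hA'.1 le_rfl g1')
    intro t ht hta
    have := hA'.2.2.2 t ht hta
    omega
  · push Not at hout
    have haa : pos a' = pos a := by
      by_contra hcon
      obtain ⟨r, hr, hmax⟩ := Finset.exists_max_image (S.filter (fun t => pos t < pos a')) pos
        ⟨a, Finset.mem_filter.mpr ⟨hA.1, by omega⟩⟩
      rw [Finset.mem_filter] at hr
      have hra : pos a ≤ pos r := hmax a (Finset.mem_filter.mpr ⟨hA.1, by omega⟩)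
      obtain ⟨t, htS, ht1, ht2⟩ := g2 r hr.1 hra (by omega)
      have ht3 : pos a' ≤ pos t := by
        by_contra hcon2
        have := hmax t (Finset.mem_filter.mpr ⟨htS, by omega⟩)
        omega
      have := hA'.2.2.2 r hr.1 hr.2
      omega
    have haa' : a' = a := h.inj hA'.1 hA.1 haa
    rcases Nat.lt_trichotomy (pos b') (pos b) with hb | hb | hb
    · obtain ⟨t, htS, ht1, ht2⟩ := g2 b' hE'.1 (by omega) hb
      have := hE'.2.2.2 t htS ht1
      omega
    · exact hne ⟨haa'.symm, (h.inj hE'.1 hE.1 hb).symm⟩
    · obtain ⟨x, hx, hmin⟩ := Finset.exists_min_image (S.filter (fun t => pos b < pos t)) pos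
        ⟨b', Finset.mem_filter.mpr ⟨hE'.1, hb⟩⟩
      rw [Finset.mem_filter] at hx
      have hxb : pos x ≤ pos b' := hmin b' (Finset.mem_filter.mpr ⟨hE'.1, hb⟩)
      refine not_pure h hA hE hu1 hu2 hx.1 ?_ (Or.inr hx.2) (hpure x hx.1 (by omega) hxb)
      intro t ht htx
      have htb : pos t ≤ pos b := by
        by_contra hcon
        have := hmin t (Finset.mem_filter.mpr ⟨ht, by omega⟩)
        omega
      have := h.end_le ht hE.1 htb
      have := hE.2.2.2 x hx.1 hx.2
      omega

/-- The number of isolated positions is at most the length of any common superstring. -/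
theorem iso_card_le [DecidableEq α] (h : Placement S G pos) {T : List α}
    (hT : ∀ s ∈ S, s <:+: T) (A : Finset ℕ)
    (hA : ∀ p ∈ A, ∃ v a b, SSet S pos v a ∧ ESet S pos v b ∧
      pos b + b.length ≤ p + v.length ∧ p < pos a + v.length) :
    A.card ≤ T.length := by
  classical
  -- the high-periodic closing pairs
  set K : Finset (List α × List α) := (S ×ˢ S).filter (fun q => ∃ v, SSet S pos v q.1 ∧
    ESet S pos v q.2 ∧ pos q.2 + q.2.length < pos q.1 + v.length + v.length) with hK
  have hmaxv : ∀ i : {q // q ∈ K}, ∃ v, SSet S pos v i.1.1 ∧ ESet S pos v i.1.2 ∧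
      pos i.1.2 + i.1.2.length < pos i.1.1 + v.length + v.length ∧
      ∀ v', SSet S pos v' i.1.1 → ESet S pos v' i.1.2 → v'.length ≤ v.length := by
    rintro ⟨⟨a, b⟩, hq⟩
    rw [hK, Finset.mem_filter] at hq
    obtain ⟨-, v, hv1, hv2, hv3⟩ := hq
    simp only at hv1 hv2 hv3 ⊢
    have htake : ∀ v', SSet S pos v' a → v' = a.take v'.length := fun v' hv' =>
      List.prefix_iff_eq_take.mp hv'.2.1
    obtain ⟨n, hn, hmax⟩ := Finset.exists_max_image
      ((Finset.range a.length).filter (fun n => SSet S pos (a.take n) a ∧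
        ESet S pos (a.take n) b)) id
      ⟨v.length, Finset.mem_filter.mpr ⟨Finset.mem_range.mpr hv1.2.2.1, by
        rw [← htake v hv1]; exact ⟨hv1, hv2⟩⟩⟩
    rw [Finset.mem_filter, Finset.mem_range] at hn
    have hmax' : ∀ v', SSet S pos v' a → ESet S pos v' b → v'.length ≤ n := by
      intro v' h1 h2
      exact hmax v'.length (Finset.mem_filter.mpr ⟨Finset.mem_range.mpr h1.2.2.1, by
        rw [← htake v' h1]; exact ⟨h1, h2⟩⟩)
    have hlen : (a.take n).length = n := by
      rw [List.length_take]
      omega
    refine ⟨a.take n, hn.2.1, hn.2.2, ?_, ?_⟩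
    · have := hmax' v hv1 hv2
      omega
    · rw [hlen]
      exact hmax'
  choose V hV1 hV2 hV3 hV4 using hmaxv
  have hseq := fun i : {q // q ∈ K} => closing_seq h (hV1 i) (hV2 i)
  choose w hw1 hw2 using hseq
  set d : {q // q ∈ K} → ℕ := fun i => pos i.1.2 + i.1.2.length - (V i).length - pos i.1.1
    with hd
  have hord : ∀ i, pos i.1.1 + (V i).length < pos i.1.2 + i.1.2.length := by
    intro i
    have g1 := (h.greedy _ _ _ (hV1 i) (hV2 i)).1
    have := h.end_le (hV1 i).1 (hV2 i).1 g1
    have := (hV1 i).2.2.1
    omega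
  have hd0 : ∀ i, 0 < d i := by
    intro i
    have := hord i
    simp only [hd]
    omega
  have hex : ∀ i, ∃ q, 0 < q ∧ ∀ n, w i (n + q) = w i n := fun i => ⟨d i, hd0 i, hw1 i⟩
  set pi : {q // q ∈ K} → ℕ := fun i => Nat.find (hex i) with hpi
  have hpi1 : ∀ i, 0 < pi i := fun i => (Nat.find_spec (hex i)).1
  have hpi2 : ∀ i n, w i (n + pi i) = w i n := fun i => (Nat.find_spec (hex i)).2
  have hpid : ∀ i, pi i ≤ d i := fun i => Nat.find_min' (hex i) ⟨hd0 i, hw1 i⟩
  have hdz : ∀ i, d i < (V i).length := by
    intro i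
    have := hV3 i
    have := hord i
    simp only [hd]
    omega
  have hsum := P333R.rings_sum_le T pi (fun i => (V i).length) w hpi2
    (by
      intro i q hq1 hq2
      by_contra hcon
      push Not at hcon
      exact Nat.find_min (hex i) hq2 ⟨hq1, hcon⟩)
    hpi1
    (by
      intro i j hij hpij c
      by_contra hcon
      push Not at hcon
      have hne : ¬ (i.1.1 = j.1.1 ∧ i.1.2 = j.1.2) := by
        rintro ⟨h1, h2⟩
        exact hij (Subtype.ext (Prod.ext h1 h2))
      rcases Nat.le_total (V j).length (V i).length with hl | hl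
      · refine necklaces h (hV1 i) (hV2 i) (hw1 i) (hw2 i) (hV1 j) (hV2 j) (hw2 j) hl hne
          (c := c) ?_
        intro n
        rw [← hcon n, Nat.add_comm]
      · refine necklaces h (hV1 j) (hV2 j) (hw1 j) (hw2 j) (hV1 i) (hV2 i) (hw2 i) hl
          (fun hh => hne ⟨hh.1.symm, hh.2.symm⟩) (c := (pi i - 1) * c) ?_
        intro n
        rw [← hcon]
        have e : (pi i - 1) * c + n + c = pi i * c + n := by
          obtain ⟨m, hm⟩ : ∃ m, pi i = m + 1 := ⟨pi i - 1, by have := hpi1 i; omega⟩
          rw [hm]
          simp only [Nat.add_sub_cancel]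
          ring
        rw [e, seq_mod (hpi2 i) (pi i * c) n]
        simp)
    (by
      intro i c
      exact window_infix h (hV1 i) (hV2 i) (hw1 i) (hw2 i) hT c)
  have hsub : A ⊆ (Finset.univ : Finset {q // q ∈ K}).biUnion (fun i =>
      Finset.Ico (pos i.1.2 + i.1.2.length - (V i).length) (pos i.1.1 + (V i).length)) := by
    intro p hp
    obtain ⟨v, a, b, h1, h2, h3, h4⟩ := hA p hp
    have hq : (a, b) ∈ K := by
      rw [hK, Finset.mem_filter]
      exact ⟨Finset.mem_product.mpr ⟨h1.1, h2.1⟩, v, h1, h2, by simp only; omega⟩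
    rw [Finset.mem_biUnion]
    refine ⟨⟨(a, b), hq⟩, Finset.mem_univ _, ?_⟩
    rw [Finset.mem_Ico]
    have := hV4 ⟨(a, b), hq⟩ v h1 h2
    simp only
    omega
  calc A.card ≤ _ := Finset.card_le_card hsub
    _ ≤ ∑ i : {q // q ∈ K}, (Finset.Ico (pos i.1.2 + i.1.2.length - (V i).length)
        (pos i.1.1 + (V i).length)).card := Finset.card_biUnion_le
    _ ≤ ∑ i : {q // q ∈ K}, ((V i).length + 1 - pi i) := by
        refine Finset.sum_le_sum (fun i _ => ?_)
        rw [Nat.card_Ico]
        have h1 := hpid i
        have h2 := hord i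
        simp only [hd] at h1
        omega
    _ ≤ T.length := hsum

theorem Placement.bound_three [DecidableEq α] (h : Placement S G pos) {T₁ T₂ T₃ : List α}
    (hT₁ : ∀ s ∈ S, s <:+: T₁) (hT₂ : ∀ s ∈ S, s <:+: T₂) (hT₃ : ∀ s ∈ S, s <:+: T₃) :
    G.length ≤ T₁.length + T₂.length + T₃.length := by
  classical
  have hA := leaf_card h (ruleR S pos) hT₁ ((Finset.range G.length).filter
    (fun p => ∃ s ∈ S, Reach (ruleR S pos) G p (pos s) (pos s + s.length)))
    (fun p hp => (Finset.mem_filter.mp hp).2)
  have hB := leaf_card h (ruleL S pos) hT₂ ((Finset.range G.length).filter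
    (fun p => ∃ s ∈ S, Reach (ruleL S pos) G p (pos s) (pos s + s.length)))
    (fun p hp => (Finset.mem_filter.mp hp).2)
  have hC := iso_card_le h hT₃ ((Finset.range G.length).filter
    (fun p => (¬ ∃ s ∈ S, Reach (ruleR S pos) G p (pos s) (pos s + s.length)) ∧
      ¬ ∃ s ∈ S, Reach (ruleL S pos) G p (pos s) (pos s + s.length)))
    (fun p hp => by
      obtain ⟨h1, h2, h3⟩ := Finset.mem_filter.mp hp
      exact iso_closing h (Finset.mem_range.mp h1) h2 h3)
  have hU : Finset.range G.length ⊆
      (((Finset.range G.length).filter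
        (fun p => ∃ s ∈ S, Reach (ruleR S pos) G p (pos s) (pos s + s.length))) ∪
      ((Finset.range G.length).filter
        (fun p => ∃ s ∈ S, Reach (ruleL S pos) G p (pos s) (pos s + s.length)))) ∪
      ((Finset.range G.length).filter
        (fun p => (¬ ∃ s ∈ S, Reach (ruleR S pos) G p (pos s) (pos s + s.length)) ∧
      ¬ ∃ s ∈ S, Reach (ruleL S pos) G p (pos s) (pos s + s.length))) := by
    intro p hp
    by_cases h1 : ∃ s ∈ S, Reach (ruleR S pos) G p (pos s) (pos s + s.length)
    · exact Finset.mem_union_left _ (Finset.mem_union_left _ (Finset.mem_filter.mpr ⟨hp, h1⟩))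
    · by_cases h2 : ∃ s ∈ S, Reach (ruleL S pos) G p (pos s) (pos s + s.length)
      · exact Finset.mem_union_left _ (Finset.mem_union_right _ (Finset.mem_filter.mpr ⟨hp, h2⟩))
      · exact Finset.mem_union_right _ (Finset.mem_filter.mpr ⟨hp, h1, h2⟩)
  have hc := (Finset.card_le_card hU).trans (Finset.card_union_le _ _)
  have hc2 := Finset.card_union_le ((Finset.range G.length).filter
        (fun p => ∃ s ∈ S, Reach (ruleR S pos) G p (pos s) (pos s + s.length)))
      ((Finset.range G.length).filter
        (fun p => ∃ s ∈ S, Reach (ruleL S pos) G p (pos s) (pos s + s.length)))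
  rw [Finset.card_range] at hc
  omega

end Vale.Agent.P333
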