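import Mathlib

/-!
P333: a machine model for programs on lists, with a count of the elementary steps.

A program that takes an argument of type `α` and computes a value of type `β` is a function
`α → Tick β`: for every argument it gives the value and the number of elementary steps.
`Prog f` says that `f` is a program: it is built from the elementary operations below by
sequential composition, pairing, case distinction and recursion on a list or on a number.
Every elementary operation that builds or compares something costs one step, and every round
of a recursion costs one step.
-/

namespace Vale.Agent.P333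

/-- a value together with the number of elementary steps spent to compute it -/
structure Tick (α : Type) where
  val : α
  time : ℕ

namespace Tick

variable {α β : Type}

/-- a value for free -/
def ret (a : α) : Tick α := ⟨a, 0⟩

/-- `k` steps, then a value -/
def pay (k : ℕ) (a : α) : Tick α := ⟨a, k⟩

/-- sequential composition: the steps are added -/
def bind (x : Tick α) (f : α → Tick β) : Tick β := ⟨(f x.val).val, x.time + (f x.val).time⟩

end Tick

open Tick

/-- Recursion on a list, with a parameter `s` that may change. At the empty list `base` is called.
At `x :: l` the program `pre` decides: either it gives the result (`inr`), or a new parameter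
(`inl`) for the recursive call on `l`, whose result is processed by `post`. Every round costs one
step more than the calls it makes. -/
def recList {σ α β : Type} (base : σ → Tick β) (pre : σ × α × List α → Tick (σ ⊕ β))
    (post : (σ × α × List α) × β → Tick β) : List α → σ → Tick β
  | [], s => (base s).bind (pay 1)
  | x :: l, s => (pre (s, x, l)).bind (Sum.elim
      (fun s' => (recList base pre post l s').bind fun b => (post ((s, x, l), b)).bind (pay 1))
      (pay 1))

/-- Recursion on a natural number, in the same way. -/
def recNat {σ β : Type} (base : σ → Tick β) (pre : σ × ℕ → Tick (σ ⊕ β))
    (post : (σ × ℕ) × β → Tick β) : ℕ → σ → Tick β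
  | 0, s => (base s).bind (pay 1)
  | n + 1, s => (pre (s, n)).bind (Sum.elim
      (fun s' => (recNat base pre post n s').bind fun b => (post ((s, n), b)).bind (pay 1))
      (pay 1))

/-- `f` is a program. -/
inductive Prog : {α β : Type} → (α → Tick β) → Prop
  /-- return the argument -/
  | id {α : Type} : Prog (fun x : α => ret x)
  /-- projections of a pair -/
  | fst {α β : Type} : Prog (fun x : α × β => ret x.1)
  | snd {α β : Type} : Prog (fun x : α × β => ret x.2)
  /-- run two programs on the same argument -/
  | pair {α β γ : Type} {f : α → Tick β} {g : α → Tick γ} : Prog f → Prog g →
      Prog (fun x => (f x).bind fun b => (g x).bind fun c => ret (b, c))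
  /-- run two programs one after the other -/
  | seq {α β γ : Type} {f : α → Tick β} {g : β → Tick γ} : Prog f → Prog g →
      Prog (fun x => (f x).bind g)
  /-- numbers: zero and successor -/
  | zero {α : Type} : Prog (fun _ : α => pay 1 (0 : ℕ))
  | succ : Prog (fun n : ℕ => pay 1 (n + 1))
  /-- comparison of two letters (or numbers) -/
  | eq : Prog (fun x : ℕ × ℕ => pay 1 (decide (x.1 = x.2)))
  /-- truth values and case distinction -/
  | tt {α : Type} : Prog (fun _ : α => pay 1 true)
  | ff {α : Type} : Prog (fun _ : α => pay 1 false)
  | cond {α β : Type} {f g : α → Tick β} : Prog f → Prog g →
      Prog (fun x : Bool × α => bif x.1 then f x.2 else g x.2)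
  /-- lists: the empty list and a list with one more entry -/
  | nil {α β : Type} : Prog (fun _ : α => pay 1 ([] : List β))
  | cons {α : Type} : Prog (fun x : α × List α => pay 1 (x.1 :: x.2))
  /-- optional values -/
  | none {α β : Type} : Prog (fun _ : α => pay 1 (none : Option β))
  | some {α : Type} : Prog (fun x : α => pay 1 (some x))
  | option {α β γ : Type} {f : β → Tick γ} {g : β × α → Tick γ} : Prog f → Prog g →
      Prog (fun x : β × Option α => x.2.elim (f x.1) fun a => g (x.1, a))
  /-- the two kinds of answers of the decision program of a recursion -/
  | inl {α β : Type} : Prog (fun x : α => pay 1 (Sum.inl x : α ⊕ β))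
  | inr {α β : Type} : Prog (fun x : β => pay 1 (Sum.inr x : α ⊕ β))
  /-- recursion on a list -/
  | recList {σ α β : Type} {base : σ → Tick β} {pre : σ × α × List α → Tick (σ ⊕ β)}
      {post : (σ × α × List α) × β → Tick β} : Prog base → Prog pre → Prog post →
      Prog (fun x : σ × List α => recList base pre post x.2 x.1)
  /-- recursion on a number -/
  | recNat {σ β : Type} {base : σ → Tick β} {pre : σ × ℕ → Tick (σ ⊕ β)}
      {post : (σ × ℕ) × β → Tick β} : Prog base → Prog pre → Prog post →
      Prog (fun x : σ × ℕ => recNat base pre post x.2 x.1)

end Vale.Agent.P333
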