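import Mathlib

/-! Two-directional growing paths inside a text, steered by a rule on words. -/

namespace Vale.Agent.P333

universe u

variable {α : Type u}

/-- The factor of `U` between the positions `i` and `j`. -/
def sub (U : List α) (i j : ℕ) : List α := (U.drop i).take (j - i)

theorem sub_length {U : List α} {i j : ℕ} (hj : j ≤ U.length) : (sub U i j).length = j - i := by
  simp only [sub, List.length_take, List.length_drop]
  omega

/-- `s` occurs in `U` at the position `c`. -/
def Occ (s U : List α) (c : ℕ) : Prop := ∃ l r : List α, U = l ++ (s ++ r) ∧ l.length = c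

theorem Occ.le {s U : List α} {c : ℕ} (h : Occ s U c) : c + s.length ≤ U.length := by
  obtain ⟨l, r, rfl, rfl⟩ := h
  simp only [List.length_append]
  omega

theorem Occ.sub_eq {s U : List α} {c : ℕ} (h : Occ s U c) {i j : ℕ} (hj : j ≤ s.length) :
    sub U (c + i) (c + j) = sub s i j := by
  obtain ⟨l, r, rfl, rfl⟩ := h
  unfold sub
  have h1 : l.length + j - (l.length + i) = j - i := by omega
  rw [h1, ← List.drop_drop, List.drop_left, List.drop_append, List.take_append_of_le_length]
  simp only [List.length_drop]
  omega

theorem Occ.sub_self {s U : List α} {c : ℕ} (h : Occ s U c) :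
    sub U c (c + s.length) = s := by
  have := h.sub_eq (i := 0) (j := s.length) le_rfl
  simpa [sub] using this

theorem Occ.nested {s t U : List α} {a b : ℕ} (hs : Occ s U a) (ht : Occ t U b)
    (hab : b ≤ a) (he : a + s.length ≤ b + t.length) : s <:+: t := by
  have h1 := ht.sub_eq (i := a - b) (j := a - b + s.length) (by omega)
  have h2 := hs.sub_self
  have e1 : b + (a - b) = a := by omega
  have e2 : b + (a - b + s.length) = a + s.length := by omega
  rw [e1, e2, h2] at h1
  rw [h1]
  unfold sub
  exact (List.take_prefix _ _).isInfix.trans (List.drop_suffix _ _).isInfix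

/-- The intervals reached from the letter `p` when the current word is extended to the left
exactly if `rule` holds for it. -/
inductive Reach (rule : List α → Prop) (U : List α) (p : ℕ) : ℕ → ℕ → Prop
  | start : p < U.length → Reach rule U p p (p + 1)
  | left {i j : ℕ} : Reach rule U p (i + 1) j → rule (sub U (i + 1) j) → Reach rule U p i j
  | right {i j : ℕ} : Reach rule U p i j → ¬ rule (sub U i j) → j < U.length →
      Reach rule U p i (j + 1)

variable {rule : List α → Prop} {U : List α} {p : ℕ}

theorem Reach.bounds {i j : ℕ} (h : Reach rule U p i j) : i ≤ p ∧ p < j ∧ j ≤ U.length := by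
  induction h with
  | start h => omega
  | left _ _ ih => omega
  | right _ _ _ ih => omega

theorem Reach.nested {i j i' j' : ℕ} (h : Reach rule U p i j) (h' : Reach rule U p i' j')
    (hl : j - i ≤ j' - i') : i' ≤ i ∧ j ≤ j' := by
  induction h' generalizing i j with
  | start h1 =>
    have := h.bounds
    omega
  | @left i' j' h1 hr ih =>
    have b1 := h1.bounds
    have b := h.bounds
    by_cases hlt : j - i ≤ j' - (i' + 1)
    · have := ih h hlt
      omega
    · cases h with
      | start h2 => omega
      | left h2 hr2 =>
        have b2 := h2.bounds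
        have := ih h2 (by omega)
        omega
      | @right _ j0 h2 hr2 h3 =>
        have b2 := h2.bounds
        have := ih h2 (by omega)
        have e1 : i = i' + 1 := by omega
        have e2 : j0 = j' := by omega
        subst e1 e2
        exact absurd hr hr2
  | @right i' j' h1 hr h3 ih =>
    have b1 := h1.bounds
    have b := h.bounds
    by_cases hlt : j - i ≤ j' - i'
    · have := ih h hlt
      omega
    · cases h with
      | start h2 => omega
      | left h2 hr2 =>
        have b2 := h2.bounds
        have := ih h2 (by omega)
        have e1 : i + 1 = i' := by omega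
        have e2 : j = j' := by omega
        subst e1 e2
        exact absurd hr2 hr
      | @right _ j0 h2 hr2 h3 =>
        have b2 := h2.bounds
        have := ih h2 (by omega)
        omega

theorem Reach.inter {i j : ℕ} (h : Reach rule U p i j) {n : ℕ} (h1 : 1 ≤ n) (hn : n ≤ j - i) :
    ∃ i' j', Reach rule U p i' j' ∧ j' - i' = n ∧ i ≤ i' ∧ j' ≤ j := by
  induction h with
  | start h2 => exact ⟨p, p + 1, Reach.start h2, by omega, le_rfl, le_rfl⟩
  | @left i j h2 hr ih =>
    have b := h2.bounds
    by_cases hlt : n ≤ j - (i + 1)
    · obtain ⟨i', j', h3, h4, h5, h6⟩ := ih hlt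
      exact ⟨i', j', h3, h4, by omega, h6⟩
    · exact ⟨i, j, Reach.left h2 hr, by omega, le_rfl, le_rfl⟩
  | @right i j h2 hr h3 ih =>
    have b := h2.bounds
    by_cases hlt : n ≤ j - i
    · obtain ⟨i', j', h3, h4, h5, h6⟩ := ih hlt
      exact ⟨i', j', h3, h4, h5, by omega⟩
    · exact ⟨i, j + 1, Reach.right h2 hr h3, by omega, le_rfl, le_rfl⟩

theorem Reach.cross {ruleR ruleL : List α → Prop} (hRL : ∀ v, ruleR v → ruleL v)
    {i j i' j' : ℕ} (h : Reach ruleR U p i j) (h' : Reach ruleL U p i' j')
    (hl : j - i = j' - i') : i' ≤ i := by
  induction h generalizing i' j' with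
  | start h1 =>
    have := h'.bounds
    omega
  | @left i j h1 hr ih =>
    have b1 := h1.bounds
    have b' := h'.bounds
    cases h' with
    | start h2 => omega
    | left h2 hr2 =>
      have b2 := h2.bounds
      have := ih h2 (by omega)
      omega
    | @right _ j0 h2 hr2 h3 =>
      have b2 := h2.bounds
      have := ih h2 (by omega)
      by_contra hcon
      have e1 : i' = i + 1 := by omega
      have e2 : j0 = j := by omega
      subst e1 e2
      exact hr2 (hRL _ hr)
  | @right i j h1 hr h3 ih =>
    have b1 := h1.bounds
    have b' := h'.bounds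
    cases h' with
    | start h2 => omega
    | left h2 hr2 =>
      have b2 := h2.bounds
      have := ih h2 (by omega)
      omega
    | @right _ j0 h2 hr2 h3 =>
      have b2 := h2.bounds
      have := ih h2 (by omega)
      omega

theorem Reach.lift {s : List α} {c k i j : ℕ} (ho : Occ s U c) (h : Reach rule s k i j) :
    Reach rule U (c + k) (c + i) (c + j) := by
  have hle := ho.le
  induction h with
  | start h1 => exact Reach.start (by omega)
  | @left i j h1 hr ih =>
    have b := h1.bounds
    refine Reach.left (i := c + i) ?_ ?_
    · exact ih
    · have := ho.sub_eq (i := i + 1) (j := j) b.2.2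
      have e : c + i + 1 = c + (i + 1) := by omega
      rw [e, this]
      exact hr
  | @right i j h1 hr h3 ih =>
    have b := h1.bounds
    refine Reach.right (j := c + j) ih ?_ (by omega)
    rw [ho.sub_eq (i := i) (j := j) b.2.2]
    exact hr

theorem Reach.restrict {s : List α} {c i j : ℕ} (ho : Occ s U c) (h : Reach rule U p i j)
    (hi : c ≤ i) (hj : j ≤ c + s.length) : Reach rule s (p - c) (i - c) (j - c) := by
  have hle := ho.le
  induction h with
  | start h1 =>
    have e : p + 1 - c = p - c + 1 := by omega
    rw [e]
    exact Reach.start (by omega)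
  | @left i j h1 hr ih =>
    have b := h1.bounds
    have h2 := ih (by omega) hj
    have e : i + 1 - c = i - c + 1 := by omega
    rw [e] at h2
    refine Reach.left h2 ?_
    have := ho.sub_eq (i := i + 1 - c) (j := j - c) (by omega)
    have e1 : c + (i + 1 - c) = i + 1 := by omega
    have e2 : c + (j - c) = j := by omega
    rw [e1, e2, e] at this
    rw [← this]
    exact hr
  | @right i j h1 hr h3 ih =>
    have b := h1.bounds
    have h2 := ih hi (by omega)
    have e : j + 1 - c = j - c + 1 := by omega
    rw [e]
    refine Reach.right h2 ?_ (by omega)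
    have := ho.sub_eq (i := i - c) (j := j - c) (by omega)
    have e1 : c + (i - c) = i := by omega
    have e2 : c + (j - c) = j := by omega
    rw [e1, e2] at this
    rw [← this]
    exact hr

end Vale.Agent.P333
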