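import Vale.Agent.P333.Defs
import Vale.Agent.P333.Core

/-! A run of the greedy algorithm gives a placement. -/

namespace Vale.Agent.P333

universe u

variable {α : Type u}

/-- The state of a greedy run: `own s` is the current word which contains `s`, at the position
`pos s`; all merges so far have overlap at least `m`. -/
structure Inv (S F : Finset (List α)) (own : List α → List α) (pos : List α → ℕ) (m : ℕ) :
    Prop where
  ffree : ∀ X ∈ F, ∀ Y ∈ F, X <:+: Y → X = Y
  ownF : ∀ s ∈ S, own s ∈ F
  occ : ∀ s ∈ S, Occ s (own s) (pos s)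
  cov : ∀ X ∈ F, ∀ p < X.length, ∃ s ∈ S, own s = X ∧ pos s ≤ p ∧ p < pos s + s.length
  linkIn : ∀ s ∈ S, ∀ t ∈ S, own t = own s → pos t < pos s →
    ∃ t' ∈ S, own t' = own s ∧ pos t' < pos s ∧ pos s + m ≤ pos t' + t'.length
  linkOut : ∀ s ∈ S, ∀ t ∈ S, own t = own s → pos s < pos t →
    ∃ t' ∈ S, own t' = own s ∧ pos s < pos t' ∧ pos t' + m ≤ pos s + s.length
  maxov : ∀ X ∈ F, ∀ Y ∈ F, X ≠ Y → ∀ o : List α, o <:+ X → o <+: Y → o.length ≤ m
  gp : ∀ v a b : List α, a ∈ S → b ∈ S → v <+: a → v.length < a.length →
    (∀ t ∈ S, own t = own a → pos t < pos a → pos t + t.length < pos a + v.length) →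
    v <:+ b → v.length < b.length →
    (∀ t ∈ S, own t = own b → pos b < pos t → pos b + b.length < pos t + v.length) →
    (∀ X ∈ F, ∀ Y ∈ F, X ≠ Y → ∀ o : List α, o <:+ X → o <+: Y → o.length < v.length) →
    own a = own b ∧ pos a ≤ pos b ∧ ∀ s ∈ S, own s = own a → pos a ≤ pos s → pos s < pos b →
      ∃ t ∈ S, own t = own a ∧ pos s < pos t ∧ pos t + v.length ≤ pos s + s.length

variable {S F : Finset (List α)} {own : List α → List α} {pos : List α → ℕ} {m : ℕ}

theorem inv_init (hS : ∀ s ∈ S, ∀ t ∈ S, s <:+: t → s = t) :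
    Inv S S (fun s => s) (fun _ => 0) (S.sup List.length) where
  ffree := hS
  ownF := fun s hs => hs
  occ := fun s _ => ⟨[], [], by simp, rfl⟩
  cov := fun X hX p hp => ⟨X, hX, rfl, Nat.zero_le _, by omega⟩
  linkIn := fun s _ t _ _ h => absurd h (lt_irrefl _)
  linkOut := fun s _ t _ _ h => absurd h (lt_irrefl _)
  maxov := fun X hX Y _ _ o ho _ => ho.length_le.trans (Finset.le_sup (f := List.length) hX)
  gp := by
    intro v a b ha hb h1 h2 _ h4 h5 _ h7
    by_cases hab : a = b
    · exact ⟨hab, le_rfl, fun s _ _ _ h => absurd h (lt_irrefl _)⟩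
    · exact absurd (h7 b hb a ha (Ne.symm hab) v h4 h1) (lt_irrefl _)

theorem Inv.order (h : Inv S F own pos m) (hS : ∀ s ∈ S, ∀ t ∈ S, s <:+: t → s = t)
    {s t : List α} (hs : s ∈ S) (ht : t ∈ S) (hst : own t = own s)
    (h1 : pos s ≤ pos t) (h2 : pos t + t.length ≤ pos s + s.length) : t = s := by
  have ot := h.occ t ht
  rw [hst] at ot
  exact hS t ht s hs (ot.nested (h.occ s hs) h1 h2)

/-- The first string of a nonempty word. -/
theorem Inv.first (h : Inv S F own pos m) {X : List α} (hX : X ∈ F) (hne : 0 < X.length) :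
    ∃ a ∈ S, own a = X ∧ pos a = 0 := by
  obtain ⟨s, hs, h1, h2, -⟩ := h.cov X hX 0 hne
  exact ⟨s, hs, h1, by omega⟩

theorem Inv.last (h : Inv S F own pos m) {X : List α} (hX : X ∈ F) (hne : 0 < X.length) :
    ∃ b ∈ S, own b = X ∧ pos b + b.length = X.length := by
  obtain ⟨s, hs, h1, h2, h3⟩ := h.cov X hX (X.length - 1) (by omega)
  have := (h.occ s hs).le
  rw [h1] at this
  exact ⟨s, hs, h1, by omega⟩

/-- An overlap shorter than a word and at most the level is shorter than every string of the
word. -/
theorem Inv.short (h : Inv S F own pos m) (hS : ∀ s ∈ S, ∀ t ∈ S, s <:+: t → s = t)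
    {s : List α} (hs : s ∈ S) {k : ℕ} (hk : k ≤ m) (hkX : k < (own s).length) :
    k < s.length := by
  have hF := h.ownF s hs
  obtain ⟨a, haS, ha1, ha2⟩ := h.first hF (by omega)
  obtain ⟨b, hbS, hb1, hb2⟩ := h.last hF (by omega)
  by_cases hpos : 0 < pos s
  · obtain ⟨t, ht, t1, t2, t3⟩ := h.linkIn s hs a haS ha1 (by omega)
    by_contra hcon
    have := h.order hS ht hs t1.symm t2.le (by omega)
    rw [this] at t2
    omega
  · by_cases hpb : pos s < pos b
    · obtain ⟨t, ht, t1, t2, t3⟩ := h.linkOut s hs b hbS hb1 hpb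
      omega
    · have e := h.order hS hbS hs hb1.symm (by omega) (by have := (h.occ s hs).le; omega)
      rw [← e] at hb2
      omega

theorem gp_low {S F : Finset (List α)} {own : List α → List α} {pos : List α → ℕ} {k : ℕ}
    (hS : ∀ s ∈ S, ∀ t ∈ S, s <:+: t → s = t)
    (ownF : ∀ s ∈ S, own s ∈ F)
    (occ : ∀ s ∈ S, Occ s (own s) (pos s))
    (cov : ∀ X ∈ F, ∀ p < X.length, ∃ s ∈ S, own s = X ∧ pos s ≤ p ∧ p < pos s + s.length)
    (linkIn : ∀ s ∈ S, ∀ t ∈ S, own t = own s → pos t < pos s →
      ∃ t' ∈ S, own t' = own s ∧ pos t' < pos s ∧ pos s + k ≤ pos t' + t'.length)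
    (linkOut : ∀ s ∈ S, ∀ t ∈ S, own t = own s → pos s < pos t →
      ∃ t' ∈ S, own t' = own s ∧ pos s < pos t' ∧ pos t' + k ≤ pos s + s.length)
    {v a b : List α} (hv : v.length ≤ k) (ha : a ∈ S) (hb : b ∈ S)
    (hva : v <+: a) (hva' : v.length < a.length)
    (hin : ∀ t ∈ S, own t = own a → pos t < pos a → pos t + t.length < pos a + v.length)
    (hvb : v <:+ b) (hvb' : v.length < b.length)
    (hout : ∀ t ∈ S, own t = own b → pos b < pos t → pos b + b.length < pos t + v.length)
    (hov : ∀ X ∈ F, ∀ Y ∈ F, X ≠ Y → ∀ o : List α, o <:+ X → o <+: Y → o.length < v.length) :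
    own a = own b ∧ pos a ≤ pos b ∧ ∀ s ∈ S, own s = own a → pos a ≤ pos s → pos s < pos b →
      ∃ t ∈ S, own t = own a ∧ pos s < pos t ∧ pos t + v.length ≤ pos s + s.length := by
  have oa := occ a ha
  have ob := occ b hb
  have oal := oa.le
  have obl := ob.le
  have hposa : pos a = 0 := by
    by_contra hne
    obtain ⟨c, hc, c1, c2, c3⟩ := cov _ (ownF a ha) 0 (by omega)
    obtain ⟨t, ht, t1, t2, t3⟩ := linkIn a ha c hc c1 (by omega)
    have := hin t ht t1 t2
    omega
  have hendb : pos b + b.length = (own b).length := by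
    by_contra hne
    obtain ⟨c, hc, c1, c2, c3⟩ := cov _ (ownF b hb) ((own b).length - 1) (by omega)
    have hlt : pos b < pos c := by
      by_contra hcon
      have oc := occ c hc
      rw [c1] at oc
      have e := hS b hb c hc (ob.nested oc (by omega) (by omega))
      rw [← e] at c3
      omega
    obtain ⟨t, ht, t1, t2, t3⟩ := linkOut b hb c hc c1 hlt
    have := hout t ht t1 t2
    omega
  have hva2 : v <+: own a := by
    obtain ⟨l, r, hlr, hl⟩ := oa
    rw [hposa] at hl
    have hl0 : l = [] := List.length_eq_zero_iff.mp hl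
    subst hl0
    rw [hlr]
    exact hva.trans ⟨r, by simp⟩
  have hvb2 : v <:+ own b := by
    obtain ⟨l, r, hlr, hl⟩ := ob
    have hr0 : r = [] := by
      apply List.length_eq_zero_iff.mp
      have := congrArg List.length hlr
      simp only [List.length_append] at this
      omega
    subst hr0
    rw [hlr]
    exact hvb.trans ⟨l, by simp⟩
  have hab : own a = own b := by
    by_contra hne
    exact absurd (hov _ (ownF b hb) _ (ownF a ha) (Ne.symm hne) v hvb2 hva2) (lt_irrefl _)
  refine ⟨hab, by omega, ?_⟩
  intro s hs hsa _ hsb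
  obtain ⟨t, ht, t1, t2, t3⟩ := linkOut s hs b hb (by rw [← hab, hsa]) hsb
  exact ⟨t, ht, by rw [t1, hsa], t2, by omega⟩

theorem merge_data {X Y o : List α} (hoX : o <:+ X) (hoY : o <+: Y) :
    ∃ x y : List α, X = x ++ o ∧ Y = o ++ y ∧ X ++ Y.drop o.length = x ++ Y ∧
      X ++ Y.drop o.length = X ++ y := by
  obtain ⟨x, hx⟩ := hoX
  obtain ⟨y, hy⟩ := hoY
  refine ⟨x, y, hx.symm, hy.symm, ?_, ?_⟩
  · rw [← hy, ← hx]
    simp
  · rw [← hy]
    simp

open Classical in
theorem Inv.step (h : Inv S F own pos m) (hS : ∀ s ∈ S, ∀ t ∈ S, s <:+: t → s = t)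
    {F' : Finset (List α)} {X Y o : List α} (hX : X ∈ F) (hY : Y ∈ F) (hXY : X ≠ Y)
    (hoX : o <:+ X) (hoY : o <+: Y)
    (hmax : ∀ s' ∈ F, ∀ t' ∈ F, s' ≠ t' → ∀ o' : List α, o' <:+ s' → o' <+: t' →
      o'.length ≤ o.length)
    (hF' : ∀ W, W ∈ F' ↔ W = X ++ Y.drop o.length ∨ (W ∈ F ∧ W ≠ X ∧ W ≠ Y)) :
    ∃ own' pos' m', Inv S F' own' pos' m' := by
  obtain ⟨x, y, hx, hy, hZ1, hZ2⟩ := merge_data hoX hoY
  set Z := X ++ Y.drop o.length with hZ
  have hk : o.length ≤ m := h.maxov X hX Y hY hXY o hoX hoY
  have hkX : o.length < X.length := by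
    rcases Nat.lt_or_ge o.length X.length with h1 | h1
    · exact h1
    · exfalso
      have e := hoX.eq_of_length_le h1
      rw [e] at hoY
      exact hXY (h.ffree X hX Y hY hoY.isInfix)
  have hkY : o.length < Y.length := by
    rcases Nat.lt_or_ge o.length Y.length with h1 | h1
    · exact h1
    · exfalso
      have e := hoY.eq_of_length_le h1
      rw [e] at hoX
      exact hXY (h.ffree Y hY X hX hoX.isInfix).symm
  have lX : X.length = x.length + o.length := by rw [hx]; simp
  have lY : Y.length = o.length + y.length := by rw [hy]; simp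
  have lZ : Z.length = x.length + Y.length := by rw [hZ1]; simp
  have hXZ : X <+: Z := by rw [hZ2]; exact List.prefix_append _ _
  have hYZ : Y <:+ Z := by rw [hZ1]; exact List.suffix_append _ _
  have hZF : Z ∉ F := by
    intro hmem
    have := h.ffree X hX Z hmem hXZ.isInfix
    rw [← this] at lZ
    omega
  -- a word of `F` inside `Z` is `X` or `Y`
  have hcross : ∀ W ∈ F, W ≠ X → W ≠ Y → ¬ W <:+: Z := by
    rintro W hW hWX hWY ⟨l, r, hlr⟩
    rcases Nat.lt_or_ge l.length x.length with hl | hl
    · rcases Nat.lt_or_ge X.length (l.length + W.length) with hw | hw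
      · -- the final part of `X` from `l` is an initial part of `W`
        have e1 : X.drop l.length <+: W ++ r := by
          have : X.drop l.length <+: Z.drop l.length := by
            obtain ⟨q, hq⟩ := hXZ
            rw [← hq, List.drop_append_of_le_length (by omega)]
            exact List.prefix_append _ _
          rw [← hlr, List.append_assoc, List.drop_left] at this
          exact this
        have e2 : X.drop l.length <+: W := by
          refine List.prefix_of_prefix_length_le e1 (List.prefix_append _ _) ?_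
          rw [List.length_drop]
          omega
        have := hmax X hX W hW (Ne.symm hWX) _ (List.drop_suffix _ _) e2
        rw [List.length_drop] at this
        omega
      · -- inside `X`
        apply hWX
        apply h.ffree W hW X hX
        have e1 : l ++ W <+: X := by
          refine List.prefix_of_prefix_length_le ?_ hXZ (by simp only [List.length_append]; omega)
          rw [← hlr]
          exact List.prefix_append _ _
        exact (List.suffix_append l W).isInfix.trans e1.isInfix
    · -- inside `Y`
      apply hWY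
      apply h.ffree W hW Y hY
      have e1 : W ++ r <:+ Y := by
        refine List.suffix_of_suffix_length_le ?_ hYZ ?_
        · rw [← hlr, List.append_assoc]
          exact List.suffix_append _ _
        · have := congrArg List.length hlr
          simp only [List.length_append] at this ⊢
          omega
      exact (List.prefix_append W r).isInfix.trans e1.isInfix
  -- the new data
  set own' : List α → List α := fun s => if own s = X ∨ own s = Y then Z else own s with hown'
  set pos' : List α → ℕ := fun s => if own s = Y then x.length + pos s else pos s with hpos'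
  have hcX : ∀ s, own s = X → own' s = Z ∧ pos' s = pos s := by
    intro s hs
    simp only [hown', hpos', hs, true_or, if_true, if_neg hXY, and_self]
  have hcY : ∀ s, own s = Y → own' s = Z ∧ pos' s = x.length + pos s := by
    intro s hs
    simp only [hown', hpos', hs, or_true, if_true, and_self]
  have hcN : ∀ s, own s ≠ X → own s ≠ Y → own' s = own s ∧ pos' s = pos s := by
    intro s h1 h2
    simp only [hown', hpos', h1, h2, or_self, if_false, and_self]
  have tri : ∀ s, own s = X ∨ own s = Y ∨ (own s ≠ X ∧ own s ≠ Y) := by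
    intro s
    by_cases h1 : own s = X
    · exact Or.inl h1
    · by_cases h2 : own s = Y
      · exact Or.inr (Or.inl h2)
      · exact Or.inr (Or.inr ⟨h1, h2⟩)
  have hshX : ∀ s ∈ S, own s = X → o.length < s.length ∧ pos s < x.length ∧
      pos s + s.length ≤ x.length + o.length := by
    intro s hs hsX
    have h1 := h.short hS hs hk (by rw [hsX]; exact hkX)
    have h2 := (h.occ s hs).le
    rw [hsX] at h2
    omega
  have hshY : ∀ s ∈ S, own s = Y → o.length < s.length ∧
      pos s + s.length ≤ Y.length := by
    intro s hs hsY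
    have h1 := h.short hS hs hk (by rw [hsY]; exact hkY)
    have h2 := (h.occ s hs).le
    rw [hsY] at h2
    omega
  obtain ⟨fY, hfY, fY1, fY2⟩ := h.first hY (by omega)
  obtain ⟨fX, hfX, fX1, fX2⟩ := h.first hX (by omega)
  obtain ⟨lX', hlX, lX1, lX2⟩ := h.last hX (by omega)
  obtain ⟨lY', hlY, lY1, lY2⟩ := h.last hY (by omega)
  have memZ : Z ∈ F' := (hF' Z).mpr (Or.inl rfl)
  have ownF : ∀ s ∈ S, own' s ∈ F' := by
    intro s hs
    rcases tri s with h1 | h1 | ⟨h1, h2⟩
    · rw [(hcX s h1).1]; exact memZ
    · rw [(hcY s h1).1]; exact memZ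
    · rw [(hcN s h1 h2).1]; exact (hF' _).mpr (Or.inr ⟨h.ownF s hs, h1, h2⟩)
  have occ : ∀ s ∈ S, Occ s (own' s) (pos' s) := by
    intro s hs
    have o1 := h.occ s hs
    rcases tri s with h1 | h1 | ⟨h1, h2⟩
    · rw [(hcX s h1).1, (hcX s h1).2]
      obtain ⟨l, r, hlr, hl⟩ := o1
      refine ⟨l, r ++ y, ?_, hl⟩
      rw [hZ2, ← h1, hlr]
      simp
    · rw [(hcY s h1).1, (hcY s h1).2]
      obtain ⟨l, r, hlr, hl⟩ := o1
      refine ⟨x ++ l, r, ?_, by simp [hl]⟩
      rw [hZ1, ← h1, hlr]
      simp
    · rw [(hcN s h1 h2).1, (hcN s h1 h2).2]; exact o1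
  have cov : ∀ W ∈ F', ∀ p < W.length, ∃ s ∈ S, own' s = W ∧ pos' s ≤ p ∧
      p < pos' s + s.length := by
    intro W hW p hp
    rcases (hF' W).mp hW with h1 | ⟨h1, h2, h3⟩
    · subst h1
      by_cases hpX : p < X.length
      · obtain ⟨s, hs, s1, s2, s3⟩ := h.cov X hX p hpX
        have e := hcX s s1
        exact ⟨s, hs, e.1, by omega, by omega⟩
      · obtain ⟨s, hs, s1, s2, s3⟩ := h.cov Y hY (p - x.length) (by omega)
        have e := hcY s s1
        exact ⟨s, hs, e.1, by omega, by omega⟩
    · obtain ⟨s, hs, s1, s2, s3⟩ := h.cov W h1 p hp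
      have e := hcN s (by rw [s1]; exact h2) (by rw [s1]; exact h3)
      exact ⟨s, hs, by rw [e.1, s1], by omega, by omega⟩
  have linkIn : ∀ s ∈ S, ∀ t ∈ S, own' t = own' s → pos' t < pos' s →
      ∃ t' ∈ S, own' t' = own' s ∧ pos' t' < pos' s ∧
        pos' s + o.length ≤ pos' t' + t'.length := by
    intro s hs t ht hst hlt
    rcases tri s with h1 | h1 | ⟨h1, h2⟩
    · have e := hcX s h1
      have hpos : pos fX < pos s := by
        rcases tri t with g1 | g1 | ⟨g1, g2⟩
        · have := hcX t g1; omega
        · have := hcY t g1; omega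
        · have := hcN t g1 g2
          rw [this.1, e.1] at hst
          exact absurd (h.ownF t ht) (by rw [hst]; exact hZF)
      obtain ⟨t', ht', t1, t2, t3⟩ := h.linkIn s hs fX hfX (by rw [fX1, h1]) hpos
      have e' := hcX t' (by rw [t1, h1])
      exact ⟨t', ht', by rw [e'.1, e.1], by omega, by omega⟩
    · have e := hcY s h1
      by_cases hpos : 0 < pos s
      · obtain ⟨t', ht', t1, t2, t3⟩ := h.linkIn s hs fY hfY (by rw [fY1, h1]) (by omega)
        have e' := hcY t' (by rw [t1, h1])
        exact ⟨t', ht', by rw [e'.1, e.1], by omega, by omega⟩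
      · have e' := hcX lX' lX1
        have := hshX lX' hlX lX1
        exact ⟨lX', hlX, by rw [e'.1, e.1], by omega, by omega⟩
    · have e := hcN s h1 h2
      have g : own t = own s := by
        rcases tri t with g1 | g1 | ⟨g1, g2⟩
        · rw [(hcX t g1).1, e.1] at hst
          exact absurd (h.ownF s hs) (by rw [← hst]; exact hZF)
        · rw [(hcY t g1).1, e.1] at hst
          exact absurd (h.ownF s hs) (by rw [← hst]; exact hZF)
        · rw [(hcN t g1 g2).1, e.1] at hst
          exact hst
      have e2 := hcN t (by rw [g]; exact h1) (by rw [g]; exact h2)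
      obtain ⟨t', ht', t1, t2, t3⟩ := h.linkIn s hs t ht g (by omega)
      have e' := hcN t' (by rw [t1]; exact h1) (by rw [t1]; exact h2)
      exact ⟨t', ht', by rw [e'.1, e.1, t1], by omega, by omega⟩
  have linkOut : ∀ s ∈ S, ∀ t ∈ S, own' t = own' s → pos' s < pos' t →
      ∃ t' ∈ S, own' t' = own' s ∧ pos' s < pos' t' ∧
        pos' t' + o.length ≤ pos' s + s.length := by
    intro s hs t ht hst hlt
    rcases tri s with h1 | h1 | ⟨h1, h2⟩
    · have e := hcX s h1
      have hsh := hshX s hs h1
      by_cases hlast : pos s + s.length = X.length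
      · have e' := hcY fY fY1
        exact ⟨fY, hfY, by rw [e'.1, e.1], by omega, by omega⟩
      · have hpos : pos s < pos lX' := by
          by_contra hcon
          have := h.order hS hlX hs (by rw [h1, lX1]) (by omega) (by omega)
          rw [← this] at lX2
          omega
        obtain ⟨t', ht', t1, t2, t3⟩ := h.linkOut s hs lX' hlX (by rw [lX1, h1]) hpos
        have e' := hcX t' (by rw [t1, h1])
        exact ⟨t', ht', by rw [e'.1, e.1], by omega, by omega⟩
    · have e := hcY s h1
      have g : own t = Y := by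
        rcases tri t with g1 | g1 | ⟨g1, g2⟩
        · have := hcX t g1
          have := hshX t ht g1
          omega
        · exact g1
        · have := hcN t g1 g2
          rw [this.1, e.1] at hst
          exact absurd (h.ownF t ht) (by rw [hst]; exact hZF)
      have e2 := hcY t g
      obtain ⟨t', ht', t1, t2, t3⟩ := h.linkOut s hs t ht (by rw [g, h1]) (by omega)
      have e' := hcY t' (by rw [t1, h1])
      exact ⟨t', ht', by rw [e'.1, e.1], by omega, by omega⟩
    · have e := hcN s h1 h2
      have g : own t = own s := by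
        rcases tri t with g1 | g1 | ⟨g1, g2⟩
        · rw [(hcX t g1).1, e.1] at hst
          exact absurd (h.ownF s hs) (by rw [← hst]; exact hZF)
        · rw [(hcY t g1).1, e.1] at hst
          exact absurd (h.ownF s hs) (by rw [← hst]; exact hZF)
        · rw [(hcN t g1 g2).1, e.1] at hst
          exact hst
      have e2 := hcN t (by rw [g]; exact h1) (by rw [g]; exact h2)
      obtain ⟨t', ht', t1, t2, t3⟩ := h.linkOut s hs t ht g (by omega)
      have e' := hcN t' (by rw [t1]; exact h1) (by rw [t1]; exact h2)
      exact ⟨t', ht', by rw [e'.1, e.1, t1], by omega, by omega⟩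
  refine ⟨own', pos', o.length, ?_, ownF, occ, cov, linkIn, linkOut, ?_, ?_⟩
  · -- factor-free
    intro W1 hW1 W2 hW2 h12
    rcases (hF' W1).mp hW1 with h1 | ⟨h1, h2, h3⟩
    · rcases (hF' W2).mp hW2 with g1 | ⟨g1, g2, g3⟩
      · rw [h1, g1]
      · exfalso
        rw [h1] at h12
        exact g2 (h.ffree X hX W2 g1 (hXZ.isInfix.trans h12)).symm
    · rcases (hF' W2).mp hW2 with g1 | ⟨g1, g2, g3⟩
      · exfalso
        rw [g1] at h12
        exact hcross W1 h1 h2 h3 h12
      · exact h.ffree W1 h1 W2 g1 h12
  · -- overlaps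
    intro W1 hW1 W2 hW2 h12 q hq1 hq2
    rcases (hF' W1).mp hW1 with h1 | ⟨h1, h2, h3⟩
    · rcases (hF' W2).mp hW2 with g1 | ⟨g1, g2, g3⟩
      · exact absurd (h1.trans g1.symm) h12
      · rw [h1] at hq1
        rcases Nat.le_total q.length Y.length with hl | hl
        · exact hmax Y hY W2 g1 (Ne.symm g3) q
            (List.suffix_of_suffix_length_le hq1 hYZ hl) hq2
        · exfalso
          have := List.suffix_of_suffix_length_le hYZ hq1 hl
          exact g3 (h.ffree Y hY W2 g1 (this.isInfix.trans hq2.isInfix)).symm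
    · rcases (hF' W2).mp hW2 with g1 | ⟨g1, g2, g3⟩
      · rw [g1] at hq2
        rcases Nat.le_total q.length X.length with hl | hl
        · exact hmax W1 h1 X hX h2 q hq1
            (List.prefix_of_prefix_length_le hq2 hXZ hl)
        · exfalso
          have := List.prefix_of_prefix_length_le hXZ hq2 hl
          exact h2 (h.ffree X hX W1 h1 (this.isInfix.trans hq1.isInfix)).symm
      · exact hmax W1 h1 W2 g1 h12 q hq1 hq2
  · -- the greedy property
    intro v a b ha hb hva hva' hin hvb hvb' hout hov
    rcases Nat.lt_or_ge o.length v.length with hv | hv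
    · have hin' : ∀ t ∈ S, own t = own a → pos t < pos a →
          pos t + t.length < pos a + v.length := by
        intro t ht hta hlt
        rcases tri a with h1 | h1 | ⟨h1, h2⟩
        · have e1 := hcX a h1
          have e2 := hcX t (by rw [hta, h1])
          have := hin t ht (by rw [e1.1, e2.1]) (by omega)
          omega
        · have e1 := hcY a h1
          have e2 := hcY t (by rw [hta, h1])
          have := hin t ht (by rw [e1.1, e2.1]) (by omega)
          omega
        · have e1 := hcN a h1 h2
          have e2 := hcN t (by rw [hta]; exact h1) (by rw [hta]; exact h2)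
          have := hin t ht (by rw [e1.1, e2.1, hta]) (by omega)
          omega
      have hout' : ∀ t ∈ S, own t = own b → pos b < pos t →
          pos b + b.length < pos t + v.length := by
        intro t ht hta hlt
        rcases tri b with h1 | h1 | ⟨h1, h2⟩
        · have e1 := hcX b h1
          have e2 := hcX t (by rw [hta, h1])
          have := hout t ht (by rw [e1.1, e2.1]) (by omega)
          omega
        · have e1 := hcY b h1
          have e2 := hcY t (by rw [hta, h1])
          have := hout t ht (by rw [e1.1, e2.1]) (by omega)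
          omega
        · have e1 := hcN b h1 h2
          have e2 := hcN t (by rw [hta]; exact h1) (by rw [hta]; exact h2)
          have := hout t ht (by rw [e1.1, e2.1, hta]) (by omega)
          omega
      obtain ⟨hab, hpab, hlinks⟩ := h.gp v a b ha hb hva hva' hin' hvb hvb' hout'
        (fun W1 hW1 W2 hW2 h12 q hq1 hq2 =>
          lt_of_le_of_lt (hmax W1 hW1 W2 hW2 h12 q hq1 hq2) hv)
      rcases tri a with h1 | h1 | ⟨h1, h2⟩
      · have e1 := hcX a h1
        have e2 := hcX b (by rw [← hab, h1])
        refine ⟨by rw [e1.1, e2.1], by omega, ?_⟩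
        intro s hs hsa hs1 hs2
        have gs : own s = own a := by
          rcases tri s with g1 | g1 | ⟨g1, g2⟩
          · rw [g1, h1]
          · have := hcY s g1
            have := hshX b hb (by rw [← hab, h1])
            omega
          · have := hcN s g1 g2
            rw [this.1, e1.1] at hsa
            exact absurd (h.ownF s hs) (by rw [hsa]; exact hZF)
        have e3 := hcX s (by rw [gs, h1])
        obtain ⟨t, ht, t1, t2, t3⟩ := hlinks s hs gs (by omega) (by omega)
        have e4 := hcX t (by rw [t1, h1])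
        exact ⟨t, ht, by rw [e4.1, e1.1], by omega, by omega⟩
      · have e1 := hcY a h1
        have e2 := hcY b (by rw [← hab, h1])
        refine ⟨by rw [e1.1, e2.1], by omega, ?_⟩
        intro s hs hsa hs1 hs2
        have gs : own s = own a := by
          rcases tri s with g1 | g1 | ⟨g1, g2⟩
          · have := hcX s g1
            have := hshX s hs g1
            omega
          · rw [g1, h1]
          · have := hcN s g1 g2
            rw [this.1, e1.1] at hsa
            exact absurd (h.ownF s hs) (by rw [hsa]; exact hZF)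
        have e3 := hcY s (by rw [gs, h1])
        obtain ⟨t, ht, t1, t2, t3⟩ := hlinks s hs gs (by omega) (by omega)
        have e4 := hcY t (by rw [t1, h1])
        exact ⟨t, ht, by rw [e4.1, e1.1], by omega, by omega⟩
      · have e1 := hcN a h1 h2
        have e2 := hcN b (by rw [← hab]; exact h1) (by rw [← hab]; exact h2)
        refine ⟨by rw [e1.1, e2.1, hab], by omega, ?_⟩
        intro s hs hsa hs1 hs2
        have gs : own s = own a := by
          rcases tri s with g1 | g1 | ⟨g1, g2⟩
          · rw [(hcX s g1).1, e1.1] at hsa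
            exact absurd (h.ownF a ha) (by rw [← hsa]; exact hZF)
          · rw [(hcY s g1).1, e1.1] at hsa
            exact absurd (h.ownF a ha) (by rw [← hsa]; exact hZF)
          · rw [(hcN s g1 g2).1, e1.1] at hsa
            exact hsa
        have e3 := hcN s (by rw [gs]; exact h1) (by rw [gs]; exact h2)
        obtain ⟨t, ht, t1, t2, t3⟩ := hlinks s hs gs (by omega) (by omega)
        have e4 := hcN t (by rw [t1]; exact h1) (by rw [t1]; exact h2)
        exact ⟨t, ht, by rw [e4.1, e1.1, t1], by omega, by omega⟩
    · exact gp_low hS ownF occ cov linkIn linkOut hv ha hb hva hva' hin hvb hvb' hout hov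

end Vale.Agent.P333
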