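import Vale.Agent.P333.Model

/-!
P333: a cost model for explicit list programs.

A program computing a value of type `α` is a term of type `Tick α`: the value together with the
number of elementary steps that the program has made. Sequential composition (`bind`) adds the
steps. Letters are natural numbers; comparing two letters costs one step. Every word or list
primitive below is a structural recursion that pays one step per cell it touches; the programs of
the hand-in are built from these primitives only.
-/

namespace Vale.Agent.P333

namespace Tick

variable {α β γ : Type}

instance : Monad Tick where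
  pure := ret
  bind := bind

@[simp] theorem pure_val (a : α) : (pure a : Tick α).val = a := rfl
@[simp] theorem pure_time (a : α) : (pure a : Tick α).time = 0 := rfl
@[simp] theorem ret_val (a : α) : (ret a).val = a := rfl
@[simp] theorem ret_time (a : α) : (ret a).time = 0 := rfl
@[simp] theorem pay_val (k : ℕ) (a : α) : (pay k a).val = a := rfl
@[simp] theorem pay_time (k : ℕ) (a : α) : (pay k a).time = k := rfl
@[simp] theorem bind_val (x : Tick α) (f : α → Tick β) : (x >>= f).val = (f x.val).val := rfl
@[simp] theorem bind_time (x : Tick α) (f : α → Tick β) :
    (x >>= f).time = x.time + (f x.val).time := rfl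
@[simp] theorem bind_val' (x : Tick α) (f : α → Tick β) : (x.bind f).val = (f x.val).val := rfl
@[simp] theorem bind_time' (x : Tick α) (f : α → Tick β) :
    (x.bind f).time = x.time + (f x.val).time := rfl

end Tick

open Tick

variable {α β : Type}

/-! ### words -/

/-- is `a` a prefix of `b`? one step per letter that is compared -/
def isPrefixT : List ℕ → List ℕ → Tick Bool
  | [], _ => pay 1 true
  | _ :: _, [] => pay 1 false
  | x :: a, y :: b => if x = y then (isPrefixT a b).bind (pay 1) else pay 1 false

/-- are the words equal? -/
def eqT : List ℕ → List ℕ → Tick Bool
  | [], [] => pay 1 true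
  | [], _ :: _ => pay 1 false
  | _ :: _, [] => pay 1 false
  | x :: a, y :: b => if x = y then (eqT a b).bind (pay 1) else pay 1 false

/-- is `a` a factor (block of consecutive letters) of `b`? naive search -/
def isInfixT (a : List ℕ) : List ℕ → Tick Bool
  | [] => isPrefixT a []
  | y :: b => (isPrefixT a (y :: b)).bind fun p =>
      if p then pay 1 true else (isInfixT a b).bind (pay 1)

/-- the length of a list, one step per cell -/
def lengthT : List α → Tick ℕ
  | [] => pay 1 0
  | _ :: l => (lengthT l).bind fun n => pay 1 (n + 1)

/-- drop the first `n` cells -/
def dropT : ℕ → List α → Tick (List α)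
  | 0, l => pay 1 l
  | _ + 1, [] => pay 1 []
  | n + 1, _ :: l => (dropT n l).bind (pay 1)

/-- the first `n` cells -/
def takeT : ℕ → List α → Tick (List α)
  | 0, _ => pay 1 []
  | _ + 1, [] => pay 1 []
  | n + 1, x :: l => (takeT n l).bind fun r => pay 1 (x :: r)

/-- concatenation, one step per cell of the first list -/
def appendT : List α → List α → Tick (List α)
  | [], l => pay 1 l
  | x :: a, l => (appendT a l).bind fun r => pay 1 (x :: r)

/-- reversal (naive) -/
def reverseT : List α → Tick (List α)
  | [] => pay 1 []
  | x :: l => (reverseT l).bind fun r => appendT r [x]

/-- comparison of two numbers that count cells (unary), `a ≤ b` -/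
def leT : ℕ → ℕ → Tick Bool
  | 0, _ => pay 1 true
  | _ + 1, 0 => pay 1 false
  | a + 1, b + 1 => (leT a b).bind (pay 1)

/-- `0, 1, ..., n - 1` in decreasing order -/
def rangeT : ℕ → Tick (List ℕ)
  | 0 => pay 1 []
  | n + 1 => (rangeT n).bind fun r => pay 1 (n :: r)

/-- the first element that satisfies the test; the rest of the list is not looked at -/
def findT (p : α → Tick Bool) : List α → Tick (Option α)
  | [] => pay 1 none
  | x :: l => (p x).bind fun b => if b then pay 1 (some x) else (findT p l).bind (pay 1)

/-- the first element that satisfies the test, together with the other elements -/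
def extractT (p : α → Tick Bool) : List α → Tick (Option (α × List α))
  | [] => pay 1 none
  | x :: l => (p x).bind fun b => if b then pay 1 (some (x, l)) else
      (extractT p l).bind fun r => match r with
        | none => pay 1 none
        | some (y, l') => pay 1 (some (y, x :: l'))

/-- do all elements satisfy the test? -/
def allT (p : α → Tick Bool) : List α → Tick Bool
  | [] => pay 1 true
  | x :: l => (p x).bind fun b => if b then (allT p l).bind (pay 1) else pay 1 false

/-- does some element satisfy the test? -/
def anyT (p : α → Tick Bool) : List α → Tick Bool
  | [] => pay 1 false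
  | x :: l => (p x).bind fun b => if b then pay 1 true else (anyT p l).bind (pay 1)

/-- apply a program to all elements -/
def mapT (f : α → Tick β) : List α → Tick (List β)
  | [] => pay 1 []
  | x :: l => (f x).bind fun y => (mapT f l).bind fun r => pay 1 (y :: r)

/-- keep the elements that satisfy the test -/
def filterT (p : α → Tick Bool) : List α → Tick (List α)
  | [] => pay 1 []
  | x :: l => (p x).bind fun b => (filterT p l).bind fun r => if b then pay 1 (x :: r) else pay 1 r

/-- the first defined value -/
def findMapT (f : α → Tick (Option β)) : List α → Tick (Option β)
  | [] => pay 1 none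
  | x :: l => (f x).bind fun y => match y with
      | some b => pay 1 (some b)
      | none => (findMapT f l).bind (pay 1)

/-! ### values -/

@[simp] theorem isPrefixT_val (a b : List ℕ) : (isPrefixT a b).val = decide (a <+: b) := by
  induction a generalizing b with
  | nil => simp [isPrefixT]
  | cons x a ih =>
    cases b with
    | nil => simp [isPrefixT]
    | cons y b =>
      unfold isPrefixT
      split_ifs with h
      · simp [ih, h]
      · simp [h]

@[simp] theorem eqT_val (a b : List ℕ) : (eqT a b).val = decide (a = b) := by
  induction a generalizing b with
  | nil => cases b <;> simp [eqT]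
  | cons x a ih =>
    cases b with
    | nil => simp [eqT]
    | cons y b =>
      unfold eqT
      split_ifs with h
      · simp [ih, h]
      · simp [h]

@[simp] theorem isInfixT_val (a b : List ℕ) : (isInfixT a b).val = decide (a <:+: b) := by
  induction b with
  | nil => simp [isInfixT]
  | cons y b ih =>
    unfold isInfixT
    simp only [bind_val', isPrefixT_val]
    split_ifs with h
    · simp only [decide_eq_true_eq] at h
      simp [h.isInfix]
    · simp only [decide_eq_true_eq] at h
      simp only [bind_val', pay_val, ih, List.infix_cons_iff, h, false_or]

@[simp] theorem lengthT_val (l : List α) : (lengthT l).val = l.length := by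
  induction l with
  | nil => simp [lengthT]
  | cons x l ih => simp [lengthT, ih]

@[simp] theorem dropT_val (n : ℕ) (l : List α) : (dropT n l).val = l.drop n := by
  induction n generalizing l with
  | zero => simp [dropT]
  | succ n ih => cases l <;> simp [dropT, ih]

@[simp] theorem takeT_val (n : ℕ) (l : List α) : (takeT n l).val = l.take n := by
  induction n generalizing l with
  | zero => simp [takeT]
  | succ n ih => cases l <;> simp [takeT, ih]

@[simp] theorem appendT_val (a b : List α) : (appendT a b).val = a ++ b := by
  induction a with
  | nil => simp [appendT]
  | cons x a ih => simp [appendT, ih]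

@[simp] theorem reverseT_val (a : List α) : (reverseT a).val = a.reverse := by
  induction a with
  | nil => simp [reverseT]
  | cons x a ih => simp [reverseT, ih]

@[simp] theorem leT_val (a b : ℕ) : (leT a b).val = decide (a ≤ b) := by
  induction a generalizing b with
  | zero => simp [leT]
  | succ a ih => cases b <;> simp [leT, ih]

@[simp] theorem mem_rangeT (n i : ℕ) : i ∈ (rangeT n).val ↔ i < n := by
  induction n with
  | zero => simp [rangeT]
  | succ n ih =>
    simp only [rangeT, bind_val', pay_val, List.mem_cons, ih]
    omega

@[simp] theorem rangeT_length (n : ℕ) : (rangeT n).val.length = n := by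
  induction n with
  | zero => simp [rangeT]
  | succ n ih => simp [rangeT, ih]

@[simp] theorem findT_val (p : α → Tick Bool) (l : List α) :
    (findT p l).val = l.find? (fun x => (p x).val) := by
  induction l with
  | nil => simp [findT]
  | cons x l ih =>
    unfold findT
    simp only [bind_val', List.find?_cons]
    cases h : (p x).val <;> simp [ih]

@[simp] theorem allT_val (p : α → Tick Bool) (l : List α) :
    (allT p l).val = l.all (fun x => (p x).val) := by
  induction l with
  | nil => simp [allT]
  | cons x l ih =>
    unfold allT
    cases h : (p x).val <;> simp [ih, h]

@[simp] theorem anyT_val (p : α → Tick Bool) (l : List α) :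
    (anyT p l).val = l.any (fun x => (p x).val) := by
  induction l with
  | nil => simp [anyT]
  | cons x l ih =>
    unfold anyT
    cases h : (p x).val <;> simp [ih, h]

@[simp] theorem mapT_val (f : α → Tick β) (l : List α) :
    (mapT f l).val = l.map (fun x => (f x).val) := by
  induction l with
  | nil => simp [mapT]
  | cons x l ih => simp [mapT, ih]

@[simp] theorem filterT_val (p : α → Tick Bool) (l : List α) :
    (filterT p l).val = l.filter (fun x => (p x).val) := by
  induction l with
  | nil => simp [filterT]
  | cons x l ih =>
    unfold filterT
    cases h : (p x).val <;> simp [ih, h]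

/-- what `extractT` finds -/
theorem extractT_some {p : α → Tick Bool} {l : List α} {x : α} {r : List α}
    (h : (extractT p l).val = some (x, r)) : (p x).val = true ∧ l.Perm (x :: r) := by
  induction l generalizing x r with
  | nil => simp [extractT] at h
  | cons y l ih =>
    unfold extractT at h
    simp only [bind_val'] at h
    split_ifs at h with hb
    · simp only [pay_val, Option.some.injEq, Prod.mk.injEq] at h
      obtain ⟨rfl, rfl⟩ := h
      exact ⟨hb, List.Perm.refl _⟩
    · simp only [bind_val'] at h
      cases hc : (extractT p l).val with
      | none => simp [hc] at h
      | some q =>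
        obtain ⟨z, l'⟩ := q
        simp only [hc, pay_val, Option.some.injEq, Prod.mk.injEq] at h
        obtain ⟨rfl, rfl⟩ := h
        obtain ⟨h1, h2⟩ := ih hc
        exact ⟨h1, (h2.cons y).trans (List.Perm.swap _ _ _)⟩

theorem extractT_none {p : α → Tick Bool} {l : List α} (h : (extractT p l).val = none) :
    ∀ x ∈ l, (p x).val = false := by
  induction l with
  | nil => simp
  | cons y l ih =>
    unfold extractT at h
    simp only [bind_val'] at h
    split_ifs at h with hb
    · simp at h
    · simp only [bind_val'] at h
      cases hc : (extractT p l).val with
      | none =>
        intro x hx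
        rcases List.mem_cons.mp hx with rfl | hx
        · simpa using hb
        · exact ih hc x hx
      | some q =>
        obtain ⟨z, l'⟩ := q
        simp [hc] at h

theorem findMapT_some {f : α → Tick (Option β)} {l : List α} {b : β}
    (h : (findMapT f l).val = some b) : ∃ x ∈ l, (f x).val = some b := by
  induction l with
  | nil => simp [findMapT] at h
  | cons y l ih =>
    unfold findMapT at h
    simp only [bind_val'] at h
    cases hc : (f y).val with
    | none =>
      simp only [hc, bind_val', pay_val] at h
      obtain ⟨x, hx, h2⟩ := ih h
      exact ⟨x, List.mem_cons_of_mem _ hx, h2⟩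
    | some c =>
      simp only [hc, pay_val, Option.some.injEq] at h
      subst h
      exact ⟨y, List.mem_cons_self, hc⟩

theorem findMapT_none {f : α → Tick (Option β)} {l : List α}
    (h : (findMapT f l).val = none) : ∀ x ∈ l, (f x).val = none := by
  induction l with
  | nil => simp
  | cons y l ih =>
    unfold findMapT at h
    simp only [bind_val'] at h
    cases hc : (f y).val with
    | none =>
      simp only [hc, bind_val', pay_val] at h
      intro x hx
      rcases List.mem_cons.mp hx with rfl | hx
      · exact hc
      · exact ih h x hx
    | some c => simp [hc] at h

/-! ### running times -/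

theorem isPrefixT_time (a b : List ℕ) : (isPrefixT a b).time ≤ a.length + 1 := by
  induction a generalizing b with
  | nil => simp [isPrefixT]
  | cons x a ih =>
    cases b with
    | nil => simp [isPrefixT]
    | cons y b =>
      unfold isPrefixT
      split_ifs with h
      · simpa using ih b
      · simp

theorem eqT_time (a b : List ℕ) : (eqT a b).time ≤ a.length + 1 := by
  induction a generalizing b with
  | nil => cases b <;> simp [eqT]
  | cons x a ih =>
    cases b with
    | nil => simp [eqT]
    | cons y b =>
      unfold eqT
      split_ifs with h
      · simpa using ih b
      · simp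

theorem isInfixT_time (a b : List ℕ) :
    (isInfixT a b).time ≤ (a.length + 2) * (b.length + 1) := by
  induction b with
  | nil =>
    unfold isInfixT
    have := isPrefixT_time a []
    simp only [List.length_nil, zero_add, mul_one]
    omega
  | cons y b ih =>
    unfold isInfixT
    simp only [bind_time']
    have h1 := isPrefixT_time a (y :: b)
    have h2 : (if (isPrefixT a (y :: b)).val = true then pay 1 true
        else (isInfixT a b).bind (pay 1)).time ≤ (isInfixT a b).time + 1 := by
      split_ifs <;> simp
    have h3 : (a.length + 2) * ((y :: b).length + 1) =
        (a.length + 2) * (b.length + 1) + (a.length + 2) := by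
      rw [List.length_cons]; ring
    rw [h3]
    omega

theorem lengthT_time (l : List α) : (lengthT l).time = l.length + 1 := by
  induction l with
  | nil => simp [lengthT]
  | cons x l ih => simp [lengthT, ih]

theorem dropT_time (n : ℕ) (l : List α) : (dropT n l).time ≤ l.length + 1 := by
  induction n generalizing l with
  | zero => simp [dropT]
  | succ n ih =>
    cases l with
    | nil => simp [dropT]
    | cons x l => simpa [dropT] using ih l

theorem takeT_time (n : ℕ) (l : List α) : (takeT n l).time ≤ l.length + 1 := by
  induction n generalizing l with
  | zero => simp [takeT]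
  | succ n ih =>
    cases l with
    | nil => simp [takeT]
    | cons x l => simpa [takeT] using ih l

theorem appendT_time (a b : List α) : (appendT a b).time = a.length + 1 := by
  induction a with
  | nil => simp [appendT]
  | cons x a ih => simp [appendT, ih]

theorem reverseT_time (a : List α) : (reverseT a).time ≤ (a.length + 1) ^ 2 := by
  induction a with
  | nil => simp [reverseT]
  | cons x a ih =>
    simp only [reverseT, bind_time', reverseT_val, appendT_time, List.length_reverse,
      List.length_cons]
    nlinarith [ih]

theorem leT_time (a b : ℕ) : (leT a b).time ≤ a + 1 := by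
  induction a generalizing b with
  | zero => simp [leT]
  | succ a ih =>
    cases b with
    | zero => simp [leT]
    | succ b => simpa [leT] using ih b

theorem leT_time' (a b : ℕ) : (leT a b).time ≤ b + 1 := by
  induction a generalizing b with
  | zero => simp [leT]
  | succ a ih =>
    cases b with
    | zero => simp [leT]
    | succ b => simpa [leT] using ih b

theorem rangeT_time (n : ℕ) : (rangeT n).time = n + 1 := by
  induction n with
  | zero => simp [rangeT]
  | succ n ih => simp [rangeT, ih]

theorem findT_time {p : α → Tick Bool} {l : List α} {c : ℕ} (h : ∀ x ∈ l, (p x).time ≤ c) :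
    (findT p l).time ≤ l.length * (c + 1) + 1 := by
  induction l with
  | nil => simp [findT]
  | cons x l ih =>
    unfold findT
    simp only [bind_time']
    have h1 := h x List.mem_cons_self
    have h2 := ih fun y hy => h y (List.mem_cons_of_mem _ hy)
    have h3 : (if (p x).val = true then pay 1 (some x) else (findT p l).bind (pay 1)).time ≤
        (findT p l).time + 1 := by
      split_ifs <;> simp
    have h4 : (x :: l).length * (c + 1) + 1 = l.length * (c + 1) + 1 + (c + 1) := by
      rw [List.length_cons]; ring
    rw [h4]
    omega

theorem allT_time {p : α → Tick Bool} {l : List α} {c : ℕ} (h : ∀ x ∈ l, (p x).time ≤ c) :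
    (allT p l).time ≤ l.length * (c + 1) + 1 := by
  induction l with
  | nil => simp [allT]
  | cons x l ih =>
    unfold allT
    simp only [bind_time']
    have h1 := h x List.mem_cons_self
    have h2 := ih fun y hy => h y (List.mem_cons_of_mem _ hy)
    have h3 : (if (p x).val = true then (allT p l).bind (pay 1) else pay 1 false).time ≤
        (allT p l).time + 1 := by
      split_ifs <;> simp
    have h4 : (x :: l).length * (c + 1) + 1 = l.length * (c + 1) + 1 + (c + 1) := by
      rw [List.length_cons]; ring
    rw [h4]
    omega

theorem anyT_time {p : α → Tick Bool} {l : List α} {c : ℕ} (h : ∀ x ∈ l, (p x).time ≤ c) :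
    (anyT p l).time ≤ l.length * (c + 1) + 1 := by
  induction l with
  | nil => simp [anyT]
  | cons x l ih =>
    unfold anyT
    simp only [bind_time']
    have h1 := h x List.mem_cons_self
    have h2 := ih fun y hy => h y (List.mem_cons_of_mem _ hy)
    have h3 : (if (p x).val = true then pay 1 true else (anyT p l).bind (pay 1)).time ≤
        (anyT p l).time + 1 := by
      split_ifs <;> simp
    have h4 : (x :: l).length * (c + 1) + 1 = l.length * (c + 1) + 1 + (c + 1) := by
      rw [List.length_cons]; ring
    rw [h4]
    omega

theorem mapT_time {f : α → Tick β} {l : List α} {c : ℕ} (h : ∀ x ∈ l, (f x).time ≤ c) :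
    (mapT f l).time ≤ l.length * (c + 1) + 1 := by
  induction l with
  | nil => simp [mapT]
  | cons x l ih =>
    simp only [mapT, bind_time', pay_time]
    have h1 := h x List.mem_cons_self
    have h2 := ih fun y hy => h y (List.mem_cons_of_mem _ hy)
    have h4 : (x :: l).length * (c + 1) + 1 = l.length * (c + 1) + 1 + (c + 1) := by
      rw [List.length_cons]; ring
    rw [h4]
    omega

theorem filterT_time {p : α → Tick Bool} {l : List α} {c : ℕ} (h : ∀ x ∈ l, (p x).time ≤ c) :
    (filterT p l).time ≤ l.length * (c + 1) + 1 := by
  induction l with
  | nil => simp [filterT]
  | cons x l ih =>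
    simp only [filterT, bind_time']
    have h1 := h x List.mem_cons_self
    have h2 := ih fun y hy => h y (List.mem_cons_of_mem _ hy)
    have h3 : (if (p x).val = true then pay 1 (x :: (filterT p l).val)
        else pay 1 (filterT p l).val).time = 1 := by
      split_ifs <;> simp
    have h4 : (x :: l).length * (c + 1) + 1 = l.length * (c + 1) + 1 + (c + 1) := by
      rw [List.length_cons]; ring
    rw [h4, h3]
    omega

theorem extractT_time {p : α → Tick Bool} {l : List α} {c : ℕ} (h : ∀ x ∈ l, (p x).time ≤ c) :
    (extractT p l).time ≤ l.length * (c + 1) + 1 := by
  induction l with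
  | nil => simp [extractT]
  | cons x l ih =>
    unfold extractT
    simp only [bind_time']
    have h1 := h x List.mem_cons_self
    have h2 := ih fun y hy => h y (List.mem_cons_of_mem _ hy)
    have h4 : (x :: l).length * (c + 1) + 1 = l.length * (c + 1) + 1 + (c + 1) := by
      rw [List.length_cons]; ring
    rw [h4]
    split_ifs with hb
    · simp; omega
    · simp only [bind_time']
      rcases (extractT p l).val with _ | ⟨y, l'⟩ <;> simp <;> omega

theorem findMapT_time {f : α → Tick (Option β)} {l : List α} {c : ℕ}
    (h : ∀ x ∈ l, (f x).time ≤ c) : (findMapT f l).time ≤ l.length * (c + 1) + 1 := by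
  induction l with
  | nil => simp [findMapT]
  | cons x l ih =>
    unfold findMapT
    simp only [bind_time']
    have h1 := h x List.mem_cons_self
    have h2 := ih fun y hy => h y (List.mem_cons_of_mem _ hy)
    have h4 : (x :: l).length * (c + 1) + 1 = l.length * (c + 1) + 1 + (c + 1) := by
      rw [List.length_cons]; ring
    rw [h4]
    rcases (f x).val with _ | b
    · simp; omega
    · simp; omega

end Vale.Agent.P333
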