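import Vale.Agent.P333.Tick

/-!
P333: ticked programs, second part: counters, random access in lists, folds, sorting.

Numbers that occur in the programs are counters; they are charged in unary: an operation on `a`
and `b` costs `a + b + 1` steps (a product costs `a * b + a + b + 1`).
-/

namespace Vale.Agent.P333

open Tick

variable {α β γ : Type}

/-! ### counters -/

/-- `a + b` -/
def addT (a b : ℕ) : Tick ℕ := pay (a + b + 1) (a + b)

/-- `a - b` (truncated) -/
def subT (a b : ℕ) : Tick ℕ := pay (a + b + 1) (a - b)

/-- `a * b` -/
def mulT (a b : ℕ) : Tick ℕ := pay (a * b + a + b + 1) (a * b)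

/-- `a ≤ b`? -/
def cmpT (a b : ℕ) : Tick Bool := pay (a + b + 1) (decide (a ≤ b))

/-- `a = b`? -/
def eqNT (a b : ℕ) : Tick Bool := pay (a + b + 1) (decide (a = b))

@[simp] theorem addT_val (a b : ℕ) : (addT a b).val = a + b := rfl
@[simp] theorem subT_val (a b : ℕ) : (subT a b).val = a - b := rfl
@[simp] theorem mulT_val (a b : ℕ) : (mulT a b).val = a * b := rfl
@[simp] theorem cmpT_val (a b : ℕ) : (cmpT a b).val = decide (a ≤ b) := rfl
@[simp] theorem eqNT_val (a b : ℕ) : (eqNT a b).val = decide (a = b) := rfl
@[simp] theorem addT_time (a b : ℕ) : (addT a b).time = a + b + 1 := rfl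
@[simp] theorem subT_time (a b : ℕ) : (subT a b).time = a + b + 1 := rfl
@[simp] theorem mulT_time (a b : ℕ) : (mulT a b).time = a * b + a + b + 1 := rfl
@[simp] theorem cmpT_time (a b : ℕ) : (cmpT a b).time = a + b + 1 := rfl
@[simp] theorem eqNT_time (a b : ℕ) : (eqNT a b).time = a + b + 1 := rfl

/-! ### lists -/

/-- the entry number `i` of a list (default `d`), one step per cell passed -/
def getT : List α → ℕ → α → Tick α
  | [], _, d => pay 1 d
  | x :: _, 0, _ => pay 1 x
  | _ :: l, i + 1, d => (getT l i d).bind (pay 1)

/-- replace the entry number `i` -/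
def setT : List α → ℕ → α → Tick (List α)
  | [], _, _ => pay 1 []
  | _ :: l, 0, y => pay 1 (y :: l)
  | x :: l, i + 1, y => (setT l i y).bind fun r => pay 1 (x :: r)

/-- left fold -/
def foldlT (f : β → α → Tick β) : β → List α → Tick β
  | b, [] => pay 1 b
  | b, x :: l => (f b x).bind fun c => (foldlT f c l).bind (pay 1)

/-- auxiliary loop for `rangeUpT` -/
def rangeUpT.go : ℕ → List ℕ → Tick (List ℕ)
  | 0, acc => pay 1 acc
  | n + 1, acc => (rangeUpT.go n (n :: acc)).bind (pay 1)

/-- the list `0, 1, ..., n - 1` -/
def rangeUpT (n : ℕ) : Tick (List ℕ) := rangeUpT.go n []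

/-- a list of `n` copies -/
def replicateT : ℕ → α → Tick (List α)
  | 0, _ => pay 1 []
  | n + 1, a => (replicateT n a).bind fun r => pay 1 (a :: r)

/-- the sum of a list of counters -/
def sumT : List ℕ → Tick ℕ
  | [] => pay 1 0
  | x :: l => (sumT l).bind fun s => addT x s

/-- concatenation of a list of lists -/
def flattenT : List (List α) → Tick (List α)
  | [] => pay 1 []
  | x :: l => (flattenT l).bind fun r => appendT x r

/-- insertion into a sorted list (`le` is the comparison) -/
def insertT (le : α → α → Tick Bool) (a : α) : List α → Tick (List α)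
  | [] => pay 1 [a]
  | b :: l => (le a b).bind fun c => if c then pay 1 (a :: b :: l) else
      (insertT le a l).bind fun r => pay 1 (b :: r)

/-- insertion sort -/
def sortT (le : α → α → Tick Bool) : List α → Tick (List α)
  | [] => pay 1 []
  | a :: l => (sortT le l).bind fun r => insertT le a r

/-- `n` rounds of the same program -/
def iterT (f : β → Tick β) : ℕ → β → Tick β
  | 0, b => pay 1 b
  | n + 1, b => (f b).bind fun c => (iterT f n c).bind (pay 1)

/-! ### values -/

@[simp] theorem getT_val (l : List α) (i : ℕ) (d : α) : (getT l i d).val = l.getD i d := by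
  induction l generalizing i with
  | nil => simp [getT]
  | cons x l ih => cases i <;> simp [getT, ih]

@[simp] theorem setT_val (l : List α) (i : ℕ) (y : α) : (setT l i y).val = l.set i y := by
  induction l generalizing i with
  | nil => simp [setT]
  | cons x l ih => cases i <;> simp [setT, ih]

@[simp] theorem foldlT_val (f : β → α → Tick β) (b : β) (l : List α) :
    (foldlT f b l).val = l.foldl (fun b x => (f b x).val) b := by
  induction l generalizing b with
  | nil => simp [foldlT]
  | cons x l ih => simp [foldlT, ih]

theorem rangeUpT.go_val (n : ℕ) (acc : List ℕ) :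
    (rangeUpT.go n acc).val = List.range n ++ acc := by
  induction n generalizing acc with
  | zero => simp [rangeUpT.go]
  | succ n ih => simp [rangeUpT.go, ih, List.range_succ]

@[simp] theorem rangeUpT_val (n : ℕ) : (rangeUpT n).val = List.range n := by
  simp [rangeUpT, rangeUpT.go_val]

@[simp] theorem replicateT_val (n : ℕ) (a : α) : (replicateT n a).val = List.replicate n a := by
  induction n with
  | zero => simp [replicateT]
  | succ n ih => simp [replicateT, ih, List.replicate_succ]

@[simp] theorem sumT_val (l : List ℕ) : (sumT l).val = l.sum := by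
  induction l with
  | nil => simp [sumT]
  | cons x l ih => simp [sumT, ih]

@[simp] theorem flattenT_val (l : List (List α)) : (flattenT l).val = l.flatten := by
  induction l with
  | nil => simp [flattenT]
  | cons x l ih => simp [flattenT, ih]

@[simp] theorem insertT_val (le : α → α → Tick Bool) (a : α) (l : List α) :
    (insertT le a l).val = l.orderedInsert (fun x y => (le x y).val = true) a := by
  induction l with
  | nil => simp [insertT]
  | cons b l ih =>
    unfold insertT
    simp only [bind_val', List.orderedInsert_cons]
    split_ifs with h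
    · simp
    · simp [ih]

@[simp] theorem sortT_val (le : α → α → Tick Bool) (l : List α) :
    (sortT le l).val = l.insertionSort (fun x y => (le x y).val = true) := by
  induction l with
  | nil => simp [sortT]
  | cons b l ih => simp [sortT, ih]

@[simp] theorem iterT_val (f : β → Tick β) (n : ℕ) (b : β) :
    (iterT f n b).val = (fun b => (f b).val)^[n] b := by
  induction n generalizing b with
  | zero => simp [iterT]
  | succ n ih => simp [iterT, ih]

/-! ### running times -/

theorem getT_time (l : List α) (i : ℕ) (d : α) : (getT l i d).time ≤ l.length + 1 := by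
  induction l generalizing i with
  | nil => simp [getT]
  | cons x l ih => cases i <;> simp [getT, ih]

theorem setT_time (l : List α) (i : ℕ) (y : α) : (setT l i y).time ≤ l.length + 1 := by
  induction l generalizing i with
  | nil => simp [setT]
  | cons x l ih => cases i <;> simp [setT, ih]

theorem foldlT_time {f : β → α → Tick β} {l : List α} {c : ℕ} (P : β → Prop)
    (hP : ∀ b, P b → ∀ x ∈ l, P (f b x).val) (ht : ∀ b, P b → ∀ x ∈ l, (f b x).time ≤ c)
    {b : β} (hb : P b) : (foldlT f b l).time ≤ l.length * (c + 1) + 1 := by
  induction l generalizing b with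
  | nil => simp [foldlT]
  | cons x l ih =>
    simp only [foldlT, bind_time', pay_time]
    have h1 := ht b hb x List.mem_cons_self
    have h2 := ih (fun b hb y hy => hP b hb y (List.mem_cons_of_mem _ hy))
      (fun b hb y hy => ht b hb y (List.mem_cons_of_mem _ hy)) (hP b hb x List.mem_cons_self)
    have h4 : (x :: l).length * (c + 1) + 1 = l.length * (c + 1) + 1 + (c + 1) := by
      rw [List.length_cons]; ring
    rw [h4]
    omega

/-- the invariant holds at the end of a fold -/
theorem foldlT_inv {f : β → α → Tick β} {l : List α} (P : β → Prop)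
    (hP : ∀ b, P b → ∀ x ∈ l, P (f b x).val) {b : β} (hb : P b) : P (foldlT f b l).val := by
  induction l generalizing b with
  | nil => simpa [foldlT] using hb
  | cons x l ih =>
    simp only [foldlT, bind_val', pay_val]
    exact ih (fun b hb y hy => hP b hb y (List.mem_cons_of_mem _ hy))
      (hP b hb x List.mem_cons_self)

/-- fold whose invariant and cost depend on the number of rounds already made -/
theorem foldlT_time' {f : β → α → Tick β} {l : List α} {c : ℕ} (P : ℕ → β → Prop) {k : ℕ}
    (hP : ∀ i b, P i b → ∀ x ∈ l, P (i + 1) (f b x).val)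
    (ht : ∀ i b, k ≤ i → i < k + l.length → P i b → ∀ x ∈ l, (f b x).time ≤ c)
    {b : β} (hb : P k b) :
    (foldlT f b l).time ≤ l.length * (c + 1) + 1 ∧ P (k + l.length) (foldlT f b l).val := by
  induction l generalizing b k with
  | nil => simpa [foldlT] using hb
  | cons x l ih =>
    simp only [foldlT, bind_time', bind_val', pay_time, pay_val]
    have h1 := ht k b le_rfl (by simp) hb x List.mem_cons_self
    have h2 := ih (k := k + 1) (fun i b hb y hy => hP i b hb y (List.mem_cons_of_mem _ hy))
      (fun i b hi hi2 hb y hy => ht i b (by omega) (by simp only [List.length_cons]; omega) hb y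
        (List.mem_cons_of_mem _ hy)) (hP k b hb x List.mem_cons_self)
    have h4 : (x :: l).length * (c + 1) + 1 = l.length * (c + 1) + 1 + (c + 1) := by
      rw [List.length_cons]; ring
    refine ⟨?_, ?_⟩
    · rw [h4]; omega
    · have h5 : k + (x :: l).length = k + 1 + l.length := by rw [List.length_cons]; ring
      rw [h5]; exact h2.2

theorem rangeUpT_time (n : ℕ) : (rangeUpT n).time = n + 1 := by
  have : ∀ n acc, (rangeUpT.go n acc).time = n + 1 := by
    intro n
    induction n with
    | zero => simp [rangeUpT.go]
    | succ n ih => intro acc; simp [rangeUpT.go, ih]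
  exact this n []

theorem replicateT_time (n : ℕ) (a : α) : (replicateT n a).time = n + 1 := by
  induction n with
  | zero => simp [replicateT]
  | succ n ih => simp [replicateT, ih]

theorem sum_le_of {l : List ℕ} {m : ℕ} (h : ∀ x ∈ l, x ≤ m) : l.sum ≤ l.length * m := by
  induction l with
  | nil => simp
  | cons x l ih =>
    have h1 := h x List.mem_cons_self
    have h2 := ih fun y hy => h y (List.mem_cons_of_mem _ hy)
    rw [List.sum_cons, List.length_cons]
    nlinarith

theorem sumT_time {l : List ℕ} {m : ℕ} (h : ∀ x ∈ l, x ≤ m) :
    (sumT l).time ≤ (l.length + 1) ^ 2 * (m + 1) + 1 := by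
  induction l with
  | nil => simp [sumT]
  | cons x l ih =>
    simp only [sumT, bind_time', addT_time, sumT_val]
    have h1 := h x List.mem_cons_self
    have h2 := ih fun y hy => h y (List.mem_cons_of_mem _ hy)
    have h3 : l.sum ≤ l.length * m := sum_le_of fun y hy => h y (List.mem_cons_of_mem _ hy)
    rw [List.length_cons]
    nlinarith

theorem flattenT_time {l : List (List α)} {m : ℕ} (h : ∀ x ∈ l, x.length ≤ m) :
    (flattenT l).time ≤ l.length * (m + 1) + 1 := by
  induction l with
  | nil => simp [flattenT]
  | cons x l ih =>
    simp only [flattenT, bind_time', appendT_time]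
    have h1 := h x List.mem_cons_self
    have h2 := ih fun y hy => h y (List.mem_cons_of_mem _ hy)
    rw [List.length_cons]
    nlinarith

theorem insertT_time {le : α → α → Tick Bool} {a : α} {l : List α} {c : ℕ}
    (h : ∀ x ∈ l, (le a x).time ≤ c) : (insertT le a l).time ≤ l.length * (c + 1) + 1 := by
  induction l with
  | nil => simp [insertT]
  | cons x l ih =>
    unfold insertT
    simp only [bind_time']
    have h1 := h x List.mem_cons_self
    have h2 := ih fun y hy => h y (List.mem_cons_of_mem _ hy)
    have h4 : (x :: l).length * (c + 1) + 1 = l.length * (c + 1) + 1 + (c + 1) := by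
      rw [List.length_cons]; ring
    rw [h4]
    split_ifs <;> simp <;> omega

theorem sortT_time {le : α → α → Tick Bool} {l : List α} {c : ℕ}
    (h : ∀ x ∈ l, ∀ y ∈ l, (le x y).time ≤ c) :
    (sortT le l).time ≤ (l.length + 1) ^ 2 * (c + 1) := by
  induction l with
  | nil => simp [sortT]
  | cons x l ih =>
    simp only [sortT, bind_time']
    have h2 := ih fun y hy z hz => h y (List.mem_cons_of_mem _ hy) z (List.mem_cons_of_mem _ hz)
    have h3 : (insertT le x (sortT le l).val).time ≤ (sortT le l).val.length * (c + 1) + 1 := by
      refine insertT_time fun y hy => h x List.mem_cons_self y (List.mem_cons_of_mem _ ?_)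
      rw [sortT_val] at hy
      exact (List.perm_insertionSort _ l).mem_iff.mp hy
    have h4 : (sortT le l).val.length = l.length := by
      rw [sortT_val]
      exact (List.perm_insertionSort _ l).length_eq
    rw [h4] at h3
    rw [List.length_cons]
    nlinarith

theorem iterT_time {f : β → Tick β} {c : ℕ} (P : β → Prop) (hP : ∀ b, P b → P (f b).val)
    (ht : ∀ b, P b → (f b).time ≤ c) (n : ℕ) {b : β} (hb : P b) :
    (iterT f n b).time ≤ n * (c + 1) + 1 ∧ P (iterT f n b).val := by
  induction n generalizing b with
  | zero => simpa [iterT] using hb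
  | succ n ih =>
    simp only [iterT, bind_time', bind_val', pay_time, pay_val]
    have h1 := ht b hb
    have h2 := ih (hP b hb)
    refine ⟨?_, h2.2⟩
    have h4 : (n + 1) * (c + 1) + 1 = n * (c + 1) + 1 + (c + 1) := by ring
    rw [h4]
    omega

end Vale.Agent.P333
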